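import Crest.Agent.R162.E.Basic

/-! # Row 162, block E: the localising jet `a` -/

set_option autoImplicit false

open scoped ENNReal NNReal Topology
open Set Filter MeasureTheory Metric

noncomputable section
namespace Crest.Agent.R162.E

variable {ω : Path} {z : ℂ} {t x R η : ℝ}

/-! ### A-a: regularity -/

theorem aa_norm {f : ℝ → ℂ} {f' : ℂ} {s : Set ℝ} (hf : HasDerivWithinAt f f' s x) (N0 : 0 < ‖f x‖) :
    HasDerivWithinAt (fun y => ‖f y‖) (((f x).re * f'.re + (f x).im * f'.im) / ‖f x‖) s x := by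
  have h1 := hf.norm_sq.sqrt (pow_ne_zero 2 N0.ne')
  simp only [Real.sqrt_sq (norm_nonneg _)] at h1
  refine h1.congr_deriv ?_
  simp
  field_simp

theorem aa_le : Yc ω z t ≤ ‖gt ω z t - x‖ :=
  (le_abs_self _).trans (by simpa [Yc] using Complex.abs_im_le_norm (gt ω z t - x))

theorem aa_pos (h : Alive ω z t) : 0 < ‖gt ω z t - x‖ := (alive_iff.1 h).trans_le aa_le

/-- `‖g - x‖ = sqrt ((Re g - x)² + Y²)`, `Y > 0`; use `Alive.cont_gt`, `Alive.deriv_gt` (or the closure lemmas of block I and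
`Jet.At.congr`) -/
theorem at_jRho (h : Alive ω z t) : (jRho z).At t x ω := by
  have Y0 := alive_iff.1 h
  have im : ∀ (r y : ℝ), (gt ω z r - y).im = Yc ω z r := fun r y => by simp [Yc]
  have re : ∀ (r y : ℝ), (gt ω z r - y).re = (gt ω z r).re - y := fun r y => by simp
  have N0 := aa_pos (x := x) h
  have cY : CtsAt (fun t _ ω => Yc ω z t) t x ω := h.at_jY.cf
  have cN : CtsAt (fun t x ω => ‖gt ω z t - x‖) t x ω := h.at_jZ.cf.norm
  have cA : CtsAt (fun t x ω => (gt ω z t).re - x) t x ω :=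
    (Complex.continuous_re.continuousAt.comp_continuousWithinAt h.at_jG.cf).sub
      (Continuous.continuousWithinAt (by fun_prop))
  have cR := Complex.continuous_re.continuousAt.comp_continuousWithinAt (h.at_jZ (x := x)).cs
  have cI := Complex.continuous_im.continuousAt.comp_continuousWithinAt (h.at_jZ (x := x)).cs
  have dz : HasDerivAt (fun y : ℝ => gt ω z t - y) (-1) x := (h.at_jZ (x := x)).dx
  have dx : HasDerivAt (fun y => (jRho z).f t y ω) ((jRho z).x t x ω) x := by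
    have := aa_norm (s := univ) dz.hasDerivWithinAt N0
    simp only [im, re, hasDerivWithinAt_univ] at this
    exact this.congr_deriv (by simp [jRho])
  refine ⟨cN, ((cA.mul cR).add (cY.mul cI)).div cN N0.ne', cA.neg.div cN N0.ne',
    (cY.pow 2).div (cN.pow 3) (pow_ne_zero 3 N0.ne'), ?_, dx, ?_⟩
  · have := aa_norm (f := fun r => gt ω z r - x) (h.at_jZ (x := x)).ds N0
    simp only [im, re] at this
    exact this
  · refine (((hasDerivAt_id x).const_sub (gt ω z t).re).fun_neg.fun_div dx N0.ne').congr_deriv ?_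
    have e : Yc ω z t ^ 2 = ‖gt ω z t - x‖ ^ 2 - ((gt ω z t).re - x) ^ 2 := by
      rw [Complex.sq_norm, Complex.normSq_apply, im, re]; ring
    simp only [jRho, e, id]
    field_simp

theorem at_jZeta (h : Alive ω z t) : (jZeta z).At t x ω := by
  have hr := at_jRho (x := x) h
  have c : ∀ {f : ℝ → ℝ → Path → ℝ}, CtsAt f t x ω → CtsAt (fun t x ω => Complex.I * f t x ω) t x ω := fun hf =>
    continuousWithinAt_const.mul (Complex.continuous_ofReal.continuousAt.comp_continuousWithinAt hf)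
  exact ⟨(Continuous.continuousWithinAt (by fun_prop)).add (c hr.cf), c hr.cs,
    continuousWithinAt_const.add (c hr.cx), c hr.cxx, (hr.ds.ofReal_comp.const_mul _).const_add _,
    (hasDerivAt_id x).ofReal_comp.fun_add (hr.dx.ofReal_comp.const_mul _),
    (hr.dxx.ofReal_comp.const_mul _).const_add _⟩

theorem jZeta_mem (h : Alive ω z t) : (jZeta z).f t x ω ∈ HH := by
  simpa [HH, jZeta, jRho] using aa_pos (x := x) h

theorem at_jW (h : Alive ω z t) : (jW z).At t x ω := (at_jZeta h).ft h.1 (jZeta_mem h)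

theorem at_jQ (h : Alive ω z t) : (jQ z).At t x ω := by
  have hw := at_jW (x := x) h
  have c0 : CtsAt (fun t x ω => z - (jW z).f t x ω) t x ω := continuousWithinAt_const.sub hw.cf
  have c : ∀ {f : ℝ → ℝ → Path → ℂ}, CtsAt f t x ω →
      CtsAt (fun t x ω => ((starRingEnd ℂ) (z - (jW z).f t x ω) * f t x ω).re) t x ω := fun hf =>
    Complex.continuous_re.continuousAt.comp_continuousWithinAt
      ((Complex.continuous_conj.continuousAt.comp_continuousWithinAt c0).mul hf)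
  refine ⟨c0.norm.pow 2, continuousWithinAt_const.mul (c hw.cs), continuousWithinAt_const.mul (c hw.cx),
    (continuousWithinAt_const.mul (hw.cx.norm.pow 2)).sub (continuousWithinAt_const.mul (c hw.cxx)), ?_, ?_, ?_⟩
  · exact (hw.ds.const_sub z).norm_sq.congr_deriv (by simp [jQ]; ring)
  · exact (hw.dx.const_sub z).norm_sq.congr_deriv (by simp [jQ]; ring)
  · have h1 := (Complex.conjCLE.toContinuousLinearMap.hasFDerivAt.comp_hasDerivAt x (hw.dx.const_sub z)).fun_mul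
      hw.dxx
    refine ((Complex.reCLM.hasFDerivAt.comp_hasDerivAt x h1).const_mul (-2)).congr_deriv ?_
    simp [jQ, Complex.sq_norm, Complex.normSq_apply]
    ring

theorem at_jA (hR : 0 < R) (h : Alive ω z t) : (jA R z).At t x ω := by
  have h0 : 0 < 1 + (jQ z).f t x ω / R ^ 2 := by simp only [jQ]; positivity
  have hc : Continuous fun q : ℝ => 1 + q / R ^ 2 := by fun_prop
  have he : ∀ᶠ u in 𝓝 ((jQ z).f t x ω), 0 < 1 + u / R ^ 2 := (hc.tendsto _).eventually (lt_mem_nhds h0)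
  have hd : ∀ u : ℝ, HasDerivAt (fun q : ℝ => 1 + q / R ^ 2) (1 / R ^ 2) u := fun u =>
    ((hasDerivAt_id u).div_const _).const_add 1
  refine (at_jQ h).comp (he.mono fun u hu => ?_) (he.mono fun u hu => ?_)
    (continuousAt_const.mul ((hc.continuousAt.pow 10).inv₀ (pow_ne_zero _ h0.ne')))
  · refine (((hd u).fun_pow 8).fun_inv (pow_ne_zero _ hu.ne')).congr_deriv ?_
    generalize 1 + u / R ^ 2 = v at hu
    field_simp
    push_cast
    ring
  · refine ((((hd u).fun_pow 9).fun_inv (pow_ne_zero _ hu.ne')).const_mul _).congr_deriv ?_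
    generalize 1 + u / R ^ 2 = v at hu
    field_simp
    push_cast
    ring

theorem jA_val : (jA R z).val t ω = aF R ω z t := by
  rfl

/-! ### A-b: the diagonal bounds -/

theorem ab_rho (h : Alive ω z t) : |(jRho z).s t x ω| ≤ 4 / ‖Zc ω z t‖ ∧ |(jRho z).x t x ω| ≤ 1 ∧
    |(jRho z).xx t x ω| ≤ 1 / ‖gt ω z t - x‖ := by
  have N0 := aa_pos (x := x) h
  have Y0 := alive_iff.1 h
  have a1 : |(gt ω z t).re - x| ≤ ‖gt ω z t - x‖ := by simpa using Complex.abs_re_le_norm (gt ω z t - x)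
  have a2 : |Yc ω z t| ≤ ‖gt ω z t - x‖ := (abs_of_pos Y0).trans_le aa_le
  have a4 : ‖2 / Zc ω z t‖ = 2 / ‖Zc ω z t‖ := by rw [norm_div, Complex.norm_ofNat]
  have a5 := (Complex.abs_re_le_norm _).trans a4.le
  have a6 := (Complex.abs_im_le_norm _).trans a4.le
  simp only [jRho, abs_div, abs_of_pos N0, abs_neg, abs_pow]
  refine ⟨?_, (div_le_one N0).2 a1, ?_⟩
  · rw [div_le_iff₀ N0]
    refine (abs_add_le _ _).trans ?_
    rw [abs_mul, abs_mul]
    have b1 := mul_le_mul a1 a5 (abs_nonneg _) N0.le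
    have b2 := mul_le_mul a2 a6 (abs_nonneg _) N0.le
    calc _ ≤ _ := add_le_add b1 b2
      _ = _ := by ring
  · rw [div_le_div_iff₀ (by positivity) N0]
    calc _ ≤ ‖gt ω z t - x‖ ^ 2 * ‖gt ω z t - x‖ := by gcongr
      _ = _ := by ring

theorem ab_W (h : Alive ω z t) {D₁ D₂ : ℝ} (h1 : ‖deriv (ft ω t) ((jZeta z).f t x ω)‖ ≤ D₁)
    (h2 : ‖deriv (deriv (ft ω t)) ((jZeta z).f t x ω)‖ ≤ D₂) :
    ‖(jW z).s t x ω‖ ≤ D₁ * (4 / ‖Zc ω z t‖ + 2 / ‖gt ω z t - x‖) ∧ ‖(jW z).x t x ω‖ ≤ D₁ * 2 ∧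
      ‖(jW z).xx t x ω‖ ≤ D₂ * 2 * 2 + D₁ / ‖gt ω z t - x‖ := by
  obtain ⟨a, b, c⟩ := ab_rho (x := x) h
  have N0 := aa_pos (x := x) h
  have n : ∀ u : ℝ, ‖Complex.I * u‖ = |u| := fun u => by simp
  have b' : ‖(jZeta z).x t x ω‖ ≤ 2 := (norm_add_le _ _).trans (by rw [n, norm_one]; linarith)
  have d : ‖2 / ((jZeta z).f t x ω - ω t)‖ ≤ 2 / ‖gt ω z t - x‖ := by
    rw [norm_div, Complex.norm_ofNat]
    refine div_le_div_of_nonneg_left zero_le_two N0 ((le_abs_self _).trans ?_)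
    simpa [jZeta, jRho] using Complex.abs_im_le_norm ((jZeta z).f t x ω - ω t)
  exact ⟨norm_mul_le_of_le h1 (norm_sub_le_of_le ((n _).trans_le a) d), norm_mul_le_of_le h1 b',
    norm_add_le_of_le (norm_mul_le_of_le (norm_mul_le_of_le h2 b') b')
      ((norm_mul_le_of_le h1 ((n _).trans_le c)).trans_eq (mul_one_div _ _))⟩

/-- On the diagonal, with `ρ = ‖Z‖`, `ζ* = ω t + iρ`, `f = ft ω t`, `Υ* = ρ ‖f'(ζ*)‖ = R · us` (`Up_ft`):
`‖w.s‖ ≤ 4Υ*/ρ²`, `‖w.x‖ ≤ 2Υ*/ρ`, `‖w.xx‖ ≤ (4C+1)Υ*/ρ²` (`Koebe.second`). -/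
theorem jW_diag : ∃ C, 1 ≤ C ∧ ∀ (ω : Path) (z : ℂ) (t : ℝ), Alive ω z t →
    (jW z).f t (ω t) ω = wz ω z t ∧
    ‖(jW z).s t (ω t) ω‖ ≤ C * Up ω (wz ω z t) t / ‖Zc ω z t‖ ^ 2 ∧
    ‖(jW z).x t (ω t) ω‖ ≤ C * Up ω (wz ω z t) t / ‖Zc ω z t‖ ∧
    ‖(jW z).xx t (ω t) ω‖ ≤ C * Up ω (wz ω z t) t / ‖Zc ω z t‖ ^ 2 := by
  obtain ⟨K, hK⟩ := exists_koebe
  have K2 := hK.two_le
  refine ⟨4 * K + 1, by linarith, fun ω z t h => ⟨rfl, ?_⟩⟩
  have hm := jZeta_mem (x := ω t) h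
  have N0 := Lx.norm_pos h
  have him : ((jZeta z).f t (ω t) ω).im = ‖Zc ω z t‖ := by simp [jZeta, jRho, Zc]
  have hU : Up ω (wz ω z t) t = ‖Zc ω z t‖ * ‖deriv (ft ω t) ((jZeta z).f t (ω t) ω)‖ := by
    rw [← him]; exact Up_ft h.1 hm
  have h2 := hK.second _ (differentiableOn_ft (ω := ω) h.1) (injOn_ft h.1) _ hm
  rw [him, ← le_div_iff₀' N0] at h2
  obtain ⟨a, b, c⟩ := ab_W h le_rfl h2
  change _ ≤ _ * (4 / ‖Zc ω z t‖ + 2 / ‖Zc ω z t‖) at a
  change _ ≤ _ + _ / ‖Zc ω z t‖ at c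
  rw [hU]
  set D := ‖deriv (ft ω t) ((jZeta z).f t (ω t) ω)‖
  have D0 : 0 ≤ D := norm_nonneg _
  have e1 : (4 * K + 1) * (‖Zc ω z t‖ * D) / ‖Zc ω z t‖ ^ 2 = (4 * K + 1) * (D / ‖Zc ω z t‖) := by field_simp
  have e2 : (4 * K + 1) * (‖Zc ω z t‖ * D) / ‖Zc ω z t‖ = (4 * K + 1) * D := by field_simp
  have D1 : 0 ≤ D / ‖Zc ω z t‖ := by positivity
  rw [e1, e2]
  refine ⟨a.trans ?_, b.trans (by nlinarith), c.trans_eq (by ring)⟩
  calc _ = 6 * (D / ‖Zc ω z t‖) := by ring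
    _ ≤ _ := mul_le_mul_of_nonneg_right (by linarith) D1

/-- the chain rule for `a` in terms of bounds on `w`: with `D = ‖z - w‖`, use `D/R ≤ 1 + D²/R²` -/
theorem jA_le (hR : 0 < R) {A₀ A₁ A₂ : ℝ} (h0 : ‖(jW z).s t x ω‖ ≤ A₀) (h1 : ‖(jW z).x t x ω‖ ≤ A₁)
    (h2 : ‖(jW z).xx t x ω‖ ≤ A₂) :
    0 < (jA R z).f t x ω ∧ (jA R z).f t x ω ≤ 1 ∧
    |(jA R z).s t x ω| ≤ 16 * A₀ / R * (jA R z).f t x ω ∧ |(jA R z).x t x ω| ≤ 16 * A₁ / R * (jA R z).f t x ω ∧
    |(jA R z).xx t x ω| ≤ (304 * A₁ ^ 2 / R ^ 2 + 16 * A₂ / R) * (jA R z).f t x ω := by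
  set D := ‖z - (jW z).f t x ω‖ with hD
  have D0 : 0 ≤ D := norm_nonneg _
  have m : ∀ {a : ℂ} {A : ℝ}, ‖a‖ ≤ A → |((starRingEnd ℂ) (z - (jW z).f t x ω) * a).re| ≤ D * A := fun ha =>
    (Complex.abs_re_le_norm _).trans (norm_mul_le_of_le (Complex.norm_conj _).le ha)
  have A0 := (norm_nonneg _).trans h0
  have A1 := (norm_nonneg _).trans h1
  have A2 := (norm_nonneg _).trans h2
  have q0 : |(jQ z).s t x ω| ≤ 2 * (D * A₀) := by
    simp only [jQ, abs_mul, abs_neg, abs_two]; linarith [m h0]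
  have q1 : |(jQ z).x t x ω| ≤ 2 * (D * A₁) := by
    simp only [jQ, abs_mul, abs_neg, abs_two]; linarith [m h1]
  have q2 : |(jQ z).xx t x ω| ≤ 2 * A₁ ^ 2 + 2 * (D * A₂) := by
    refine (abs_sub _ _).trans (add_le_add ?_ ?_)
    · rw [abs_of_nonneg (by positivity)]; gcongr
    · rw [abs_mul, abs_two]; linarith [m h2]
  set u := 1 + D ^ 2 / R ^ 2 with hu
  have u1 : 1 ≤ u := le_add_of_nonneg_right (by positivity)
  have u0 : 0 < u := by linarith
  have u2 : D / R / u ≤ 1 := by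
    rw [div_le_one u0, hu, ← div_pow]; nlinarith [sq_nonneg (D / R - 1)]
  have u3 : 0 ≤ D / R / u := by positivity
  have u4 : 1 / u ≤ 1 := (div_le_one u0).2 u1
  have f0 : 0 < (u ^ 8)⁻¹ := by positivity
  have k : ∀ {Q A : ℝ}, 0 ≤ A → |Q| ≤ 2 * (D * A) → |-8 / R ^ 2 * (u ^ 9)⁻¹ * Q| ≤ 16 * A / R * (u ^ 8)⁻¹ :=
    fun {Q A} hA hQ => by
      rw [abs_mul, neg_div, neg_mul, abs_neg, abs_of_nonneg (by positivity)]
      calc _ ≤ 8 / R ^ 2 * (u ^ 9)⁻¹ * (2 * (D * A)) := by gcongr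
        _ = 16 * A / R * (u ^ 8)⁻¹ * (D / R / u) := by field_simp; ring
        _ ≤ _ := mul_le_of_le_one_right (by positivity) u2
  refine ⟨f0, inv_le_one_of_one_le₀ (one_le_pow₀ u1), k A0 q0, k A1 q1, ?_⟩
  change |72 / R ^ 4 * (u ^ 10)⁻¹ * (jQ z).x t x ω * (jQ z).x t x ω + -8 / R ^ 2 * (u ^ 9)⁻¹ * (jQ z).xx t x ω| ≤
    _ * (u ^ 8)⁻¹
  refine (abs_add_le _ _).trans ?_
  rw [abs_mul, abs_mul, abs_mul (-8 / R ^ 2 * _), neg_div, neg_mul, abs_neg, abs_of_nonneg (by positivity),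
    abs_of_nonneg (a := 8 / R ^ 2 * _) (by positivity)]
  calc _ ≤ 72 / R ^ 4 * (u ^ 10)⁻¹ * (2 * (D * A₁)) * (2 * (D * A₁)) +
        8 / R ^ 2 * (u ^ 9)⁻¹ * (2 * A₁ ^ 2 + 2 * (D * A₂)) := by gcongr
    _ = 288 * A₁ ^ 2 / R ^ 2 * (u ^ 8)⁻¹ * (D / R / u) ^ 2 + 16 * A₁ ^ 2 / R ^ 2 * (u ^ 8)⁻¹ * (1 / u) +
        16 * A₂ / R * (u ^ 8)⁻¹ * (D / R / u) := by field_simp; ring
    _ ≤ 288 * A₁ ^ 2 / R ^ 2 * (u ^ 8)⁻¹ + 16 * A₁ ^ 2 / R ^ 2 * (u ^ 8)⁻¹ + 16 * A₂ / R * (u ^ 8)⁻¹ :=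
        add_le_add_three (mul_le_of_le_one_right (by positivity) (pow_le_one₀ u3 u2))
          (mul_le_of_le_one_right (by positivity) u4) (mul_le_of_le_one_right (by positivity) u2)
    _ = _ := by ring

theorem jA_diag : ∃ C, 1 ≤ C ∧ ∀ (κ R : ℝ) (ω : Path) (z : ℂ) (t : ℝ), 0 < κ → κ < 8 → 0 < R → Alive ω z t →
    |(jA R z).x t (ω t) ω| ≤ C * us R ω z t * aF R ω z t / ‖Zc ω z t‖ ∧
    |(jA R z).gen κ t ω| ≤ C * (us R ω z t + us R ω z t ^ 2) * aF R ω z t / ‖Zc ω z t‖ ^ 2 := by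
  obtain ⟨C, hC, hW⟩ := jW_diag
  refine ⟨1300 * C ^ 2, by nlinarith, fun κ R ω z t hκ hκ8 hR h => ?_⟩
  obtain ⟨-, a, b, c⟩ := hW ω z t h
  obtain ⟨f0, -, s1, x1, xx1⟩ := jA_le hR a b c
  have N0 := Lx.norm_pos h
  have e : (jA R z).f t (ω t) ω = aF R ω z t := rfl
  have eU : Up ω (wz ω z t) t = us R ω z t * R := by rw [us, div_mul_cancel₀ _ hR.ne']
  rw [e] at f0 s1 x1 xx1
  rw [eU] at s1 x1 xx1
  have u0 := us_nonneg hR ω z t
  set u := us R ω z t
  set A := aF R ω z t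
  set N := ‖Zc ω z t‖
  have C2 : C ≤ C ^ 2 := by nlinarith
  have p1 : 0 ≤ u * A / N := by positivity
  have p2 : 0 ≤ u * A / N ^ 2 := by positivity
  have p3 : 0 ≤ u ^ 2 * A / N ^ 2 := by positivity
  constructor
  · calc _ ≤ _ := x1
      _ = 16 * C * (u * A / N) := by field_simp
      _ ≤ 1300 * C ^ 2 * (u * A / N) := mul_le_mul_of_nonneg_right (by nlinarith) p1
      _ = _ := by ring
  · have s2 : |(jA R z).s t (ω t) ω| ≤ 16 * C * (u * A / N ^ 2) := s1.trans_eq (by field_simp)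
    have xx2 : |(jA R z).xx t (ω t) ω| ≤ 304 * C ^ 2 * (u ^ 2 * A / N ^ 2) + 16 * C * (u * A / N ^ 2) :=
      xx1.trans_eq (by field_simp)
    have k : |κ / 2 * (jA R z).xx t (ω t) ω| ≤ 4 * |(jA R z).xx t (ω t) ω| := by
      rw [abs_mul, abs_of_pos (half_pos hκ)]
      exact mul_le_mul_of_nonneg_right (by linarith) (abs_nonneg _)
    calc _ ≤ _ := abs_add_le _ _
      _ ≤ 1300 * C ^ 2 * (u * A / N ^ 2) + 1300 * C ^ 2 * (u ^ 2 * A / N ^ 2) := by
          rw [smul_eq_mul]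
          nlinarith [mul_le_mul_of_nonneg_right C2 p2, mul_nonneg (sq_nonneg C) p2, mul_nonneg (sq_nonneg C) p3]
      _ = _ := by ring

/-! ### A-c: global bounds, adaptedness, measurability -/

/-- `‖g - x‖ ≥ Y ≥ η`, `‖Z‖ ≥ η`, `Im ζ* ≥ η`; `norm_deriv_ft`, `norm_deriv2_ft`, then `jA_le` -/
theorem jA_bd (hR : 0 < R) (hη : 0 < η) (T : ℝ) : ∃ B, 0 ≤ B ∧ ∀ (z : ℂ) (t x : ℝ) (ω : Path), t ≤ T →
    η ≤ Yc ω z t → (jA R z).Bd t x ω B := by
  set D₁ := √(1 + 4 * T / η ^ 2)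
  set D₂ := 2 * √(1 + 16 * T / η ^ 2) / η
  set A₀ := D₁ * (4 / η + 2 / η)
  set A₁ := D₁ * 2
  set A₂ := D₂ * 2 * 2 + D₁ / η
  have p0 : 0 ≤ 16 * A₀ / R := by positivity
  have p1 : 0 ≤ 16 * A₁ / R := by positivity
  have p2 : 0 ≤ 304 * A₁ ^ 2 / R ^ 2 + 16 * A₂ / R := by positivity
  refine ⟨1 + 16 * A₀ / R + 16 * A₁ / R + (304 * A₁ ^ 2 / R ^ 2 + 16 * A₂ / R), by positivity,
    fun z t x ω hT hY => ?_⟩
  have h : Alive ω z t := alive_iff.2 (hη.trans_le hY)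
  have ht := h.1
  have hT0 := ht.trans hT
  have hm := jZeta_mem (x := x) h
  have hN : η ≤ ‖gt ω z t - x‖ := hY.trans aa_le
  have hZ : η ≤ ‖Zc ω z t‖ := hY.trans Yc_le_norm
  have him : η ≤ ((jZeta z).f t x ω).im := by simpa [jZeta, jRho] using hN
  have d1 : ‖deriv (ft ω t) ((jZeta z).f t x ω)‖ ≤ D₁ := (norm_deriv_ft ht hm).trans (by simp only [D₁]; gcongr)
  have d2 : ‖deriv (deriv (ft ω t)) ((jZeta z).f t x ω)‖ ≤ D₂ :=
    (norm_deriv2_ft ht hm).trans (by simp only [D₂]; gcongr)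
  obtain ⟨a, b, c⟩ := ab_W h d1 d2
  obtain ⟨f0, f1, s1, x1, xx1⟩ := jA_le hR (A₀ := A₀) (A₁ := A₁) (A₂ := A₂) (a.trans (by simp only [A₀]; gcongr)) b
    (c.trans (by simp only [A₂]; gcongr))
  have s2 := s1.trans (mul_le_of_le_one_right p0 f1)
  have x2 := x1.trans (mul_le_of_le_one_right p1 f1)
  have xx2 := xx1.trans (mul_le_of_le_one_right p2 f1)
  exact ⟨(abs_of_pos f0).trans_le (by linarith), s2.trans (by linarith), x2.trans (by linarith),
    xx2.trans (by linarith)⟩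

theorem ad_jA : (jA R z).Ad := by
  refine Jet.Ad.comp (fun t x ω ω' h => ?_) _ _ _
  simp only [jQ, jW, Jet.ft, jZeta, jRho, h.gt, h.ft, Lx.agr_Zc h, Lx.agr_Yc h, h t le_rfl, and_self]

/-- `ft ω t` is continuous on `HH` and constant outside (`invFunOn`; for `t < 0` it is constant) -/
theorem measurable_ft (ω : Path) (t : ℝ) : Measurable (ft ω t) := by
  classical
  have k : ∀ ζ, (t < 0 ∨ ζ ∉ HH) → ft ω t ζ = Classical.choice inferInstance := fun ζ h =>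
    Function.invFunOn_neg fun ⟨a, ha, e⟩ => h.elim (fun h => h.not_ge ha.1) fun h => h (e ▸ Lx.gt_mem ha)
  rcases lt_or_ge t 0 with ht | ht
  · rw [show ft ω t = fun _ => Classical.choice inferInstance from funext fun ζ => k ζ (Or.inl ht)]
    exact measurable_const
  · convert (differentiableOn_ft (ω := ω) ht).continuousOn.measurable_piecewise
      (continuousOn_const (c := (Classical.choice inferInstance : ℂ))) Lx.isOpen_HH'.measurableSet using 1
    ext ζ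
    by_cases hζ : ζ ∈ HH
    · rw [piecewise_eq_of_mem _ _ _ hζ]
    · rw [piecewise_eq_of_notMem _ _ _ hζ, k ζ (Or.inr hζ)]

theorem ac2_meas (ω : Path) (t : ℝ) : Measurable (fun z => gt ω z t) ∧ Measurable (fun z => Yc ω z t) ∧
    Measurable (fun z => Zc ω z t) ∧ Measurable (fun z => Up ω z t) ∧ Measurable (fun z => Sc ω z t) :=
  have hm : Measurable fun z : ℂ => (ω, z, t) := by fun_prop
  ⟨measurable_gt.comp hm, Lx.measurable_Yc'.comp hm, Lx.measurable_Zc'.comp hm, measurable_Up.comp hm,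
    measurable_Sc.comp hm⟩

theorem mz_jA (R : ℝ) : Mz (jA R) := by
  intro t x ω
  obtain ⟨h1, h2, h3, -, -⟩ := ac2_meas ω t
  have h4 := measurable_ft ω t
  have h5 := measurable_deriv (ft ω t)
  have h6 := measurable_deriv (deriv (ft ω t))
  have h7 := Complex.continuous_conj.measurable
  have hZ : Mz jZeta := fun t x ω => by
    obtain ⟨h1, h2, h3, -, -⟩ := ac2_meas ω t
    simp only [jZeta, jRho]
    exact ⟨by fun_prop, by fun_prop, by fun_prop, by fun_prop⟩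
  obtain ⟨z1, z2, z3, z4⟩ := hZ t x ω
  have w1 : Measurable fun z => (jW z).f t x ω := h4.comp z1
  have w2 : Measurable fun z => (jW z).s t x ω :=
    (h5.comp z1).mul (z2.sub (measurable_const.div (z1.sub_const _)))
  have w3 : Measurable fun z => (jW z).x t x ω := (h5.comp z1).mul z3
  have w4 : Measurable fun z => (jW z).xx t x ω := (((h6.comp z1).mul z3).mul z3).add ((h5.comp z1).mul z4)
  have c := h7.comp (measurable_id.sub w1)
  have q1 : Measurable fun z => (jQ z).f t x ω := (measurable_id.sub w1).norm.pow_const 2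
  have q2 : Measurable fun z => (jQ z).s t x ω := (Complex.measurable_re.comp (c.mul w2)).const_mul _
  have q3 : Measurable fun z => (jQ z).x t x ω := (Complex.measurable_re.comp (c.mul w3)).const_mul _
  have q4 : Measurable fun z => (jQ z).xx t x ω :=
    ((w3.norm.pow_const 2).const_mul _).sub ((Complex.measurable_re.comp (c.mul w4)).const_mul _)
  have p : ∀ n : ℕ, Measurable fun z => ((1 + (jQ z).f t x ω / R ^ 2) ^ n)⁻¹ := fun n =>
    (((q1.div_const _).const_add 1).pow_const n).inv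
  exact ⟨p 8, ((p 9).const_mul _).mul q2, ((p 9).const_mul _).mul q3,
    ((((p 10).const_mul _).mul q3).mul q3).add (((p 9).const_mul _).mul q4)⟩

theorem mz_jSp (e : ℝ) : Mz (jSp e) := by
  intro t x ω
  obtain ⟨h1, h2, h3, -, -⟩ := ac2_meas ω t
  simp only [jSp]
  exact ⟨by fun_prop, by fun_prop, by fun_prop, by fun_prop⟩

theorem mz_jfY {φ : ℝ → ℝ} (hφ : Measurable φ) : Mz (jfY φ) := by
  intro t x ω
  obtain ⟨h1, h2, h3, -, -⟩ := ac2_meas ω t
  exact ⟨hφ.comp h2, ((measurable_deriv φ).comp h2).mul ((h2.const_mul _).div (h3.norm.pow_const 2)),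
    measurable_const, measurable_const⟩

theorem mz_jfU {φ : ℝ → ℝ} (hφ : Measurable φ) : Mz (jfU φ) := by
  intro t x ω
  obtain ⟨h1, h2, h3, h4, h5⟩ := ac2_meas ω t
  exact ⟨hφ.comp h4, ((measurable_deriv φ).comp h4).mul (((h4.const_mul _).mul (h5.pow_const 2)).div
    (h3.norm.pow_const 2)), measurable_const, measurable_const⟩

theorem mz_const {c : ℂ → ℝ} (hc : Measurable c) : Mz fun z => Jet.const fun _ => c z := by
  exact fun t x ω => ⟨hc, measurable_const, measurable_const, measurable_const⟩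

theorem Mz.add {J K : ℂ → Jet ℝ} (hJ : Mz J) (hK : Mz K) : Mz fun z => (J z).add (K z) := by
  intro t x ω
  obtain ⟨a1, a2, a3, a4⟩ := hJ t x ω
  obtain ⟨b1, b2, b3, b4⟩ := hK t x ω
  exact ⟨a1.add b1, a2.add b2, a3.add b3, a4.add b4⟩

theorem Mz.mul {J K : ℂ → Jet ℝ} (hJ : Mz J) (hK : Mz K) : Mz fun z => (J z).mul (K z) := by
  intro t x ω
  obtain ⟨a1, a2, a3, a4⟩ := hJ t x ω
  obtain ⟨b1, b2, b3, b4⟩ := hK t x ω
  exact ⟨a1.mul b1, (a2.mul b1).add (a1.mul b2), (a3.mul b1).add (a1.mul b3),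
    ((a4.mul b1).add (a3.mul b3)).add ((a3.mul b3).add (a1.mul b4))⟩

theorem ac2_wz (ω : Path) (t : ℝ) : Measurable fun z => wz ω z t := by
  have h3 := (ac2_meas ω t).2.2.1
  exact (measurable_ft ω t).comp (f := fun z => (ω t : ℂ) + Complex.I * (‖Zc ω z t‖ : ℝ)) (by fun_prop)

theorem measurable_us (R : ℝ) (ω : Path) (t : ℝ) : Measurable fun z => us R ω z t := by
  exact ((ac2_meas ω t).2.2.2.1.comp (ac2_wz ω t)).div_const R

theorem measurable_P (p : Par) (ω : Path) (t : ℝ) :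
    Measurable (P1 p ω t) ∧ Measurable (P2 p ω t) ∧ Measurable (P3 p ω t) := by
  obtain ⟨h1, h2, h3, h4, h5⟩ := ac2_meas ω t
  have hA : Measurable fun z => aF p.R ω z t := (mz_jA p.R t (ω t) ω).1
  have hc : ∀ η, Measurable fun z => cut η (Yc ω z t) := fun η => (contDiff_cut η).continuous.measurable.comp h2
  have hp : Measurable fun z => psi (Up ω z t / p.R) := contDiff_psi.continuous.measurable.comp (h4.div_const _)
  have hb := (continuous_bet p).measurable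
  have hT : Measurable fun z => Th' (dE p.κ) (Up ω z t / p.R) := by unfold Th'; fun_prop
  exact ⟨(((((measurable_ind p).mul (hc _)).mul hp).mul ((h4.div_const _).pow_const _)).mul (h5.pow_const _)).mul hA,
    (((hb.mul (hc _)).mul hp).mul (h5.pow_const _)).mul hA, ((hb.mul (hc _)).mul (h5.pow_const 2)).mul hT⟩

theorem measurableSet_An (ω : Path) (t : ℝ) (k : ℤ) : MeasurableSet (An ω t k) := by
  have h3 := (ac2_meas ω t).2.2.1
  have h1 : MeasurableSet {z | Alive ω z t} := isOpen_Dom.measurableSet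
  have h2 : MeasurableSet {z | (2 : ℝ) ^ k ≤ ‖Zc ω z t‖} := measurableSet_le measurable_const h3.norm
  have h4 : MeasurableSet {z | ‖Zc ω z t‖ < (2 : ℝ) ^ (k + 1)} := measurableSet_lt h3.norm measurable_const
  exact h1.inter (h2.inter h4)

end Crest.Agent.R162.E
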