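import Mathlib

/-! # Row 162, block E: two real-variable lemmas -/

set_option autoImplicit false

open scoped ENNReal

namespace Crest.Agent.R162.E

set_option maxHeartbeats 1600000 in
/-- G6.  `L = β u² min(u^δ,u^{-δ})/(1+u²)²`.  Case `u ≥ 1`: `W₁ + W₂ ≤ C' β/(1+u²)^4` and `β/(1+u²)³ ≤ L`, `≤ 1`.
Case `u ≤ 1`: Young `2C₀ u W₁ ≤ (e/2) W₂ + C' u^{2/b} β ≤ (e/2) W₂ + C'' L` since `2/b ≥ 2 + δ`;  `2C₀ u W₂ ≤ (e/2) W₂` if `u ≤ e/(4C₀)`,
otherwise `W₂ ≤ C β ≤ C'' L`;  `W₁ + W₂ ≤ C' W₂^{1-b/2}` since `W₂ ≤ C`. -/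
theorem alg6 {b δ C C₀ c e : ℝ} (hb : 0 < b) (hb1 : b < 1) (hδ : 0 < δ) (hδ1 : δ ≤ 1) (hδb : 2 + δ ≤ 2 / b)
    (hC : 1 ≤ C) (hC₀ : 0 < C₀) (hc : 0 < c) (he : 0 < e) : ∃ C₃, 1 ≤ C₃ ∧ ∀ W₁ W₂ u β : ℝ, 0 ≤ W₁ → 0 ≤ W₂ → 0 < u →
    0 < β → β ≤ 1 → W₂ ≤ C * (β / (1 + u ^ 2) ^ 4) →
    W₁ ≤ C * W₂ ^ (1 - b / 2) * (β / (1 + u ^ 2) ^ 6) ^ (b / 2) →
    C₀ * (u + u ^ 2) * (W₁ + W₂) ≤ e * W₂ + C₃ * (c * (β * u ^ 2 * min (u ^ δ) (u ^ (-δ)) / (1 + u ^ 2) ^ 2)) ∧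
    (1 + u) * (W₁ + W₂) ≤
      C₃ * (W₂ + min (c * (β * u ^ 2 * min (u ^ δ) (u ^ (-δ)) / (1 + u ^ 2) ^ 2)) 1) ^ (1 - b / 2) := by
  set θ := 1 - b / 2 with hθ
  set φ := b / 2 with hφ
  have hθ0 : 0 < θ := by rw [hθ]; linarith
  have hθ1 : θ ≤ 1 := by rw [hθ]; linarith
  have hφ0 : 0 < φ := by positivity
  have hφ1 : φ ≤ 1 := by rw [hφ]; linarith
  have hsum : θ + φ = 1 := by rw [hθ]; ring
  have hC0 : 0 < C := by linarith
  set c' := min c 1 with hc'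
  have hc'0 : 0 < c' := lt_min hc one_pos
  set D := (2 * C₀ * C / (e / 2) ^ θ) ^ (1 / φ) with hD
  have hD0 : 0 ≤ D := by positivity
  have hDφ : (e / 2) ^ θ * D ^ φ = 2 * C₀ * C := by
    rw [hD, ← Real.rpow_mul (by positivity), one_div_mul_cancel hφ0.ne', Real.rpow_one]
    field_simp
  set u₀ := e / (4 * C₀) with hu₀
  have hu₀0 : 0 < u₀ := by positivity
  have p1 : 0 ≤ 4 * C₀ * C ^ 2 / c := by positivity
  have p2 : 0 ≤ 4 * C ^ 2 / c' := by positivity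
  have p3 : 0 ≤ 4 * D / c := by positivity
  have p4 : 0 ≤ 8 * C₀ * C / (u₀ ^ 3 * c) := by positivity
  refine ⟨1 + 4 * C₀ * C ^ 2 / c + 4 * C ^ 2 / c' + 4 * D / c + 8 * C₀ * C / (u₀ ^ 3 * c) + 4 * C,
    by linarith, fun W₁ W₂ u β h1 h2 hu hβ hβ1 hW₂ hW₁ => ?_⟩
  set C₃ := 1 + 4 * C₀ * C ^ 2 / c + 4 * C ^ 2 / c' + 4 * D / c + 8 * C₀ * C / (u₀ ^ 3 * c) + 4 * C with hC₃
  set q := 1 + u ^ 2 with hq
  have hq1 : 1 ≤ q := by rw [hq]; nlinarith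
  have hq0 : 0 < q := by linarith
  set mn := min (u ^ δ) (u ^ (-δ)) with hmn
  have hmn0 : 0 ≤ mn := le_min (by positivity) (by positivity)
  set L := β * u ^ 2 * mn / q ^ 2 with hL
  have hL0 : 0 ≤ L := by positivity
  have hcL : 0 ≤ c * L := by positivity
  have hmin0 : 0 ≤ min (c * L) 1 := le_min hcL zero_le_one
  have hX0 : 0 ≤ (W₂ + min (c * L) 1) ^ θ := by positivity
  have k1 : 4 * C₀ * C ^ 2 / c ≤ C₃ := by rw [hC₃]; linarith
  have k2 : 4 * C ^ 2 / c' ≤ C₃ := by rw [hC₃]; linarith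
  have k3 : 4 * D / c + 8 * C₀ * C / (u₀ ^ 3 * c) ≤ C₃ := by rw [hC₃]; linarith
  have k4 : 4 * C ≤ C₃ := by rw [hC₃]; linarith
  have k5 : 0 ≤ C₃ := by linarith
  clear_value C₃ D L mn q θ φ u₀
  clear hC₃ hD
  rcases le_total 1 u with hu1 | hu1
  · have hB4 : 0 ≤ β / q ^ 4 := by positivity
    have hW1' : W₁ ≤ C ^ 2 * (β / q ^ 4) := by
      refine hW₁.trans ?_
      have a1 : W₂ ^ θ ≤ C * (β / q ^ 4) ^ θ := by
        calc W₂ ^ θ ≤ (C * (β / q ^ 4)) ^ θ := Real.rpow_le_rpow h2 hW₂ hθ0.le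
          _ = C ^ θ * (β / q ^ 4) ^ θ := Real.mul_rpow hC0.le hB4
          _ ≤ C * (β / q ^ 4) ^ θ := by
            gcongr
            exact Real.rpow_le_self_of_one_le hC hθ1
      have a2 : (β / q ^ 6) ^ φ ≤ (β / q ^ 4) ^ φ := by
        refine Real.rpow_le_rpow (by positivity) ?_ hφ0.le
        exact div_le_div_of_nonneg_left hβ.le (by positivity) (pow_le_pow_right₀ hq1 (by norm_num))
      calc C * W₂ ^ θ * (β / q ^ 6) ^ φ ≤ C * (C * (β / q ^ 4) ^ θ) * (β / q ^ 4) ^ φ := by gcongr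
        _ = C ^ 2 * ((β / q ^ 4) ^ θ * (β / q ^ 4) ^ φ) := by ring
        _ = C ^ 2 * (β / q ^ 4) := by
          rw [← Real.rpow_add (by positivity), hsum, Real.rpow_one]
    have hCC : C ≤ C ^ 2 := by nlinarith
    have hs : W₁ + W₂ ≤ 2 * C ^ 2 * (β / q ^ 4) := by nlinarith
    have hBq : q * (β / q ^ 4) = β / q ^ 3 := by field_simp
    have hB0 : 0 ≤ β / q ^ 3 := by positivity
    have hB1 : β / q ^ 3 ≤ 1 := by
      rw [div_le_one (by positivity)]; exact hβ1.trans (one_le_pow₀ hq1)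
    have hBL : β / q ^ 3 ≤ L := by
      have m1 : u⁻¹ ≤ mn := by
        rw [hmn]
        refine le_min ((inv_le_one_of_one_le₀ hu1).trans (Real.one_le_rpow hu1 hδ.le)) ?_
        rw [← Real.rpow_neg_one]
        exact Real.rpow_le_rpow_of_exponent_le hu1 (by linarith)
      have m2 : 1 ≤ u ^ 2 * mn := by
        calc (1 : ℝ) ≤ u := hu1
          _ = u ^ 2 * u⁻¹ := by field_simp
          _ ≤ u ^ 2 * mn := by gcongr
      calc β / q ^ 3 ≤ β / q ^ 2 :=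
            div_le_div_of_nonneg_left hβ.le (by positivity) (pow_le_pow_right₀ hq1 (by norm_num))
        _ ≤ β * (u ^ 2 * mn) / q ^ 2 :=
            div_le_div_of_nonneg_right (le_mul_of_one_le_right hβ.le m2) (by positivity)
        _ = L := by rw [hL]; ring
    have hu2 : u + u ^ 2 ≤ 2 * q := by rw [hq]; nlinarith
    have hu3 : 1 + u ≤ 2 * q := by rw [hq]; nlinarith
    constructor
    · calc C₀ * (u + u ^ 2) * (W₁ + W₂) ≤ C₀ * (2 * q) * (2 * C ^ 2 * (β / q ^ 4)) := by gcongr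
        _ = 4 * C₀ * C ^ 2 * (q * (β / q ^ 4)) := by ring
        _ ≤ 4 * C₀ * C ^ 2 * L := by rw [hBq]; gcongr
        _ = 4 * C₀ * C ^ 2 / c * (c * L) := by field_simp
        _ ≤ C₃ * (c * L) := by gcongr
        _ ≤ e * W₂ + C₃ * (c * L) := by nlinarith
    · have m1 : c' * (β / q ^ 3) ≤ min (c * L) 1 :=
        le_min (mul_le_mul (min_le_left _ _) hBL hB0 hc.le) (mul_le_one₀ (min_le_right _ _) hB0 hB1)
      have m2 : c' * (β / q ^ 3) ≤ (W₂ + min (c * L) 1) ^ θ := by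
        calc c' * (β / q ^ 3) ≤ (c' * (β / q ^ 3)) ^ θ :=
              Real.self_le_rpow_of_le_one (by positivity) (m1.trans (min_le_right _ _)) hθ1
          _ ≤ _ := Real.rpow_le_rpow (by positivity) (by linarith) hθ0.le
      calc (1 + u) * (W₁ + W₂) ≤ (2 * q) * (2 * C ^ 2 * (β / q ^ 4)) := by gcongr
        _ = 4 * C ^ 2 * (q * (β / q ^ 4)) := by ring
        _ = 4 * C ^ 2 / c' * (c' * (β / q ^ 3)) := by rw [hBq]; field_simp
        _ ≤ C₃ * (W₂ + min (c * L) 1) ^ θ := by gcongr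
  · have hq2 : q ≤ 2 := by rw [hq]; nlinarith
    have hW₂' : W₂ ≤ C * β := hW₂.trans (by gcongr; exact div_le_self hβ.le (one_le_pow₀ hq1))
    have hW₁' : W₁ ≤ C * W₂ ^ θ * β ^ φ := hW₁.trans (by
      gcongr; exact div_le_self hβ.le (one_le_pow₀ hq1))
    have hLge : β * u ^ (2 + δ) ≤ 4 * L := by
      have m1 : u ^ δ ≤ mn := by
        rw [hmn]; exact le_min le_rfl (Real.rpow_le_rpow_of_exponent_ge hu hu1 (by linarith))
      have m2 : q ^ 2 ≤ 4 := by nlinarith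
      rw [Real.rpow_add hu, Real.rpow_two]
      calc β * (u ^ 2 * u ^ δ) ≤ β * (u ^ 2 * mn) := by gcongr
        _ = q ^ 2 * L := by rw [hL]; field_simp
        _ ≤ 4 * L := by gcongr
    have hY : 2 * C₀ * u * W₁ ≤ e / 2 * W₂ + 4 * D / c * (c * L) := by
      have y1 := Real.geom_mean_le_arith_mean2_weighted hθ0.le hφ0.le (p₁ := e / 2 * W₂)
        (p₂ := D * (β * u ^ (2 / b))) (by positivity) (by positivity) hsum
      have y2 : (e / 2 * W₂) ^ θ * (D * (β * u ^ (2 / b))) ^ φ = 2 * C₀ * u * (C * W₂ ^ θ * β ^ φ) := by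
        rw [Real.mul_rpow (by positivity) h2, Real.mul_rpow hD0 (by positivity),
          Real.mul_rpow hβ.le (by positivity), ← Real.rpow_mul hu.le,
          show 2 / b * φ = 1 by rw [hφ]; field_simp, Real.rpow_one]
        calc (e / 2) ^ θ * W₂ ^ θ * (D ^ φ * (β ^ φ * u)) = ((e / 2) ^ θ * D ^ φ) * (W₂ ^ θ * β ^ φ * u) := by ring
          _ = _ := by rw [hDφ]; ring
      have y3 : β * u ^ (2 / b) ≤ 4 * L :=
        le_trans (mul_le_mul_of_nonneg_left (Real.rpow_le_rpow_of_exponent_ge hu hu1 hδb) hβ.le) hLge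
      have y4 : 0 ≤ e / 2 * W₂ := by positivity
      have y5 : 0 ≤ D * (β * u ^ (2 / b)) := by positivity
      calc 2 * C₀ * u * W₁ ≤ 2 * C₀ * u * (C * W₂ ^ θ * β ^ φ) := by gcongr
        _ ≤ θ * (e / 2 * W₂) + φ * (D * (β * u ^ (2 / b))) := by rw [← y2]; exact y1
        _ ≤ 1 * (e / 2 * W₂) + 1 * (D * (4 * L)) := by gcongr
        _ = _ := by field_simp
    have hZ : 2 * C₀ * u * W₂ ≤ e / 2 * W₂ + 8 * C₀ * C / (u₀ ^ 3 * c) * (c * L) := by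
      rcases le_total u u₀ with h | h
      · have : 2 * C₀ * u ≤ e / 2 := by
          calc 2 * C₀ * u ≤ 2 * C₀ * u₀ := by gcongr
            _ = e / 2 := by rw [hu₀]; field_simp; ring
        have := mul_le_mul_of_nonneg_right this h2
        have := mul_nonneg p4 hcL
        linarith
      · have z1 : β * u₀ ^ 3 ≤ 4 * L := by
          refine le_trans ?_ hLge
          gcongr
          calc u₀ ^ 3 ≤ u ^ 3 := by gcongr
            _ = u ^ (3 : ℝ) := by norm_cast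
            _ ≤ _ := Real.rpow_le_rpow_of_exponent_ge hu hu1 (by linarith)
        calc 2 * C₀ * u * W₂ ≤ 2 * C₀ * 1 * (C * β) := by gcongr
          _ = 2 * C₀ * C / u₀ ^ 3 * (β * u₀ ^ 3) := by field_simp
          _ ≤ 2 * C₀ * C / u₀ ^ 3 * (4 * L) := by gcongr
          _ = 8 * C₀ * C / (u₀ ^ 3 * c) * (c * L) := by field_simp; ring
          _ ≤ _ := by nlinarith
    constructor
    · have : u + u ^ 2 ≤ 2 * u := by nlinarith
      have h3 : (4 * D / c + 8 * C₀ * C / (u₀ ^ 3 * c)) * (c * L) ≤ C₃ * (c * L) := by gcongr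
      calc C₀ * (u + u ^ 2) * (W₁ + W₂) ≤ C₀ * (2 * u) * (W₁ + W₂) := by gcongr
        _ = 2 * C₀ * u * W₁ + 2 * C₀ * u * W₂ := by ring
        _ ≤ _ := by linarith
    · have a0 : 0 ≤ W₂ ^ θ := by positivity
      have a1 : W₁ ≤ C * W₂ ^ θ := hW₁'.trans (by
        have := Real.rpow_le_one hβ.le hβ1 hφ0.le
        have : 0 ≤ C * W₂ ^ θ := by positivity
        nlinarith)
      have a2 : W₂ ≤ C * W₂ ^ θ := by
        have b1 : W₂ ≤ C := hW₂'.trans (by nlinarith)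
        calc W₂ = W₂ ^ φ * W₂ ^ θ := by
              rw [← Real.rpow_add' h2 (by linarith), add_comm, hsum, Real.rpow_one]
          _ ≤ C * W₂ ^ θ := by
              gcongr
              exact (Real.rpow_le_rpow h2 b1 hφ0.le).trans (Real.rpow_le_self_of_one_le hC hφ1)
      have a3 : W₂ ^ θ ≤ (W₂ + min (c * L) 1) ^ θ := Real.rpow_le_rpow h2 (by linarith) hθ0.le
      calc (1 + u) * (W₁ + W₂) ≤ 2 * (C * W₂ ^ θ + C * W₂ ^ θ) := by gcongr; linarith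
        _ = 4 * C * W₂ ^ θ := by ring
        _ ≤ C₃ * (W₂ + min (c * L) 1) ^ θ := by gcongr

theorem algb_geo {ρ : ℝ} (h0 : 0 ≤ ρ) (h1 : ρ < 1) :
    ∑' k : ℤ, ENNReal.ofReal (ρ ^ k.natAbs) ≤ ENNReal.ofReal (2 / (1 - ρ)) := by
  have hs : Summable fun n : ℕ => ρ ^ n := summable_geometric_of_lt_one h0 h1
  have e : ∑' n : ℕ, ENNReal.ofReal (ρ ^ n) = ENNReal.ofReal (1 - ρ)⁻¹ := by
    rw [← ENNReal.ofReal_tsum_of_nonneg (fun n => by positivity) hs, tsum_geometric_of_lt_one h0 h1]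
  rw [tsum_of_nat_of_neg_add_one ENNReal.summable ENNReal.summable]
  have hp : 0 ≤ (1 - ρ)⁻¹ := inv_nonneg.2 (by linarith)
  calc _ ≤ ENNReal.ofReal (1 - ρ)⁻¹ + ENNReal.ofReal (1 - ρ)⁻¹ := by
        refine add_le_add (le_of_eq ?_) ?_
        · rw [← e]; simp
        · rw [← e]
          refine ENNReal.tsum_le_tsum fun n => ENNReal.ofReal_le_ofReal ?_
          have : (-((n : ℤ) + 1)).natAbs = n + 1 := by omega
          rw [this]
          exact pow_le_pow_of_le_one h0 h1.le (by omega)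
    _ = _ := by rw [← ENNReal.ofReal_add hp hp]; congr 1; ring

/-- G7.  Let `A = Σ X_k 4^{-k}` (finite, positive w.l.o.g.), so `X_k ≤ min (C₀, A 4^k)`; split at `k₀` with `4^{k₀} ≈ C₀/A` and sum two
geometric series: `Σ X_k^θ 2^{-k} ≤ Σ_{k ≤ k₀} A^θ 2^{(2θ-1)k} + Σ_{k > k₀} C₀^θ 2^{-k} ≤ C A^{1/2}`. -/
theorem alg7 {θ C₀ : ℝ} (hθ : 1 / 2 < θ) (hC₀ : 0 < C₀) : ∃ C, 1 ≤ C ∧ ∀ X : ℤ → ℝ, (∀ k, 0 ≤ X k ∧ X k ≤ C₀) →
    (∑' k : ℤ, ENNReal.ofReal (X k ^ θ / (2 : ℝ) ^ k)) ^ 2 ≤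
      ENNReal.ofReal C * ∑' k : ℤ, ENNReal.ofReal (X k / (4 : ℝ) ^ k) := by
  set ρ : ℝ := max ((2 : ℝ) ^ (1 - 2 * θ)) (1 / 2) with hρ
  have hρ1 : ρ < 1 := max_lt (Real.rpow_lt_one_of_one_lt_of_neg one_lt_two (by linarith)) (by norm_num)
  have hρ0 : 0 < ρ := lt_max_of_lt_right (by norm_num)
  have hθ0 : 0 < θ := by linarith
  set M : ℝ := 2 * C₀ ^ θ / √C₀ * (2 / (1 - ρ)) with hM
  have hM0 : 0 ≤ M := by
    have : 0 < 1 - ρ := by linarith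
    positivity
  refine ⟨1 + M ^ 2, by nlinarith [sq_nonneg M], fun X hX => ?_⟩
  set A := ∑' k : ℤ, ENNReal.ofReal (X k / (4 : ℝ) ^ k) with hA
  rcases eq_or_ne A ⊤ with hT | hT
  · rw [hT, ENNReal.mul_top (by simp; nlinarith [sq_nonneg M])]; exact le_top
  have hXa : ∀ k, X k ≤ A.toReal * (4 : ℝ) ^ k := fun k => by
    have h1 : ENNReal.ofReal (X k / (4 : ℝ) ^ k) ≤ A := ENNReal.le_tsum (f := fun k => ENNReal.ofReal (X k / (4 : ℝ) ^ k)) k
    have h2 := (ENNReal.ofReal_le_iff_le_toReal hT).1 h1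
    rwa [div_le_iff₀ (by positivity)] at h2
  set a := A.toReal with ha
  have ha0 : 0 ≤ a := ENNReal.toReal_nonneg
  rcases ha0.eq_or_lt with h0 | h0
  · have : ∀ k, X k = 0 := fun k => le_antisymm (by simpa [← h0] using hXa k) (hX k).1
    simp [this, Real.zero_rpow hθ0.ne']
  obtain ⟨k₀, hk1, hk2⟩ := exists_mem_Ico_zpow (x := C₀ / a) (y := (4 : ℝ)) (by positivity) (by norm_num)
  have h4 : ∀ k : ℤ, (4 : ℝ) ^ k = ((2 : ℝ) ^ k) ^ 2 := fun k => by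
    rw [← zpow_natCast, ← zpow_mul, mul_comm, zpow_mul]; norm_num
  -- `2^{-k₀} ≤ 2 √a / √C₀`
  have hk3 : 1 / (2 : ℝ) ^ k₀ ≤ 2 * √a / √C₀ := by
    rw [div_le_div_iff₀ (by positivity) (by positivity), one_mul]
    refine Real.sqrt_le_iff.2 ⟨by positivity, ?_⟩
    rw [div_lt_iff₀ h0, zpow_add_one₀ (by norm_num), h4] at hk2
    rw [mul_pow, mul_pow, Real.sq_sqrt ha0]; nlinarith
  have hterm : ∀ k, X k ^ θ / (2 : ℝ) ^ k ≤ C₀ ^ θ / (2 : ℝ) ^ k₀ * ρ ^ (k - k₀).natAbs := fun k => by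
    rcases le_total k₀ k with h | h
    · obtain ⟨n, rfl⟩ := Int.le.dest h
      have : (k₀ + n - k₀).natAbs = n := by omega
      rw [this, zpow_add₀ (by norm_num), zpow_natCast]
      calc X (k₀ + n) ^ θ / ((2 : ℝ) ^ k₀ * 2 ^ n) ≤ C₀ ^ θ / ((2 : ℝ) ^ k₀ * 2 ^ n) := by
            gcongr; exacts [(hX _).1, (hX _).2]
        _ = C₀ ^ θ / (2 : ℝ) ^ k₀ * (1 / 2) ^ n := by rw [one_div_pow]; field_simp
        _ ≤ _ := by gcongr; exact le_max_right _ _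
    · obtain ⟨n, rfl⟩ := Int.le.dest h
      have : (k - (k + n)).natAbs = n := by omega
      rw [this, zpow_add₀ (by norm_num), zpow_natCast]
      have b1 : X k ≤ C₀ * ((2 : ℝ) ^ (-2 : ℝ)) ^ n := by
        rw [le_div_iff₀ h0, zpow_add₀ (by norm_num), zpow_natCast] at hk1
        have e : (2 : ℝ) ^ (-2 : ℝ) = 1 / 4 := by rw [Real.rpow_neg (by norm_num)]; norm_num
        rw [e, one_div_pow, mul_one_div, le_div_iff₀ (by positivity)]
        calc X k * 4 ^ n ≤ a * (4 : ℝ) ^ k * 4 ^ n := by gcongr; exact hXa k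
          _ ≤ C₀ := by linarith
      have b2 : X k ^ θ ≤ C₀ ^ θ * ((2 : ℝ) ^ (-2 * θ)) ^ n := by
        calc X k ^ θ ≤ (C₀ * ((2 : ℝ) ^ (-2 : ℝ)) ^ n) ^ θ := Real.rpow_le_rpow (hX _).1 b1 hθ0.le
          _ = _ := by
            rw [Real.mul_rpow hC₀.le (by positivity), ← Real.rpow_natCast, ← Real.rpow_natCast,
              ← Real.rpow_mul (by positivity), ← Real.rpow_mul (by positivity), ← Real.rpow_mul (by positivity)]
            congr 2; ring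
      have b3 : ((2 : ℝ) ^ (-2 * θ)) ^ n * 2 ^ n ≤ ρ ^ n := by
        rw [← mul_pow]
        refine pow_le_pow_left₀ (by positivity) (le_trans (le_of_eq ?_) (le_max_left _ _)) n
        rw [show 1 - 2 * θ = -2 * θ + 1 by ring, Real.rpow_add_one (by norm_num)]
      calc X k ^ θ / (2 : ℝ) ^ k ≤ C₀ ^ θ * ((2 : ℝ) ^ (-2 * θ)) ^ n / (2 : ℝ) ^ k := by gcongr
        _ = C₀ ^ θ / ((2 : ℝ) ^ k * 2 ^ n) * (((2 : ℝ) ^ (-2 * θ)) ^ n * 2 ^ n) := by field_simp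
        _ ≤ _ := by gcongr
  have hsum : ∑' k : ℤ, ENNReal.ofReal (X k ^ θ / (2 : ℝ) ^ k) ≤ ENNReal.ofReal (M * √a) := by
    calc _ ≤ ∑' k : ℤ, ENNReal.ofReal (C₀ ^ θ / (2 : ℝ) ^ k₀) * ENNReal.ofReal (ρ ^ (k - k₀).natAbs) := by
          refine ENNReal.tsum_le_tsum fun k => ?_
          rw [← ENNReal.ofReal_mul (by positivity)]
          exact ENNReal.ofReal_le_ofReal (hterm k)
      _ = ENNReal.ofReal (C₀ ^ θ / (2 : ℝ) ^ k₀) * ∑' k : ℤ, ENNReal.ofReal (ρ ^ k.natAbs) := by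
          rw [ENNReal.tsum_mul_left]
          congr 1
          exact (Equiv.subRight k₀).tsum_eq fun k => ENNReal.ofReal (ρ ^ k.natAbs)
      _ ≤ ENNReal.ofReal (C₀ ^ θ / (2 : ℝ) ^ k₀) * ENNReal.ofReal (2 / (1 - ρ)) := by
          gcongr; exact algb_geo hρ0.le hρ1
      _ ≤ _ := by
          rw [← ENNReal.ofReal_mul (by positivity)]
          refine ENNReal.ofReal_le_ofReal ?_
          have : 0 < 1 - ρ := by linarith
          calc C₀ ^ θ / (2 : ℝ) ^ k₀ * (2 / (1 - ρ)) = C₀ ^ θ * (1 / (2 : ℝ) ^ k₀) * (2 / (1 - ρ)) := by ring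
            _ ≤ C₀ ^ θ * (2 * √a / √C₀) * (2 / (1 - ρ)) := by gcongr
            _ = M * √a := by rw [hM]; ring
  calc _ ≤ ENNReal.ofReal (M * √a) ^ 2 := by gcongr
    _ = ENNReal.ofReal (M ^ 2 * a) := by
        rw [← ENNReal.ofReal_pow (by positivity), mul_pow, Real.sq_sqrt ha0]
    _ ≤ ENNReal.ofReal ((1 + M ^ 2) * a) := ENNReal.ofReal_le_ofReal (by nlinarith)
    _ = _ := by rw [ENNReal.ofReal_mul (by positivity), ha, ENNReal.ofReal_toReal hT]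

end Crest.Agent.R162.E
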