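import Crest.Agent.R162.E.Defs

/-! # Row 162, block E: elementary facts on the exponents, cut-offs and weights -/

set_option autoImplicit false

open scoped ENNReal NNReal Topology
open Set Filter MeasureTheory Metric

noncomputable section
namespace Crest.Agent.R162.E

variable {κ : ℝ}

theorem bb_mem (hκ : 0 < κ) (hκ8 : κ < 8) : 0 < bb κ ∧ bb κ < 1 ∧ bb κ ≤ aa κ ∧ 4 * bb κ = κ / 2 * aa κ := by
  have h1 : 1 < 8 / κ := (one_lt_div hκ).2 hκ8
  have h2 : 8 / κ * κ = 8 := by field_simp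
  unfold bb aa
  refine ⟨by linarith, by linarith, ?_, by nlinarith⟩
  rw [le_sub_iff_add_le, le_div_iff₀ hκ]
  nlinarith [sq_nonneg (κ - 8)]

theorem gE_mem (hκ : 0 < κ) (hκ8 : κ < 8) : 0 < gE κ ∧ gE κ < 1 ∧ gE κ < aa κ := by
  obtain ⟨a, b, c, -⟩ := bb_mem hκ hκ8
  unfold gE
  exact ⟨by linarith, by linarith, by linarith⟩

theorem dE_mem (hκ : 0 < κ) (hκ8 : κ < 8) : 0 < dE κ ∧ dE κ ≤ 1 ∧ 2 + dE κ ≤ 2 / bb κ := by
  obtain ⟨a, b, -⟩ := bb_mem hκ hκ8
  have : 2 < 2 / bb κ := by rw [lt_div_iff₀ a]; linarith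
  exact ⟨lt_min one_pos (by linarith), min_le_left _ _, by linarith [min_le_right 1 (2 / bb κ - 2), dE.eq_1 κ]⟩

theorem cE_pos (hκ : 0 < κ) (hκ8 : κ < 8) : 0 < cE κ := by
  obtain ⟨a, -, c⟩ := gE_mem hκ hκ8
  exact mul_pos (mul_pos (half_pos hκ) a) (lt_min (sub_pos.2 c) one_pos)

theorem cE_le (hκ : 0 < κ) (hκ8 : κ < 8) {S : ℝ} (hS : S ∈ Icc (0 : ℝ) 1) :
    -(κ / 2) * gE κ * (aa κ - gE κ) * (1 - S ^ 2) - κ / 2 * gE κ * S ^ 2 ≤ -cE κ := by
  obtain ⟨a, -, c⟩ := gE_mem hκ hκ8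
  have h1 : S ^ 2 ≤ 1 := pow_le_one₀ hS.1 hS.2
  have h2 := mul_le_mul_of_nonneg_right (min_le_left (aa κ - gE κ) 1) (sub_nonneg.2 h1)
  have h3 := mul_le_mul_of_nonneg_right (min_le_right (aa κ - gE κ) 1) (sq_nonneg S)
  have h4 := mul_le_mul_of_nonneg_left (add_le_add h2 h3) (mul_pos (half_pos hκ) a).le
  unfold cE
  linarith

theorem psi_mem (u : ℝ) : psi u ∈ Icc (0 : ℝ) 1 := by
  exact ⟨Real.smoothTransition.nonneg _, Real.smoothTransition.le_one _⟩

theorem psi_one {u : ℝ} (hu : u ≤ 1) : psi u = 1 := by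
  exact Real.smoothTransition.one_of_one_le (by linarith)

theorem psi_zero {u : ℝ} (hu : 2 ≤ u) : psi u = 0 := by
  exact Real.smoothTransition.zero_of_nonpos (by linarith)

theorem contDiff_psi : ContDiff ℝ 2 psi := by
  exact (Real.smoothTransition.contDiff (n := 2)).comp (by fun_prop)

theorem deriv_psi : ∃ C, 0 ≤ C ∧ ∀ u, |deriv psi u| ≤ C ∧ (deriv psi u ≠ 0 → u ∈ Icc (1 : ℝ) 2) := by
  obtain ⟨C, hC⟩ := (isCompact_Icc (a := (1 : ℝ)) (b := 2)).exists_bound_of_continuousOn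
    (contDiff_psi.continuous_deriv one_le_two).continuousOn
  have key : ∀ u, deriv psi u ≠ 0 → u ∈ Icc (1 : ℝ) 2 := fun u hu =>
    ⟨le_of_not_ge fun h => hu (IsLocalMax.deriv_eq_zero (Eventually.of_forall fun w =>
        (psi_mem w).2.trans (psi_one h).ge)),
      le_of_not_ge fun h => hu (IsLocalMin.deriv_eq_zero (Eventually.of_forall fun w =>
        (psi_zero h).le.trans (psi_mem w).1))⟩
  refine ⟨|C|, abs_nonneg _, fun u => ⟨?_, key u⟩⟩
  by_cases h : deriv psi u = 0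
  · simp [h]
  · exact (hC u (key u h)).trans (le_abs_self _)

theorem deriv_st : ∃ C, 0 ≤ C ∧ ∀ u, 0 ≤ deriv Real.smoothTransition u ∧ deriv Real.smoothTransition u ≤ C := by
  obtain ⟨C, hC⟩ := (isCompact_Icc (a := (0 : ℝ)) (b := 1)).exists_bound_of_continuousOn
    ((Real.smoothTransition.contDiff (n := 1)).continuous_deriv le_rfl).continuousOn
  refine ⟨|C|, abs_nonneg _, fun u => ⟨Real.smoothTransition.monotone.deriv_nonneg, ?_⟩⟩
  rcases le_total u 0 with h | h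
  · rw [IsLocalMin.deriv_eq_zero (Eventually.of_forall fun w =>
      (Real.smoothTransition.zero_of_nonpos h).le.trans (Real.smoothTransition.nonneg w))]
    exact abs_nonneg _
  rcases le_total 1 u with h' | h'
  · rw [IsLocalMax.deriv_eq_zero (Eventually.of_forall fun w =>
      (Real.smoothTransition.le_one w).trans (Real.smoothTransition.one_of_one_le h').ge)]
    exact abs_nonneg _
  · exact (le_abs_self _).trans ((hC u ⟨h, h'⟩).trans (le_abs_self _))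

theorem hasDerivAt_Th (δ : ℝ) {u : ℝ} (hu : 0 < u) : HasDerivAt (Th δ) (Th' δ u / u) u := by
  have h1 := Real.hasDerivAt_rpow_const (x := u) (p := δ) (Or.inl hu.ne')
  have h2 : 0 < 1 + u ^ δ := by positivity
  refine (h1.div (h1.const_add 1) h2.ne').congr_deriv ?_
  rw [Th', Real.rpow_sub_one hu.ne']
  field_simp
  ring

theorem contDiffOn_Th (δ : ℝ) : ContDiffOn ℝ 1 (Th δ) (Ioi 0) := by
  have h1 : ContDiffOn ℝ 1 (fun u : ℝ => u ^ δ) (Ioi 0) := fun u hu =>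
    (Real.contDiffAt_rpow_const_of_ne (ne_of_gt hu)).contDiffWithinAt
  exact h1.div (contDiffOn_const.add h1) fun u hu => by
    have : 0 < u := hu
    positivity

theorem Th_mem (δ : ℝ) {u : ℝ} (hu : 0 ≤ u) : Th δ u ∈ Icc (0 : ℝ) 1 := by
  have h := Real.rpow_nonneg hu δ
  exact ⟨div_nonneg h (by linarith), div_le_one_of_le₀ (by linarith) (by linarith)⟩

theorem Th'_mem {δ u : ℝ} (hδ : 0 ≤ δ) (hu : 0 ≤ u) : Th' δ u ∈ Icc (0 : ℝ) δ := by
  have h := Real.rpow_nonneg hu δ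
  refine ⟨by unfold Th'; positivity, ?_⟩
  rw [Th', mul_div_assoc]
  exact mul_le_of_le_one_right hδ (div_le_one_of_le₀ (by nlinarith) (by positivity))

theorem Th'_ge {δ u : ℝ} (hδ : 0 ≤ δ) (hu : 0 < u) : δ / 4 * min (u ^ δ) (u ^ (-δ)) ≤ Th' δ u := by
  have h := Real.rpow_pos_of_pos hu δ
  rw [Th', Real.rpow_neg hu.le, mul_div_assoc, div_mul_eq_mul_div, mul_div_assoc]
  refine mul_le_mul_of_nonneg_left ?_ hδ
  rw [div_le_div_iff₀ four_pos (by positivity)]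
  rcases le_total (u ^ δ) 1 with h1 | h1
  · have h2 : (1 + u ^ δ) ^ 2 ≤ 4 := by nlinarith
    exact mul_le_mul (min_le_left _ _) h2 (by positivity) h.le
  · refine (mul_le_mul_of_nonneg_right (min_le_right _ _) (by positivity)).trans ?_
    rw [inv_mul_le_iff₀ h]
    nlinarith

theorem one_le_qq (R : ℝ) (z w : ℂ) : 1 ≤ qq R z w := by
  exact le_add_of_nonneg_right (by positivity)

theorem basicb_peetre (a b : ℝ) : 1 + (a + b) ^ 2 ≤ 2 * (1 + a ^ 2) * (1 + b ^ 2) := by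
  nlinarith [sq_nonneg (a - b), sq_nonneg (a * b)]
theorem qq_trans (R : ℝ) (z w v : ℂ) : qq R z v ≤ 2 * qq R z w * qq R w v := by
  refine le_trans ?_ (basicb_peetre (‖z - w‖ / |R|) (‖w - v‖ / |R|) |>.trans_eq ?_)
  · have h : ‖z - v‖ / |R| ≤ ‖z - w‖ / |R| + ‖w - v‖ / |R| := by
      rw [← add_div]
      exact div_le_div_of_nonneg_right (norm_sub_le_norm_sub_add_norm_sub _ _ _) (abs_nonneg _)
    have := pow_le_pow_left₀ (by positivity) h 2
    rw [div_pow, sq_abs] at this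
    exact add_le_add_right this 1
  · simp only [qq, div_pow, sq_abs]

theorem bet_mem (p : Par) (z : ℂ) : bet p z ∈ Ioc (0 : ℝ) 1 := by
  refine ⟨by unfold bet; positivity, inv_le_one_of_one_le₀ (one_le_pow₀ (le_add_of_nonneg_right ?_))⟩
  positivity

theorem bet_eq_one {p : Par} {z : ℂ} (hz : z ∈ ball p.x₀ p.r) : bet p z = 1 := by
  simp [bet, max_eq_right (sub_nonpos.2 (mem_ball_iff_norm.1 hz).le)]

theorem ind_mem (p : Par) (z : ℂ) : 0 ≤ ind p z ∧ ind p z ≤ bet p z := by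
  by_cases hz : z ∈ ball p.x₀ p.r
  · simp [ind, hz, bet_eq_one hz]
  · simp [ind, hz, (bet_mem p z).1.le]

theorem continuous_bet (p : Par) : Continuous (bet p) := by
  exact Continuous.inv₀ (by fun_prop) fun z => by positivity

theorem measurable_ind (p : Par) : Measurable (ind p) := by
  exact measurable_const.indicator measurableSet_ball

/-- Peetre's inequality `1 + s² ≤ 2 (1 + t²) (1 + (s-t)²)` -/
theorem bet_le (p : Par) (z w : ℂ) : bet p z ≤ 4 * bet p w * qq p.R z w ^ 2 := by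
  set a := max (‖z - p.x₀‖ - p.r) 0
  set b := max (‖w - p.x₀‖ - p.r) 0 with hb
  have ha : 0 ≤ a := le_max_right _ _
  have h1 : b ≤ a + ‖z - w‖ := by
    refine max_le ?_ (by positivity)
    have := norm_sub_le_norm_sub_add_norm_sub w z p.x₀
    rw [norm_sub_rev w z] at this
    linarith [le_max_left (‖z - p.x₀‖ - p.r) 0]
  have h2 : b / |p.R| ≤ a / |p.R| + ‖z - w‖ / |p.R| := by
    rw [← add_div]; exact div_le_div_of_nonneg_right h1 (abs_nonneg _)
  have h3 := (add_le_add_right (pow_le_pow_left₀ (div_nonneg (le_max_right _ _) (abs_nonneg _)) h2 2) 1).trans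
    (basicb_peetre _ _)
  simp only [div_pow, sq_abs] at h3
  have h4 := pow_le_pow_left₀ (by positivity) h3 2
  change ((1 + a ^ 2 / p.R ^ 2) ^ 2)⁻¹ ≤ 4 * ((1 + b ^ 2 / p.R ^ 2) ^ 2)⁻¹ * (1 + ‖z - w‖ ^ 2 / p.R ^ 2) ^ 2
  rw [mul_right_comm, ← div_eq_mul_inv, inv_eq_one_div, div_le_div_iff₀ (by positivity) (by positivity)]
  linarith

/-- `(1 + x² + y²)^{-2} ≤ (1 + x²)⁻¹ (1 + y²)⁻¹`, Fubini (`Complex.volume_preserving_equiv_real_prod`), `π² ≤ 10` -/
theorem lintegral_qq {R : ℝ} (hR : 0 < R) (w : ℂ) : ∫⁻ z, ENNReal.ofReal ((qq R z w ^ 2)⁻¹ / R ^ 2) ≤ 10 := by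
  have h1 : ∫⁻ x : ℝ, ENNReal.ofReal ((1 + (x / R) ^ 2)⁻¹ / R) = ENNReal.ofReal Real.pi := by
    rw [← ofReal_integral_eq_lintegral_ofReal
      ((integrable_inv_one_add_sq.comp_div hR.ne').div_const R) (Eventually.of_forall fun x => by positivity),
      integral_div, Measure.integral_comp_div (fun x => (1 + x ^ 2)⁻¹), integral_univ_inv_one_add_sq,
      abs_of_pos hR, smul_eq_mul, mul_div_cancel_left₀ _ hR.ne']
  have hm : Measurable fun x : ℝ => ENNReal.ofReal ((1 + (x / R) ^ 2)⁻¹ / R) := by fun_prop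
  calc ∫⁻ z, ENNReal.ofReal ((qq R z w ^ 2)⁻¹ / R ^ 2)
      = ∫⁻ z : ℂ, ENNReal.ofReal (((1 + ‖z‖ ^ 2 / R ^ 2) ^ 2)⁻¹ / R ^ 2) :=
        lintegral_sub_right_eq_self (fun z : ℂ => ENNReal.ofReal (((1 + ‖z‖ ^ 2 / R ^ 2) ^ 2)⁻¹ / R ^ 2)) w
    _ ≤ ∫⁻ z : ℂ, ENNReal.ofReal ((1 + (z.re / R) ^ 2)⁻¹ / R) * ENNReal.ofReal ((1 + (z.im / R) ^ 2)⁻¹ / R) := by
        refine lintegral_mono fun z => ?_
        rw [← ENNReal.ofReal_mul (by positivity)]
        refine ENNReal.ofReal_le_ofReal ?_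
        have e : ‖z‖ ^ 2 / R ^ 2 = (z.re / R) ^ 2 + (z.im / R) ^ 2 := by
          rw [Complex.sq_norm, Complex.normSq_apply]; ring
        rw [e, div_mul_div_comm, ← sq R, ← mul_inv]
        refine div_le_div_of_nonneg_right (inv_anti₀ (by positivity) ?_) (by positivity)
        rw [sq (1 + _)]
        exact mul_le_mul (by nlinarith [sq_nonneg (z.im / R)]) (by nlinarith [sq_nonneg (z.re / R)])
          (by positivity) (by positivity)
    _ = ∫⁻ q : ℝ × ℝ, ENNReal.ofReal ((1 + (q.1 / R) ^ 2)⁻¹ / R) * ENNReal.ofReal ((1 + (q.2 / R) ^ 2)⁻¹ / R) :=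
        Complex.volume_preserving_equiv_real_prod.lintegral_comp_emb
          Complex.measurableEquivRealProd.measurableEmbedding
          (fun q : ℝ × ℝ => ENNReal.ofReal ((1 + (q.1 / R) ^ 2)⁻¹ / R) * ENNReal.ofReal ((1 + (q.2 / R) ^ 2)⁻¹ / R))
    _ = ENNReal.ofReal Real.pi * ENNReal.ofReal Real.pi := by
        rw [Measure.volume_eq_prod, lintegral_prod_mul hm.aemeasurable hm.aemeasurable, h1]
    _ ≤ 10 := by
        rw [← ENNReal.ofReal_mul Real.pi_pos.le, ← ENNReal.ofReal_ofNat]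
        exact ENNReal.ofReal_le_ofReal (by nlinarith [Real.pi_lt_d2, Real.pi_pos])

/-- on `ball x₀ (2r)` use `β ≤ 1`, outside `β ≤ (qq (2R) z x₀)^{-2}` -/
theorem lintegral_bet {p : Par} (hp : p.Ok) :
    ∫⁻ z, ENNReal.ofReal (bet p z / p.R ^ 2) ≤ ENNReal.ofReal (100 * (1 + (p.r / p.R) ^ 2)) := by
  have hR := hp.R0
  have hr := hp.r0
  have key : ∀ z, ENNReal.ofReal (bet p z / p.R ^ 2) ≤ (ball p.x₀ (2 * p.r)).indicator
      (fun _ => ENNReal.ofReal (1 / p.R ^ 2)) z +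
      4 * ENNReal.ofReal ((qq (2 * p.R) z p.x₀ ^ 2)⁻¹ / (2 * p.R) ^ 2) := fun z => by
    by_cases hz : z ∈ ball p.x₀ (2 * p.r)
    · rw [indicator_of_mem hz]
      exact le_add_right (ENNReal.ofReal_le_ofReal (div_le_div_of_nonneg_right (bet_mem p z).2 (by positivity)))
    · rw [indicator_of_notMem hz, zero_add, ← ENNReal.ofReal_ofNat, ← ENNReal.ofReal_mul (by norm_num)]
      refine ENNReal.ofReal_le_ofReal ?_
      rw [mem_ball_iff_norm, not_lt] at hz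
      have h1 : ‖z - p.x₀‖ / 2 ≤ max (‖z - p.x₀‖ - p.r) 0 := le_max_of_le_left (by linarith)
      have h2 : bet p z ≤ (qq (2 * p.R) z p.x₀ ^ 2)⁻¹ := by
        refine inv_anti₀ (pow_pos (one_pos.trans_le (one_le_qq _ _ _)) 2)
          (pow_le_pow_left₀ (zero_le_one.trans (one_le_qq _ _ _)) (add_le_add_right ?_ 1) 2)
        calc ‖z - p.x₀‖ ^ 2 / (2 * p.R) ^ 2 = (‖z - p.x₀‖ / 2) ^ 2 / p.R ^ 2 := by ring
          _ ≤ _ := by gcongr
      calc bet p z / p.R ^ 2 ≤ (qq (2 * p.R) z p.x₀ ^ 2)⁻¹ / p.R ^ 2 := by gcongr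
        _ = _ := by ring
  refine (lintegral_mono key).trans ?_
  rw [lintegral_add_left (measurable_const.indicator measurableSet_ball), lintegral_indicator measurableSet_ball,
    lintegral_const_mul' _ _ (by norm_num), setLIntegral_const, Complex.volume_ball]
  have h1 := lintegral_qq (R := 2 * p.R) (by positivity) p.x₀
  have h2 : ENNReal.ofReal (1 / p.R ^ 2) * (ENNReal.ofReal (2 * p.r) ^ 2 * NNReal.pi) ≤
      ENNReal.ofReal (100 * (p.r / p.R) ^ 2) := by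
    rw [← ENNReal.ofReal_pow (by positivity), ← ENNReal.ofReal_coe_nnreal, ← ENNReal.ofReal_mul (by positivity),
      ← ENNReal.ofReal_mul (by positivity)]
    refine ENNReal.ofReal_le_ofReal ?_
    calc 1 / p.R ^ 2 * ((2 * p.r) ^ 2 * (NNReal.pi : ℝ)) = 4 * Real.pi * (p.r / p.R) ^ 2 := by
          rw [NNReal.coe_real_pi]; ring
      _ ≤ _ := mul_le_mul_of_nonneg_right (by linarith [Real.pi_le_four]) (sq_nonneg _)
  calc _ ≤ ENNReal.ofReal (100 * (p.r / p.R) ^ 2) + ENNReal.ofReal 100 := by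
        refine add_le_add h2 ((mul_le_mul_right h1 4).trans ?_)
        rw [ENNReal.ofReal_ofNat]; norm_num
    _ = _ := by rw [← ENNReal.ofReal_add (by positivity) (by norm_num)]; congr 1; ring

theorem integrable_bet {p : Par} (hp : p.Ok) : Integrable (bet p) := by
  have hR := hp.R0
  have h : Integrable fun z => bet p z / p.R ^ 2 :=
    ⟨((continuous_bet p).div_const _).aestronglyMeasurable, (hasFiniteIntegral_iff_ofReal
      (Eventually.of_forall fun z => div_nonneg (bet_mem p z).1.le (sq_nonneg _))).2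
      ((lintegral_bet hp).trans_lt ENNReal.ofReal_lt_top)⟩
  refine (h.mul_const (p.R ^ 2)).congr (Eventually.of_forall fun z => ?_)
  field_simp

theorem aF_mem (R : ℝ) (ω : Path) (z : ℂ) (t : ℝ) : aF R ω z t ∈ Ioc (0 : ℝ) 1 := by
  have h := one_le_pow₀ (n := 8) (one_le_qq R z (wz ω z t))
  exact ⟨inv_pos.2 (one_pos.trans_le h), inv_le_one_of_one_le₀ h⟩

theorem us_nonneg {R : ℝ} (hR : 0 < R) (ω : Path) (z : ℂ) (t : ℝ) : 0 ≤ us R ω z t := by
  exact div_nonneg Up_nonneg hR.le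

theorem P_nonneg {p : Par} (hp : p.Ok) (ω : Path) (t : ℝ) (z : ℂ) :
    0 ≤ P1 p ω t z ∧ 0 ≤ P2 p ω t z ∧ 0 ≤ P3 p ω t z := by
  have h1 := (ind_mem p z).1
  have h2 := (bet_mem p z).1
  have h3 := (cut_mem p.η (Yc ω z t)).1
  have h4 := (cut_mem (p.η / 8) (Yc ω z t)).1
  have h5 := (psi_mem (Up ω z t / p.R)).1
  have h6 : 0 ≤ Up ω z t / p.R := div_nonneg Up_nonneg hp.R0.le
  have h7 := (Sc_mem (ω := ω) (z := z) (t := t)).1
  have h8 := (aF_mem p.R ω z t).1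
  have h9 := (Th'_mem (dE_mem hp.κ0 hp.κ8).1.le h6).1
  unfold P1 P2 P3
  exact ⟨by positivity, by positivity, by positivity⟩

theorem P_supp {p : Par} (hp : p.Ok) {ω : Path} {t : ℝ} {z : ℂ} (h : P1 p ω t z ≠ 0 ∨ P2 p ω t z ≠ 0) :
    Alive ω z t ∧ p.η < Yc ω z t ∧ Up ω z t < 2 * p.R := by
  have h1 : cut p.η (Yc ω z t) ≠ 0 := fun e => by simp [P1, P2, e] at h
  have h2 : psi (Up ω z t / p.R) ≠ 0 := fun e => by simp [P1, P2, e] at h
  have h3 : p.η < Yc ω z t := lt_of_not_ge fun h' => h1 (cut_eq_zero hp.η0 h').1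
  exact ⟨alive_iff.2 (hp.η0.trans h3), h3, (div_lt_iff₀ hp.R0).1 (lt_of_not_ge fun h' => h2 (psi_zero h'))⟩

theorem P3_supp {p : Par} (hp : p.Ok) {ω : Path} {t : ℝ} {z : ℂ} (h : P3 p ω t z ≠ 0) :
    Alive ω z t ∧ p.η / 8 < Yc ω z t := by
  have h0 : 0 < p.η / 8 := by linarith [hp.η0]
  have h1 : cut (p.η / 8) (Yc ω z t) ≠ 0 := fun e => by simp [P3, e] at h
  have h3 : p.η / 8 < Yc ω z t := lt_of_not_ge fun h' => h1 (cut_eq_zero h0 h').1
  exact ⟨alive_iff.2 (h0.trans h3), h3⟩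

end Crest.Agent.R162.E
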