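import Crest.Agent.R162.J
import Crest.Agent.R162.K

/-!
# Row 162, block E: definitions (owner helper16).  FROZEN.

Goal: `exp (Φ_t + c R^{-d} ν_t)` is a supermartingale, where `R = r/m`, `u = Υ/R` and
`Φ = ∫ (J1 + J2 + J3) dA`,
`J1 = K R⁻² 1_B cut(Y) ψ(u) u^{-b} st(log(Υ/y)) S^a a`, `J2 = K R⁻² β cut(Y) ψ(u) S^g a`, `J3 = K₃ R⁻² β cut₈(Y) Θ(u)`,
`a = (1 + |z - w|²/R²)^{-8}`, `w = f_t(x + i|g_t(z) - x|)`.
-/

set_option autoImplicit false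

open scoped ENNReal NNReal Topology
open Set Filter MeasureTheory Metric

noncomputable section
namespace Crest.Agent.R162.E

/-- parameters -/
structure Par where
  κ : ℝ
  x₀ : ℂ
  r : ℝ
  R : ℝ
  y : ℝ
  η : ℝ
  K : ℝ
  K₃ : ℝ

structure Par.Ok (p : Par) : Prop where
  κ0 : 0 < p.κ
  κ8 : p.κ < 8
  r0 : 0 < p.r
  R0 : 0 < p.R
  y0 : 0 < p.y
  η0 : 0 < p.η
  K0 : 0 < p.K
  K1 : p.K ≤ 1
  K₃1 : 1 ≤ p.K₃

/-- the small exponent of `S` -/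
def gE (κ : ℝ) : ℝ := bb κ / 4

/-- the exponent in `Θ` -/
def dE (κ : ℝ) : ℝ := min 1 (2 / bb κ - 2)

/-- the rate of decay of `S^g` -/
def cE (κ : ℝ) : ℝ := κ / 2 * gE κ * min (aa κ - gE κ) 1

/-- `1` on `u ≤ 1`, `0` on `u ≥ 2` -/
def psi (u : ℝ) : ℝ := Real.smoothTransition (2 - u)

def Th (δ u : ℝ) : ℝ := u ^ δ / (1 + u ^ δ)

/-- `u Θ'(u)` -/
def Th' (δ u : ℝ) : ℝ := δ * u ^ δ / (1 + u ^ δ) ^ 2

/-- `(1 + |z - w|²/R²)` -/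
def qq (R : ℝ) (z w : ℂ) : ℝ := 1 + ‖z - w‖ ^ 2 / R ^ 2

/-- `β = (1 + dist(z, B)²/R²)^{-2}` -/
def bet (p : Par) (z : ℂ) : ℝ := ((1 + (max (‖z - p.x₀‖ - p.r) 0) ^ 2 / p.R ^ 2) ^ 2)⁻¹

/-- indicator of the ball `B` -/
def ind (p : Par) (z : ℂ) : ℝ := (ball p.x₀ p.r).indicator (fun _ => (1 : ℝ)) z

/-- the point of the domain above the tip at conformal height `h` -/
def wh (ω : Path) (t h : ℝ) : ℂ := ft ω t (ω t + Complex.I * h)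

/-- the centre attached to `z` -/
def wz (ω : Path) (z : ℂ) (t : ℝ) : ℂ := wh ω t ‖Zc ω z t‖

/-- `u* = Υ(w)/R` -/
def us (R : ℝ) (ω : Path) (z : ℂ) (t : ℝ) : ℝ := Up ω (wz ω z t) t / R

/-- the localising factor `a` -/
def aF (R : ℝ) (ω : Path) (z : ℂ) (t : ℝ) : ℝ := (qq R z (wz ω z t) ^ 8)⁻¹

def P1 (p : Par) (ω : Path) (t : ℝ) (z : ℂ) : ℝ :=
  ind p z * cut p.η (Yc ω z t) * psi (Up ω z t / p.R) * (Up ω z t / p.R) ^ (-bb p.κ) * Sc ω z t ^ aa p.κ *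
    aF p.R ω z t

def P2 (p : Par) (ω : Path) (t : ℝ) (z : ℂ) : ℝ :=
  bet p z * cut p.η (Yc ω z t) * psi (Up ω z t / p.R) * Sc ω z t ^ gE p.κ * aF p.R ω z t

def P3 (p : Par) (ω : Path) (t : ℝ) (z : ℂ) : ℝ :=
  bet p z * cut (p.η / 8) (Yc ω z t) * Sc ω z t ^ 2 * Th' (dE p.κ) (Up ω z t / p.R)

/-! ### jets -/

/-- `|g - x|` -/
def jRho (z : ℂ) : Jet ℝ :=
  ⟨fun t x ω => ‖gt ω z t - x‖,
    fun t x ω => (((gt ω z t).re - x) * (2 / Zc ω z t).re + Yc ω z t * (2 / Zc ω z t).im) / ‖gt ω z t - x‖,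
    fun t x ω => -((gt ω z t).re - x) / ‖gt ω z t - x‖,
    fun t x ω => Yc ω z t ^ 2 / ‖gt ω z t - x‖ ^ 3⟩

/-- `x + i |g - x|` -/
def jZeta (z : ℂ) : Jet ℂ :=
  ⟨fun t x ω => x + Complex.I * (jRho z).f t x ω, fun t x ω => Complex.I * (jRho z).s t x ω,
    fun t x ω => 1 + Complex.I * (jRho z).x t x ω, fun t x ω => Complex.I * (jRho z).xx t x ω⟩

/-- `w` -/
def jW (z : ℂ) : Jet ℂ := (jZeta z).ft

/-- `|z - w|²` -/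
def jQ (z : ℂ) : Jet ℝ :=
  ⟨fun t x ω => ‖z - (jW z).f t x ω‖ ^ 2,
    fun t x ω => -2 * ((starRingEnd ℂ) (z - (jW z).f t x ω) * (jW z).s t x ω).re,
    fun t x ω => -2 * ((starRingEnd ℂ) (z - (jW z).f t x ω) * (jW z).x t x ω).re,
    fun t x ω => 2 * ‖(jW z).x t x ω‖ ^ 2 - 2 * ((starRingEnd ℂ) (z - (jW z).f t x ω) * (jW z).xx t x ω).re⟩

/-- `a` -/
def jA (R : ℝ) (z : ℂ) : Jet ℝ :=
  (jQ z).comp (fun q => ((1 + q / R ^ 2) ^ 8)⁻¹) (fun q => -8 / R ^ 2 * ((1 + q / R ^ 2) ^ 9)⁻¹)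
    (fun q => 72 / R ^ 4 * ((1 + q / R ^ 2) ^ 10)⁻¹)

/-- `c · cut(Y) φ(Υ) S^e a` -/
def jP (R η : ℝ) (φ : ℝ → ℝ) (e c : ℝ) (z : ℂ) : Jet ℝ :=
  (jfY (cut η) z).mul ((jfU φ z).mul ((jSp e z).mul ((jA R z).mul (Jet.const fun _ => c))))

def phi1 (p : Par) (v : ℝ) : ℝ := psi (v / p.R) * (v / p.R) ^ (-bb p.κ) * Real.smoothTransition (Real.log (v / p.y))

def phi2 (p : Par) (v : ℝ) : ℝ := psi (v / p.R)

def phi3 (p : Par) (v : ℝ) : ℝ := Th (dE p.κ) (v / p.R)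

def J1 (p : Par) (z : ℂ) : Jet ℝ := jP p.R p.η (phi1 p) (aa p.κ) (p.K * ind p z / p.R ^ 2) z

def J2 (p : Par) (z : ℂ) : Jet ℝ := jP p.R p.η (phi2 p) (gE p.κ) (p.K * bet p z / p.R ^ 2) z

def J3 (p : Par) (z : ℂ) : Jet ℝ :=
  (jfY (cut (p.η / 8)) z).mul ((jfU (phi3 p) z).mul (Jet.const fun _ => p.K₃ * bet p z / p.R ^ 2))

/-- the integrand -/
def JI (p : Par) (z : ℂ) : Jet ℝ := (J1 p z).add ((J2 p z).add (J3 p z))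

/-- the potential -/
def Phi (p : Par) : Jet ℝ := Jet.int volume (JI p)

/-- measurability in the parameter `z` -/
def Mz {E : Type} [MeasurableSpace E] (J : ℂ → Jet E) : Prop :=
  ∀ t x ω, Measurable (fun z => (J z).f t x ω) ∧ Measurable (fun z => (J z).s t x ω) ∧
    Measurable (fun z => (J z).x t x ω) ∧ Measurable (fun z => (J z).xx t x ω)

/-- rate of production of mass in `B`, with the cut-off in `Y` -/
def rate (p : Par) (s₀ t : ℝ) (ω : Path) : ℝ :=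
  ∫ z in ball p.x₀ p.r, cut p.η (Yc ω z t) * dens p.κ s₀ p.y ω z t

/-! ### dyadic annuli -/

/-- the annulus `2^k ≤ |Z| < 2^{k+1}` -/
def An (ω : Path) (t : ℝ) (k : ℤ) : Set ℂ :=
  {z | Alive ω z t ∧ (2 : ℝ) ^ k ≤ ‖Zc ω z t‖ ∧ ‖Zc ω z t‖ < (2 : ℝ) ^ (k + 1)}

/-- its centre -/
def wk (ω : Path) (t : ℝ) (k : ℤ) : ℂ := wh ω t (3 / 2 * (2 : ℝ) ^ k)

def uk (R : ℝ) (ω : Path) (t : ℝ) (k : ℤ) : ℝ := Up ω (wk ω t k) t / R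

/-- normalised integral over the annulus -/
def WW (R : ℝ) (ω : Path) (t : ℝ) (k : ℤ) (P : ℂ → ℝ) : ℝ≥0∞ :=
  ∫⁻ z in An ω t k, ENNReal.ofReal (P z / R ^ 2)

end Crest.Agent.R162.E
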