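import Crest.Agent.R162.E.Geo
import Crest.Agent.R162.E.Alg

/-! # Row 162, block E: the deterministic integral inequality -/

set_option autoImplicit false

open scoped ENNReal NNReal Topology
open Set Filter MeasureTheory Metric

noncomputable section
namespace Crest.Agent.R162.E

variable {κ : ℝ}

theorem deta_WW {R : ℝ} {ω : Path} {t : ℝ} {k : ℤ} {P Q : ℂ → ℝ} (hP : Measurable P) (hP0 : ∀ z, 0 ≤ P z)
    (hQ0 : ∀ z, 0 ≤ Q z) {A B : ℝ} (hA : 0 ≤ A) (hB : 0 ≤ B) (hQ : Measurable Q) :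
    ∫⁻ z in An ω t k, ENNReal.ofReal (A * (P z / R ^ 2) + B * (Q z / R ^ 2)) =
      ENNReal.ofReal A * WW R ω t k P + ENNReal.ofReal B * WW R ω t k Q := by
  unfold WW
  rw [← lintegral_const_mul _ (by fun_prop), ← lintegral_const_mul _ (by fun_prop), ← lintegral_add_left (by fun_prop)]
  refine lintegral_congr fun z => ?_
  have := hP0 z
  have := hQ0 z
  rw [ENNReal.ofReal_add (by positivity) (by positivity), ENNReal.ofReal_mul hA, ENNReal.ofReal_mul hB]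

theorem deta_four (k : ℤ) : (4 : ℝ) ^ k = ((2 : ℝ) ^ k) ^ 2 := by
  rw [← zpow_natCast, ← zpow_mul, mul_comm, zpow_mul]; norm_num

/-- Det-a: one annulus.  `W_i = (WW P_i).toReal` (finite by G3, G4), `X = W₂ + min L 1` (`X = 0` if `2^{k+1} ≤ η`); on the annulus
`us ≤ C u_k` (G1), `2^k ≤ ‖Z‖ < 2^{k+1}`; apply `alg6` with `e = cE/8`, G5. -/
theorem det_ann (hκ : 0 < κ) (hκ8 : κ < 8) {C₀ : ℝ} (hC₀ : 1 ≤ C₀) : ∃ C₁, 1 ≤ C₁ ∧ ∀ p : Par, p.Ok → p.κ = κ →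
    ∀ (ω : Path) (t : ℝ) (k : ℤ), 0 ≤ t → ∃ X : ℝ, 0 ≤ X ∧ X ≤ C₁ ∧
    ENNReal.ofReal X ≤ WW p.R ω t k (P2 p ω t) + WW p.R ω t k (P3 p ω t) ∧
    ∫⁻ z in An ω t k, ENNReal.ofReal
        (C₀ * (1 + us p.R ω z t) * (P1 p ω t z + P2 p ω t z) / (p.R ^ 2 * ‖Zc ω z t‖)) ≤
      ENNReal.ofReal (C₁ * (X ^ (1 - bb κ / 2) / (2 : ℝ) ^ k)) ∧
    ∫⁻ z in An ω t k, ENNReal.ofReal
        (C₀ * (us p.R ω z t + us p.R ω z t ^ 2) * (P1 p ω t z + P2 p ω t z) / (p.R ^ 2 * ‖Zc ω z t‖ ^ 2)) ≤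
      ENNReal.ofReal (1 / (4 : ℝ) ^ k) * (ENNReal.ofReal (cE κ / 8) * WW p.R ω t k (P2 p ω t) +
        ENNReal.ofReal C₁ * WW p.R ω t k (P3 p ω t)) := by
  obtain ⟨hb0, hb1, -, -⟩ := bb_mem hκ hκ8
  obtain ⟨hd0, hd1, hd2⟩ := dE_mem hκ hκ8
  have hce := cE_pos hκ hκ8
  obtain ⟨G1, hG1, g1⟩ := geo1
  obtain ⟨G3, hG3, g3⟩ := geo3
  obtain ⟨G4, hG4, g4⟩ := geo4 hκ hκ8
  obtain ⟨c5, hc5, g5⟩ := geo5 hκ hκ8
  obtain ⟨C₃, hC₃, a6⟩ := alg6 (C := G3 + G4) (C₀ := C₀ * G1 ^ 2) (c := c5) (e := cE κ / 8) hb0 hb1 hd0 hd1 hd2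
    (by linarith) (by positivity) hc5 (by positivity)
  have hk0 : 0 ≤ C₀ * G1 * C₃ := by positivity
  refine ⟨G3 + 1 + C₃ + C₀ * G1 * C₃, by linarith, fun p hp hpκ ω t k ht => ?_⟩
  have hR := hp.R0
  obtain ⟨m1, m2, m3⟩ := measurable_P p ω t
  have n1 := fun z => (P_nonneg hp ω t z).1
  have n2 := fun z => (P_nonneg hp ω t z).2.1
  have hu := uk_pos hR ω ht k
  set u := uk p.R ω t k with hudef
  have h2k : (0 : ℝ) < 2 ^ k := by positivity
  -- reduction of both integrals to `WW`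
  have r1 : ∫⁻ z in An ω t k, ENNReal.ofReal
        (C₀ * (1 + us p.R ω z t) * (P1 p ω t z + P2 p ω t z) / (p.R ^ 2 * ‖Zc ω z t‖)) ≤
      ENNReal.ofReal (C₀ * G1 * (1 + u) / 2 ^ k) * (WW p.R ω t k (P1 p ω t) + WW p.R ω t k (P2 p ω t)) := by
    rw [mul_add, ← deta_WW m1 n1 n2 (by positivity) (by positivity) m2]
    refine setLIntegral_mono' (measurableSet_An ω t k) fun z hz => ENNReal.ofReal_le_ofReal ?_
    have h1 := (g1 p.R ω t k z hR hz).1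
    have h2 := hz.2.1
    have := n1 z
    have := n2 z
    calc _ ≤ C₀ * (G1 * (1 + u)) * (P1 p ω t z + P2 p ω t z) / (p.R ^ 2 * 2 ^ k) := by
          gcongr
          nlinarith
      _ = _ := by field_simp
  have r2 : ∫⁻ z in An ω t k, ENNReal.ofReal
        (C₀ * (us p.R ω z t + us p.R ω z t ^ 2) * (P1 p ω t z + P2 p ω t z) / (p.R ^ 2 * ‖Zc ω z t‖ ^ 2)) ≤
      ENNReal.ofReal (C₀ * G1 ^ 2 * (u + u ^ 2) / 4 ^ k) *
        (WW p.R ω t k (P1 p ω t) + WW p.R ω t k (P2 p ω t)) := by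
    rw [mul_add, ← deta_WW m1 n1 n2 (by positivity) (by positivity) m2]
    refine setLIntegral_mono' (measurableSet_An ω t k) fun z hz => ENNReal.ofReal_le_ofReal ?_
    have h1 := (g1 p.R ω t k z hR hz).1
    have h0 := us_nonneg hR ω z t
    have h2 := hz.2.1
    have := n1 z
    have := n2 z
    have h3 : us p.R ω z t + us p.R ω z t ^ 2 ≤ G1 ^ 2 * (u + u ^ 2) := by
      have a : us p.R ω z t ^ 2 ≤ (G1 * u) ^ 2 := by gcongr
      have b : G1 * u ≤ G1 ^ 2 * u := by gcongr; nlinarith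
      nlinarith
    calc _ ≤ C₀ * (G1 ^ 2 * (u + u ^ 2)) * (P1 p ω t z + P2 p ω t z) / (p.R ^ 2 * (2 ^ k) ^ 2) := by
          gcongr
      _ = _ := by rw [deta_four]; field_simp
  rcases le_or_gt ((2 : ℝ) ^ (k + 1)) p.η with hη | hη
  · obtain ⟨z1, z2⟩ := WW_zero hp ω t hη
    rw [z1, z2, add_zero, mul_zero] at r1 r2
    exact ⟨0, le_rfl, by linarith, by simp, r1.trans zero_le, r2.trans zero_le⟩
  obtain ⟨hβ0, hβ1⟩ := bet_mem p (wk ω t k)
  set β := bet p (wk ω t k) with hβ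
  have e3 := g3 p hp ω t k
  have e4 := g4 p hp hpκ ω t k
  have e5 := g5 p hp hpκ ω t k ht hη
  rw [← hβ, ← hudef] at e3 e4 e5
  have f2 : WW p.R ω t k (P2 p ω t) ≠ ⊤ := ne_top_of_le_ne_top ENNReal.ofReal_ne_top e3
  set W₂ := (WW p.R ω t k (P2 p ω t)).toReal with hW₂
  have hW₂0 : 0 ≤ W₂ := ENNReal.toReal_nonneg
  have i2 : WW p.R ω t k (P2 p ω t) = ENNReal.ofReal W₂ := (ENNReal.ofReal_toReal f2).symm
  rw [i2, ENNReal.ofReal_rpow_of_nonneg hW₂0 (by linarith), ENNReal.ofReal_rpow_of_nonneg (by positivity) (by linarith),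
    ← ENNReal.ofReal_mul (by linarith), ← ENNReal.ofReal_mul (by positivity)] at e4
  have f1 : WW p.R ω t k (P1 p ω t) ≠ ⊤ := ne_top_of_le_ne_top ENNReal.ofReal_ne_top e4
  set W₁ := (WW p.R ω t k (P1 p ω t)).toReal with hW₁
  have hW₁0 : 0 ≤ W₁ := ENNReal.toReal_nonneg
  have i1 : WW p.R ω t k (P1 p ω t) = ENNReal.ofReal W₁ := (ENNReal.ofReal_toReal f1).symm
  rw [i1, ENNReal.ofReal_le_ofReal_iff (by positivity)] at e4
  rw [i2, ENNReal.ofReal_le_ofReal_iff (by positivity)] at e3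
  obtain ⟨b1, b2⟩ := a6 W₁ W₂ u β hW₁0 hW₂0 hu hβ0 hβ1 (e3.trans (by gcongr; linarith))
    (e4.trans (by gcongr; linarith))
  set L := c5 * (β * u ^ 2 * min (u ^ dE κ) (u ^ (-dE κ)) / (1 + u ^ 2) ^ 2) with hL
  have hL0 : 0 ≤ L := by
    have : 0 ≤ min (u ^ dE κ) (u ^ (-dE κ)) := le_min (by positivity) (by positivity)
    positivity
  have hmin : 0 ≤ min L 1 := le_min hL0 zero_le_one
  rw [i1, i2, ← ENNReal.ofReal_add hW₁0 hW₂0, ← ENNReal.ofReal_mul (by positivity)] at r1 r2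
  refine ⟨W₂ + min L 1, by positivity, ?_, ?_, r1.trans (ENNReal.ofReal_le_ofReal ?_), r2.trans ?_⟩
  · have : W₂ ≤ G3 := e3.trans (by
      have : β / (1 + u ^ 2) ^ 4 ≤ 1 := (div_le_self hβ0.le (one_le_pow₀ (by nlinarith))).trans hβ1
      nlinarith)
    have := min_le_right L 1
    linarith
  · rw [ENNReal.ofReal_add hW₂0 hmin, i2]
    gcongr
    exact (ENNReal.ofReal_le_ofReal (min_le_left _ _)).trans e5
  · have hX : 0 ≤ (W₂ + min L 1) ^ (1 - bb κ / 2) := by positivity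
    calc C₀ * G1 * (1 + u) / 2 ^ k * (W₁ + W₂) = C₀ * G1 * ((1 + u) * (W₁ + W₂)) / 2 ^ k := by ring
      _ ≤ C₀ * G1 * (C₃ * (W₂ + min L 1) ^ (1 - bb κ / 2)) / 2 ^ k := by gcongr
      _ = C₀ * G1 * C₃ * ((W₂ + min L 1) ^ (1 - bb κ / 2) / 2 ^ k) := by ring
      _ ≤ _ := by gcongr; linarith
  · calc ENNReal.ofReal (C₀ * G1 ^ 2 * (u + u ^ 2) / 4 ^ k * (W₁ + W₂))
        ≤ ENNReal.ofReal (1 / 4 ^ k * (cE κ / 8 * W₂ + C₃ * L)) := by
          refine ENNReal.ofReal_le_ofReal ?_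
          calc _ = 1 / 4 ^ k * (C₀ * G1 ^ 2 * (u + u ^ 2) * (W₁ + W₂)) := by ring
            _ ≤ _ := by gcongr
      _ = ENNReal.ofReal (1 / 4 ^ k) * (ENNReal.ofReal (cE κ / 8) * ENNReal.ofReal W₂ +
            ENNReal.ofReal C₃ * ENNReal.ofReal L) := by
          rw [ENNReal.ofReal_mul (by positivity), ENNReal.ofReal_add (by positivity) (by positivity),
            ENNReal.ofReal_mul (by positivity), ENNReal.ofReal_mul (by positivity)]
      _ ≤ _ := by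
          rw [i2]
          gcongr
          linarith

/-- the gain on one annulus -/
theorem gain_ann {p : Par} (hp : p.Ok) (ω : Path) (t : ℝ) (k : ℤ) {A B : ℝ} (hA : 0 ≤ A) (hB : 0 ≤ B) :
    ENNReal.ofReal (1 / (4 : ℝ) ^ k) * (ENNReal.ofReal (A / 4) * WW p.R ω t k (P2 p ω t) +
        ENNReal.ofReal (B / 4) * WW p.R ω t k (P3 p ω t)) ≤
      ∫⁻ z in An ω t k, ENNReal.ofReal ((A * P2 p ω t z + B * P3 p ω t z) / (p.R ^ 2 * ‖Zc ω z t‖ ^ 2)) := by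
  obtain ⟨-, m2, m3⟩ := measurable_P p ω t
  have n2 := fun z => (P_nonneg hp ω t z).2.1
  have n3 := fun z => (P_nonneg hp ω t z).2.2
  have hR := hp.R0
  rw [mul_add, ← mul_assoc, ← mul_assoc, ← ENNReal.ofReal_mul (by positivity), ← ENNReal.ofReal_mul (by positivity),
    ← deta_WW m2 n2 n3 (by positivity) (by positivity) m3]
  refine setLIntegral_mono' (measurableSet_An ω t k) fun z hz => ENNReal.ofReal_le_ofReal ?_
  have h1 := hz.2.1
  have h2 := hz.2.2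
  have h0 : (0 : ℝ) < 2 ^ k := by positivity
  have := n2 z
  have := n3 z
  have hZ : 0 < ‖Zc ω z t‖ := h0.trans_le h1
  rw [zpow_add_one₀ (by norm_num)] at h2
  calc _ = (A * P2 p ω t z + B * P3 p ω t z) / (p.R ^ 2 * (2 ^ k * 2) ^ 2) := by rw [deta_four]; field_simp; ring
    _ ≤ _ := by gcongr

/-- Det-b: sum over the annuli (`lintegral_An`, `alg7`).  Choose `K ≤ 1` with `4 C₁² C₇ K ≤ cE/8` and `K₃ = 4 (C₀ + C₁ + 4 C₁² C₇)`. -/
theorem det (hκ : 0 < κ) (hκ8 : κ < 8) {C₀ : ℝ} (hC₀ : 1 ≤ C₀) : ∃ K K₃ : ℝ, 0 < K ∧ K ≤ 1 ∧ C₀ ≤ K₃ ∧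
    ∀ p : Par, p.Ok → p.κ = κ → p.K = K → p.K₃ = K₃ → ∀ (ω : Path) (t : ℝ), 0 ≤ t →
    ENNReal.ofReal (κ / 2) * (∫⁻ z, ENNReal.ofReal
        (C₀ * K * (1 + us p.R ω z t) * (P1 p ω t z + P2 p ω t z) / (p.R ^ 2 * ‖Zc ω z t‖))) ^ 2 +
      ∫⁻ z, ENNReal.ofReal
        (C₀ * K * (us p.R ω z t + us p.R ω z t ^ 2) * (P1 p ω t z + P2 p ω t z) / (p.R ^ 2 * ‖Zc ω z t‖ ^ 2)) ≤
      ∫⁻ z, ENNReal.ofReal ((cE κ * K * P2 p ω t z + 2 * K₃ * P3 p ω t z) / (p.R ^ 2 * ‖Zc ω z t‖ ^ 2)) := by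
  obtain ⟨hb0, hb1, -, -⟩ := bb_mem hκ hκ8
  have hce := cE_pos hκ hκ8
  obtain ⟨C₁, hC₁, hd⟩ := det_ann hκ hκ8 hC₀
  obtain ⟨C₇, hC₇, h7⟩ := alg7 (θ := 1 - bb κ / 2) (C₀ := C₁) (by linarith) (by linarith)
  set D := 4 * C₁ ^ 2 * C₇ with hD
  have hD0 : 0 < D := by positivity
  set K := min 1 (cE κ / 8 / D) with hK
  have hK0 : 0 < K := lt_min one_pos (by positivity)
  have hK1 : K ≤ 1 := min_le_left _ _
  have hKD : D * K ≤ cE κ / 8 := by
    have := min_le_right 1 (cE κ / 8 / D)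
    rw [← hK, le_div_iff₀ hD0] at this; linarith
  refine ⟨K, 4 * (C₀ + C₁ + D), hK0, hK1, by linarith, fun p hp hpκ _ _ ω t ht => ?_⟩
  have hR := hp.R0
  choose X hX0 hX1 hX2 hX3 hX4 using fun k => hd p hp hpκ ω t k ht
  have n1 := fun z => (P_nonneg hp ω t z).1
  have n2 := fun z => (P_nonneg hp ω t z).2.1
  have alive12 : ∀ z, P1 p ω t z + P2 p ω t z ≠ 0 → Alive ω z t := fun z h => by
    refine (P_supp hp ?_).1
    by_contra hc
    push Not at hc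
    exact h (by rw [hc.1, hc.2, add_zero])
  set W2 := fun k => WW p.R ω t k (P2 p ω t) with hW2
  set W3 := fun k => WW p.R ω t k (P3 p ω t) with hW3
  set q := fun k : ℤ => ENNReal.ofReal (1 / (4 : ℝ) ^ k) with hq
  have s1 : ∫⁻ z, ENNReal.ofReal
        (C₀ * K * (1 + us p.R ω z t) * (P1 p ω t z + P2 p ω t z) / (p.R ^ 2 * ‖Zc ω z t‖)) ≤
      ENNReal.ofReal (K * C₁) * ∑' k : ℤ, ENNReal.ofReal (X k ^ (1 - bb κ / 2) / (2 : ℝ) ^ k) := by
    rw [lintegral_An ω t fun z hz => alive12 z fun h => hz (by simp [h]), ← ENNReal.tsum_mul_left]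
    refine ENNReal.tsum_le_tsum fun k => ?_
    calc _ = ENNReal.ofReal K * ∫⁻ z in An ω t k, ENNReal.ofReal
          (C₀ * (1 + us p.R ω z t) * (P1 p ω t z + P2 p ω t z) / (p.R ^ 2 * ‖Zc ω z t‖)) := by
          rw [← lintegral_const_mul' _ _ ENNReal.ofReal_ne_top]
          refine lintegral_congr fun z => ?_
          rw [← ENNReal.ofReal_mul hK0.le]; congr 1; ring
      _ ≤ ENNReal.ofReal K * ENNReal.ofReal (C₁ * (X k ^ (1 - bb κ / 2) / (2 : ℝ) ^ k)) := by gcongr; exact hX3 k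
      _ = _ := by rw [ENNReal.ofReal_mul (by linarith), ENNReal.ofReal_mul hK0.le, mul_assoc]
  have s2 : ∫⁻ z, ENNReal.ofReal
        (C₀ * K * (us p.R ω z t + us p.R ω z t ^ 2) * (P1 p ω t z + P2 p ω t z) / (p.R ^ 2 * ‖Zc ω z t‖ ^ 2)) ≤
      ∑' k : ℤ, ENNReal.ofReal K * (q k * (ENNReal.ofReal (cE κ / 8) * W2 k + ENNReal.ofReal C₁ * W3 k)) := by
    rw [lintegral_An ω t fun z hz => alive12 z fun h => hz (by simp [h])]
    refine ENNReal.tsum_le_tsum fun k => ?_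
    calc _ = ENNReal.ofReal K * ∫⁻ z in An ω t k, ENNReal.ofReal
          (C₀ * (us p.R ω z t + us p.R ω z t ^ 2) * (P1 p ω t z + P2 p ω t z) / (p.R ^ 2 * ‖Zc ω z t‖ ^ 2)) := by
          rw [← lintegral_const_mul' _ _ ENNReal.ofReal_ne_top]
          refine lintegral_congr fun z => ?_
          rw [← ENNReal.ofReal_mul hK0.le]; congr 1; ring
      _ ≤ _ := by gcongr; exact hX4 k
  have s3 : ∑' k : ℤ, q k * (ENNReal.ofReal (cE κ * K / 4) * W2 k +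
        ENNReal.ofReal (2 * (4 * (C₀ + C₁ + D)) / 4) * W3 k) ≤
      ∫⁻ z, ENNReal.ofReal ((cE κ * K * P2 p ω t z + 2 * (4 * (C₀ + C₁ + D)) * P3 p ω t z) /
        (p.R ^ 2 * ‖Zc ω z t‖ ^ 2)) := by
    rw [lintegral_An ω t fun z hz => ?_]
    · exact ENNReal.tsum_le_tsum fun k => gain_ann hp ω t k (by positivity) (by positivity)
    · by_contra hc
      have a2 : P2 p ω t z = 0 := by
        by_contra h; exact hc (P_supp hp (Or.inr h)).1
      have a3 : P3 p ω t z = 0 := by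
        by_contra h; exact hc (P3_supp hp h).1
      exact hz (by simp [a2, a3])
  have s4 : ENNReal.ofReal (κ / 2) * (∫⁻ z, ENNReal.ofReal
        (C₀ * K * (1 + us p.R ω z t) * (P1 p ω t z + P2 p ω t z) / (p.R ^ 2 * ‖Zc ω z t‖))) ^ 2 ≤
      ∑' k : ℤ, ENNReal.ofReal (D * K * K) * (q k * (W2 k + W3 k)) := by
    calc _ ≤ ENNReal.ofReal 4 * (ENNReal.ofReal (K * C₁) *
          ∑' k : ℤ, ENNReal.ofReal (X k ^ (1 - bb κ / 2) / (2 : ℝ) ^ k)) ^ 2 := by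
          gcongr; linarith
      _ ≤ ENNReal.ofReal 4 * (ENNReal.ofReal (K * C₁) ^ 2 *
          (ENNReal.ofReal C₇ * ∑' k : ℤ, ENNReal.ofReal (X k / (4 : ℝ) ^ k))) := by
          rw [mul_pow]; gcongr; exact h7 X fun k => ⟨hX0 k, hX1 k⟩
      _ = ENNReal.ofReal (D * K * K) * ∑' k : ℤ, ENNReal.ofReal (X k / (4 : ℝ) ^ k) := by
          rw [← mul_assoc, ← mul_assoc, ← ENNReal.ofReal_pow (by positivity), ← ENNReal.ofReal_mul (by positivity),
            ← ENNReal.ofReal_mul (by positivity)]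
          congr 2; rw [hD]; ring
      _ ≤ _ := by
          rw [← ENNReal.tsum_mul_left]
          refine ENNReal.tsum_le_tsum fun k => ?_
          gcongr
          rw [div_eq_mul_one_div, mul_comm, ENNReal.ofReal_mul (by positivity)]
          gcongr; exact hX2 k
  refine le_trans (add_le_add s4 s2) (le_trans ?_ s3)
  rw [← ENNReal.tsum_add]
  refine ENNReal.tsum_le_tsum fun k => ?_
  calc _ = q k * ((ENNReal.ofReal (D * K * K) + ENNReal.ofReal K * ENNReal.ofReal (cE κ / 8)) * W2 k +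
        (ENNReal.ofReal (D * K * K) + ENNReal.ofReal K * ENNReal.ofReal C₁) * W3 k) := by ring
    _ ≤ _ := by
      rw [← ENNReal.ofReal_mul hK0.le, ← ENNReal.ofReal_mul hK0.le,
        ← ENNReal.ofReal_add (by positivity) (by positivity), ← ENNReal.ofReal_add (by positivity) (by positivity)]
      have a1 : D * K * K ≤ cE κ / 8 * K := by gcongr
      have a2 : D * K * K ≤ D := by
        calc D * K * K ≤ D * 1 * 1 := by gcongr
          _ = D := by ring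
      have a3 : K * C₁ ≤ C₁ := by nlinarith
      gcongr <;> linarith

/-- the gain is integrable: `P2 ≤ β`, `P3 ≤ β`, and `‖Z‖ ≥ Y > η/8` on their supports -/
theorem gain_lt_top {p : Par} (hp : p.Ok) (ω : Path) (t : ℝ) (A B : ℝ) :
    ∫⁻ z, ENNReal.ofReal ((A * P2 p ω t z + B * P3 p ω t z) / (p.R ^ 2 * ‖Zc ω z t‖ ^ 2)) < ⊤ := by
  have hR := hp.R0
  have hη := hp.η0
  have hb := integrable_bet hp
  have hi : Integrable fun z => (|A| + |B|) / (p.R ^ 2 * (p.η / 8) ^ 2) * bet p z := hb.const_mul _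
  refine lt_of_le_of_lt (lintegral_mono fun z => ENNReal.ofReal_le_ofReal ?_) hi.lintegral_lt_top
  obtain ⟨-, n2, n3⟩ := P_nonneg hp ω t z
  obtain ⟨hβ0, -⟩ := bet_mem p z
  obtain ⟨hd0, hd1, -⟩ := dE_mem hp.κ0 hp.κ8
  by_cases h : P2 p ω t z = 0 ∧ P3 p ω t z = 0
  · rw [h.1, h.2]; simp only [mul_zero, add_zero, zero_div]; positivity
  have hY : p.η / 8 ≤ ‖Zc ω z t‖ := by
    refine le_trans ?_ Yc_le_norm
    rcases not_and_or.1 h with h | h
    · have := (P_supp hp (Or.inr h)).2.1; linarith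
    · exact (P3_supp hp h).2.le
  have hS := Sc_mem (ω := ω) (z := z) (t := t)
  have hu : 0 ≤ Up ω z t / p.R := div_nonneg Up_nonneg hR.le
  have u2 : P2 p ω t z ≤ bet p z := by
    unfold P2
    have a1 := cut_mem p.η (Yc ω z t)
    have a2 := psi_mem (Up ω z t / p.R)
    have a3 : Sc ω z t ^ gE p.κ ≤ 1 := Real.rpow_le_one hS.1 hS.2 (gE_mem hp.κ0 hp.κ8).1.le
    have a3' : 0 ≤ Sc ω z t ^ gE p.κ := Real.rpow_nonneg hS.1 _
    have a4 := aF_mem p.R ω z t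
    calc _ ≤ bet p z * 1 * 1 * 1 * 1 := by gcongr; exacts [a4.1.le, a2.1, a1.2, a2.2, a4.2]
      _ = _ := by ring
  have u3 : P3 p ω t z ≤ bet p z := by
    unfold P3
    have a1 := cut_mem (p.η / 8) (Yc ω z t)
    have a2 := Th'_mem hd0.le hu
    have a3 : Sc ω z t ^ 2 ≤ 1 := pow_le_one₀ hS.1 hS.2
    calc _ ≤ bet p z * 1 * 1 * 1 := by gcongr; exacts [a2.1, a1.2, a2.2.trans hd1]
      _ = _ := by ring
  calc _ ≤ (|A| * bet p z + |B| * bet p z) / (p.R ^ 2 * (p.η / 8) ^ 2) := by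
        gcongr
        · exact le_abs_self A
        · exact le_abs_self B
    _ = _ := by ring

end Crest.Agent.R162.E
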