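import Crest.Agent.R162.E.Ok
import Crest.Agent.R162.E.Det

/-! # Row 162, block E: the exponential supermartingale -/

set_option autoImplicit false

open scoped ENNReal NNReal Topology
open Set Filter MeasureTheory Metric

noncomputable section
namespace Crest.Agent.R162.E

variable {κ s₀ : ℝ} {μ : Measure Path}

/-- Fin-a: integrate `JI_diag` in `z` and use `det` (the cost is integrable since it is dominated by the gain, `gain_lt_top`) -/
theorem drift (hκ : 0 < κ) (hκ8 : κ < 8) (hs₀ : 0 < s₀) : ∃ c K K₃ : ℝ, 0 < c ∧ 0 < K ∧ K ≤ 1 ∧ 1 ≤ K₃ ∧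
    ∀ p : Par, p.Ok → p.κ = κ → p.K = K → p.K₃ = K₃ → p.y ≤ c * p.R → ∀ (ω : Path) (t : ℝ), 0 ≤ t →
    (Phi p).gen κ t ω + κ / 2 * (Phi p).x t (ω t) ω ^ 2 + c * p.R ^ (bb κ - 2) * rate p s₀ t ω ≤ 0 := by
  obtain ⟨c, C, hc, hC, hJ⟩ := JI_diag hκ hκ8 hs₀
  obtain ⟨K, K₃, hK, hK1, hK₃, hD⟩ := det hκ hκ8 hC
  refine ⟨c * K, K, K₃, by positivity, hK, hK1, by linarith, fun p hp hpκ hpK hpK₃ hy ω t ht => ?_⟩
  have hR := hp.R0
  have hce := cE_pos hκ hκ8
  have hy' : p.y ≤ c * p.R := hy.trans (by gcongr; nlinarith)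
  have hJ' := hJ p hp hpκ (by rw [hpK₃]; exact hK₃) hy' ω
  have hD' := hD p hp hpκ hpK hpK₃ ω t ht
  rw [hpK, hpK₃] at hJ'
  obtain ⟨i1, i2, e1⟩ := Phi_gen (κ := κ) hp t ω
  obtain ⟨i3, e3⟩ := rate_eq hp hs₀ t ω
  rw [hpκ] at i3 e3
  obtain ⟨m1, m2, m3⟩ := measurable_P p ω t
  have mu := measurable_us p.R ω t
  have mZ : Measurable fun z => ‖Zc ω z t‖ :=
    ((measurable_gt.comp (f := fun z : ℂ => (ω, z, t)) (by fun_prop)).sub measurable_const).norm
  have n1 := fun z => (P_nonneg hp ω t z).1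
  have n2 := fun z => (P_nonneg hp ω t z).2.1
  have n3 := fun z => (P_nonneg hp ω t z).2.2
  have nu := fun z => us_nonneg hR ω z t
  set gain := fun z => (cE κ * K * P2 p ω t z + 2 * K₃ * P3 p ω t z) / (p.R ^ 2 * ‖Zc ω z t‖ ^ 2) with hgain
  set cost := fun z => C * K * (us p.R ω z t + us p.R ω z t ^ 2) * (P1 p ω t z + P2 p ω t z) /
    (p.R ^ 2 * ‖Zc ω z t‖ ^ 2) with hcost
  set dx := fun z => C * K * (1 + us p.R ω z t) * (P1 p ω t z + P2 p ω t z) / (p.R ^ 2 * ‖Zc ω z t‖) with hdx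
  have hK₃0 : 0 < K₃ := by linarith
  have g0 : ∀ z, 0 ≤ gain z := fun z => by
    have := n2 z; have := n3 z; simp only [hgain]; positivity
  have c0 : ∀ z, 0 ≤ cost z := fun z => by
    have := n1 z; have := n2 z; have := nu z; simp only [hcost]; positivity
  have d0 : ∀ z, 0 ≤ dx z := fun z => by
    have := n1 z; have := n2 z; have := nu z; simp only [hdx]; positivity
  have gm : Measurable gain := by simp only [hgain]; fun_prop
  have cm : Measurable cost := by simp only [hcost]; fun_prop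
  have gT : ∫⁻ z, ENNReal.ofReal (gain z) < ⊤ := gain_lt_top hp ω t _ _
  have cT : ∫⁻ z, ENNReal.ofReal (cost z) < ⊤ := lt_of_le_of_lt (le_add_self.trans hD') gT
  have gi : Integrable gain := ⟨gm.aestronglyMeasurable,
    (hasFiniteIntegral_iff_ofReal (Eventually.of_forall g0)).2 gT⟩
  have ci : Integrable cost := ⟨cm.aestronglyMeasurable,
    (hasFiniteIntegral_iff_ofReal (Eventually.of_forall c0)).2 cT⟩
  have a1 : (Phi p).gen κ t ω ≤ -(c * K * p.R ^ (bb κ - 2)) * rate p s₀ t ω + (∫ z, cost z) - ∫ z, gain z := by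
    have i4 : Integrable fun z => -(c * K * p.R ^ (bb κ - 2)) *
        (ind p z * (cut p.η (Yc ω z t) * dens κ s₀ p.y ω z t)) + cost z := (i3.const_mul _).add ci
    rw [e1, e3, ← integral_const_mul, ← integral_add (i3.const_mul _) ci, ← integral_sub i4 gi]
    exact integral_mono i1 (i4.sub gi) fun z => (hJ' z t).1
  have a2 : ENNReal.ofReal |(Phi p).x t (ω t) ω| ≤ ∫⁻ z, ENNReal.ofReal (dx z) := by
    calc _ = ‖∫ z, (JI p z).x t (ω t) ω‖ₑ := by rw [← ofReal_norm]; rfl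
      _ ≤ ∫⁻ z, ‖(JI p z).x t (ω t) ω‖ₑ := enorm_integral_le_lintegral_enorm _
      _ ≤ _ := lintegral_mono fun z => by
        rw [← ofReal_norm]; exact ENNReal.ofReal_le_ofReal (hJ' z t).2
  have a3 : ENNReal.ofReal (κ / 2 * (Phi p).x t (ω t) ω ^ 2 + ∫ z, cost z) ≤ ENNReal.ofReal (∫ z, gain z) := by
    rw [ENNReal.ofReal_add (by positivity) (integral_nonneg c0),
      ofReal_integral_eq_lintegral_ofReal ci (Eventually.of_forall c0),
      ofReal_integral_eq_lintegral_ofReal gi (Eventually.of_forall g0), ENNReal.ofReal_mul (by positivity),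
      ← sq_abs, ENNReal.ofReal_pow (abs_nonneg _)]
    refine le_trans ?_ hD'
    gcongr
  rw [ENNReal.ofReal_le_ofReal_iff (integral_nonneg g0)] at a3
  linarith

/-- Fin-b: `dynkin_le` for the jet `((Phi p).add acc).comp exp exp exp`, `acc = Jet.fv (∫_s^t A rate) (A rate)`, `τ = T` -/
theorem expo (hκ : 0 < κ) (hμ : Wie κ μ) (hs₀ : 0 < s₀) {p : Par} (hp : p.Ok) {A : ℝ} (hA : 0 ≤ A)
    (h : ∀ (ω : Path) (t : ℝ), 0 ≤ t → (Phi p).gen κ t ω + κ / 2 * (Phi p).x t (ω t) ω ^ 2 + A * rate p s₀ t ω ≤ 0)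
    (ω : Path) {s T : ℝ} (hs : 0 ≤ s) (hsT : s ≤ T) :
    EE μ ω s (fun ω₁ => ENNReal.ofReal (Real.exp (A * ∫ t in s..T, rate p s₀ t ω₁))) ≤
      ENNReal.ofReal (Real.exp ((Phi p).val s ω)) := by
  obtain ⟨B, hB⟩ := rate_bd hp hs₀
  obtain ⟨B', hB'0, hB'⟩ := Phi_bd hp T
  have hB0 : 0 ≤ B := (hB 0 ω).1.trans (hB 0 ω).2
  set acc : Jet ℝ := Jet.fv (fun r ω => ∫ u in s..r, A * rate p s₀ u ω) (fun u ω => A * rate p s₀ u ω) with hacc
  set J : Jet ℝ := ((Phi p).add acc).comp Real.exp Real.exp Real.exp with hJ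
  have hacc_bd : ∀ t ∈ Icc s T, ∀ x ω', acc.Bd t x ω' (A * B * (1 + (T - s))) := fun t ht x ω' => by
    have h1 : ∀ u, ‖A * rate p s₀ u ω'‖ ≤ A * B := fun u => by
      rw [Real.norm_eq_abs, abs_of_nonneg (mul_nonneg hA (hB u ω').1)]
      exact mul_le_mul_of_nonneg_left (hB u ω').2 hA
    have hAB : 0 ≤ A * B := by positivity
    have hTs : 0 ≤ T - s := by linarith
    refine ⟨?_, ?_, ?_, ?_⟩
    · refine (intervalIntegral.norm_integral_le_of_norm_le_const fun u _ => h1 u).trans ?_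
      rw [abs_of_nonneg (by linarith [ht.1])]
      gcongr; linarith [ht.2]
    · exact (h1 t).trans (le_mul_of_one_le_right hAB (by linarith))
    · simp only [hacc, Jet.fv, Pi.zero_apply, norm_zero]; positivity
    · simp only [hacc, Jet.fv, Pi.zero_apply, norm_zero]; positivity
  have hagr : ∀ t x ω₁ ω₂, s ≤ t → Agr t ω₁ ω₂ → acc.f t x ω₂ = acc.f t x ω₁ ∧ acc.s t x ω₂ = acc.s t x ω₁ :=
    fun t x ω₁ ω₂ hst h => by
      refine ⟨intervalIntegral.integral_congr fun u hu => ?_, ?_⟩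
      · rw [uIcc_of_le hst] at hu
        show A * rate p s₀ u ω₂ = A * rate p s₀ u ω₁
        rw [rate_agr fun v hv => h v (hv.trans hu.2)]
      · simp only [hacc, Jet.fv]; rw [rate_agr h]
  have hok : J.Ok s T := by
    refine ⟨hs, ?_, ?_, ?_, ?_, fun t ht x ω' => ?_, ?_⟩
    · intro t x ω₁ ω₂ hst h
      simp only [hJ, Jet.comp, Jet.add, Pi.add_apply, (ad_Phi p t x ω₁ ω₂ h).1, (hagr t x ω₁ ω₂ hst h).1]
    · intro t x ω₁ ω₂ hst h
      simp only [hJ, Jet.comp, Jet.add, Pi.add_apply, (ad_Phi p t x ω₁ ω₂ h).1, (hagr t x ω₁ ω₂ hst h).1,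
        (ad_Phi p t x ω₁ ω₂ h).2.1, (hagr t x ω₁ ω₂ hst h).2]
    · intro t x ω₁ ω₂ hst h
      simp only [hJ, Jet.comp, Jet.add, Pi.add_apply, (ad_Phi p t x ω₁ ω₂ h).1, (hagr t x ω₁ ω₂ hst h).1,
        (ad_Phi p t x ω₁ ω₂ h).2.2.1]
      rfl
    · intro t x ω₁ ω₂ hst h
      simp only [hJ, Jet.comp, Jet.add, Pi.add_apply, (ad_Phi p t x ω₁ ω₂ h).1, (hagr t x ω₁ ω₂ hst h).1,
        (ad_Phi p t x ω₁ ω₂ h).2.2.1, (ad_Phi p t x ω₁ ω₂ h).2.2.2]
      rfl
    · have ht0 : 0 ≤ t := hs.trans ht.1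
      refine ((Phi_at hp ht0 x ω').add (Jet.at_acc hs ht0 (continuousOn_const.mul (rate_cont hp hs₀)))).comp
        (Eventually.of_forall Real.hasDerivAt_exp) (Eventually.of_forall Real.hasDerivAt_exp)
        Real.continuous_exp.continuousAt
    · refine ⟨_, fun t ht x ω' => ((hB' t x ω' ht.2).add (hacc_bd t ht x ω')).comp
        (D := Real.exp (B' + A * B * (1 + (T - s)))) ?_ ?_ ?_⟩ <;>
      · rw [Real.norm_eq_abs, abs_of_pos (Real.exp_pos _)]
        exact Real.exp_le_exp.2 ((le_abs_self _).trans ((hB' t x ω' ht.2).add (hacc_bd t ht x ω')).1)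
  have hτ : After (fun _ => T) ω s T := ⟨Stop.const (hs.trans hsT), hs, fun _ => hsT, fun _ => le_rfl⟩
  have key := dynkin_le hκ hμ hok hτ le_rfl
    (F := fun ω₁ => ENNReal.ofReal (Real.exp (A * ∫ t in s..T, rate p s₀ t ω₁))) (h := fun _ _ => 0)
    (fun ω' t ht => ⟨?_, zero_le⟩) (fun ω' => ⟨(Real.exp_pos _).le, ?_⟩)
  · simp only [lintegral_const, zero_mul, add_zero] at key
    refine key.trans (le_of_eq ?_)
    simp [hJ, Jet.val, Jet.comp, Jet.add, hacc, Jet.fv]
  · have := h (spl s ω ω') t (hs.trans ht.1.le)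
    rw [hJ, Jet.gen_comp, Jet.gen_add, hacc, Jet.gen_fv]
    have e : ((Phi p).add acc).x t (spl s ω ω' t) (spl s ω ω') = (Phi p).x t (spl s ω ω' t) (spl s ω ω') := by
      simp [Jet.add, hacc, Jet.fv]
    rw [← hacc, e]
    have hpos := Real.exp_pos (((Phi p).add acc).val t (spl s ω ω'))
    nlinarith
  · refine ENNReal.ofReal_le_ofReal (Real.exp_le_exp.2 ?_)
    have := Phi_val_nonneg hp T (spl s ω ω')
    show _ ≤ (Phi p).val T (spl s ω ω') + ∫ u in s..T, A * rate p s₀ u (spl s ω ω')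
    rw [intervalIntegral.integral_const_mul]
    linarith

/-- Fin-c: exponential Chebyshev along an increasing sequence -/
theorem cheb {α : Type} [MeasurableSpace α] {μ : Measure α} {X : ℕ → α → ℝ} {Y : α → ℝ≥0∞} {A D l : ℝ} (hA : 0 < A)
    (hl : 0 ≤ l) (hm : ∀ n, Measurable (X n)) (h0 : ∀ n a, 0 ≤ X n a)
    (hmono : ∀ a, Monotone fun n => ENNReal.ofReal (X n a)) (hY : ∀ a, ⨆ n, ENNReal.ofReal (X n a) = Y a)
    (hE : ∀ n, ∫⁻ a, ENNReal.ofReal (Real.exp (A * X n a)) ∂μ ≤ ENNReal.ofReal (Real.exp D)) :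
    μ {a | ENNReal.ofReal l ≤ Y a} ≤ ENNReal.ofReal (Real.exp (D - A * l)) := by
  have hmono' : ∀ a, Monotone fun n => X n a := fun a n m h =>
    (ENNReal.ofReal_le_ofReal_iff (h0 m a)).1 (hmono a h)
  have hYm : Measurable Y := by
    have : Y = fun a => ⨆ n, ENNReal.ofReal (X n a) := funext fun a => (hY a).symm
    rw [this]; exact Measurable.iSup fun n => (hm n).ennreal_ofReal
  have key : ENNReal.ofReal (Real.exp (A * l)) * μ {a | ENNReal.ofReal l ≤ Y a} ≤ ENNReal.ofReal (Real.exp D) := by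
    rw [← lintegral_indicator_const (measurableSet_le measurable_const hYm)]
    calc _ ≤ ∫⁻ a, ⨆ n, ENNReal.ofReal (Real.exp (A * X n a)) ∂μ := by
          refine lintegral_mono fun a => ?_
          by_cases ha : a ∈ {a | ENNReal.ofReal l ≤ Y a}
          swap
          · rw [indicator_of_notMem ha]; exact zero_le
          rw [indicator_of_mem ha]
          refine le_of_forall_lt fun v hv => ?_
          -- continuity: some `l' < l` still has `v < exp (A l')`
          have hc : ContinuousAt (fun w : ℝ => ENNReal.ofReal (Real.exp (A * w))) l :=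
            (ENNReal.continuous_ofReal.comp (by fun_prop)).continuousAt
          obtain ⟨w, hw1, hw2⟩ := ((hc.eventually (lt_mem_nhds hv)).filter_mono
            (nhdsWithin_le_nhds (s := Iio l))).and self_mem_nhdsWithin |>.exists
          have : ∃ n, w ≤ X n a := by
            rcases lt_or_ge w 0 with h | h
            · exact ⟨0, h.le.trans (h0 0 a)⟩
            · have : ENNReal.ofReal w < ⨆ n, ENNReal.ofReal (X n a) := by
                rw [hY]; exact lt_of_lt_of_le ((ENNReal.ofReal_lt_ofReal_iff (h.trans_lt hw2)).2 hw2) ha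
              obtain ⟨n, hn⟩ := lt_iSup_iff.1 this
              exact ⟨n, (ENNReal.ofReal_le_ofReal_iff (h0 n a)).1 hn.le⟩
          obtain ⟨n, hn⟩ := this
          refine hw1.trans_le (le_iSup_of_le n (ENNReal.ofReal_le_ofReal ?_))
          gcongr
      _ = ⨆ n, ∫⁻ a, ENNReal.ofReal (Real.exp (A * X n a)) ∂μ := by
          refine lintegral_iSup (fun n => ?_) fun n m h a => ENNReal.ofReal_le_ofReal ?_
          · have := hm n; fun_prop
          · gcongr; exact hmono' a h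
      _ ≤ _ := iSup_le hE
  rw [Real.exp_sub, ENNReal.ofReal_div_of_pos (Real.exp_pos _),
    ENNReal.le_div_iff_mul_le (Or.inl (by simp [Real.exp_pos])) (Or.inl ENNReal.ofReal_ne_top), mul_comm]
  exact key

end Crest.Agent.R162.E
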