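import Crest.Agent.R162.E.A

/-! # Row 162, block E: geometry of the dyadic annuli (deterministic; Koebe) -/

set_option autoImplicit false

open scoped ENNReal NNReal Topology
open Set Filter MeasureTheory Metric

noncomputable section
namespace Crest.Agent.R162.E

variable {κ : ℝ}

/-! ### Geo-a -/

theorem wh_spec (ω : Path) {t h : ℝ} (ht : 0 ≤ t) (hh : 0 < h) : Alive ω (wh ω t h) t ∧
    gt ω (wh ω t h) t = ω t + Complex.I * h ∧ Zc ω (wh ω t h) t = Complex.I * h ∧ Yc ω (wh ω t h) t = h := by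
  have hH : ((ω t : ℝ) : ℂ) + Complex.I * h ∈ HH := by
    show 0 < (((ω t : ℝ) : ℂ) + Complex.I * h).im
    simpa using hh
  have hg : gt ω (wh ω t h) t = ω t + Complex.I * h := gt_ft ht hH
  refine ⟨alive_ft ht hH, hg, ?_, ?_⟩
  · rw [Zc, hg, add_sub_cancel_left]
  · rw [Yc, hg]
    simp

theorem uk_pos {R : ℝ} (hR : 0 < R) (ω : Path) {t : ℝ} (ht : 0 ≤ t) (k : ℤ) : 0 < uk R ω t k := by
  exact div_pos (wh_spec ω ht (by positivity)).1.up_pos hR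

theorem geo_an {ω : Path} {t : ℝ} {k : ℤ} {z : ℂ} (hz : z ∈ An ω t k) :
    Alive ω z t ∧ (2 : ℝ) ^ k ≤ ‖Zc ω z t‖ ∧ ‖Zc ω z t‖ < 2 * (2 : ℝ) ^ k := by
  refine ⟨hz.1, hz.2.1, ?_⟩
  have := hz.2.2
  rwa [zpow_add_one₀ two_ne_zero, mul_comm] at this

/-- G1: `KoebeF.far` with `M = 1` -/
theorem geo1 : ∃ C, 1 ≤ C ∧ ∀ (R : ℝ) (ω : Path) (t : ℝ) (k : ℤ) (z : ℂ), 0 < R → z ∈ An ω t k →
    us R ω z t ≤ C * uk R ω t k ∧ uk R ω t k ≤ C * us R ω z t ∧ ‖wz ω z t - wk ω t k‖ ≤ C * uk R ω t k * R := by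
  obtain ⟨C, hC⟩ := exists_koebeF
  refine ⟨C, by linarith [hC.two_le], fun R ω t k z hR hz => ?_⟩
  obtain ⟨h0, h1, h2⟩ := geo_an hz
  have ha : (0 : ℝ) < 2 ^ k := by positivity
  obtain ⟨a1, a2, -, a4⟩ := wh_spec ω h0.1 (ha.trans_le h1)
  obtain ⟨b1, b2, -, b4⟩ := wh_spec ω h0.1 (show (0 : ℝ) < 3 / 2 * 2 ^ k by positivity)
  have hd : ‖gt ω (wz ω z t) t - gt ω (wk ω t k) t‖ ≤ 2 ^ k := by
    unfold wz wk
    rw [a2, b2, add_sub_add_left_eq_sub, ← mul_sub, ← Complex.ofReal_sub, norm_mul, Complex.norm_I, one_mul,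
      Complex.norm_real, Real.norm_eq_abs, abs_le]
    constructor <;> linarith
  have hm : (2 : ℝ) ^ k ≤ min (Yc ω (wk ω t k) t) (Yc ω (wz ω z t) t) := by
    unfold wz wk
    rw [a4, b4]
    exact le_min (by linarith) h1
  obtain ⟨c1, c2⟩ := hC.far ω (wk ω t k) (wz ω z t) t 1 b1 a1 le_rfl (by rw [one_mul]; exact hd.trans hm)
  obtain ⟨-, c3⟩ := hC.far ω (wz ω z t) (wk ω t k) t 1 a1 b1 le_rfl
    (by rw [one_mul, norm_sub_rev, min_comm]; exact hd.trans hm)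
  rw [Real.one_rpow, mul_one] at c1 c2 c3
  unfold us uk
  refine ⟨?_, ?_, ?_⟩
  · rw [← mul_div_assoc]
    gcongr
  · rw [← mul_div_assoc]
    gcongr
  · rwa [mul_assoc, div_mul_cancel₀ _ hR.ne']

/-- G2: `KoebeF.lip` gives `us ≤ C (2 + ‖z - w‖/R)`; then G1 -/
theorem geo2 : ∃ C, 1 ≤ C ∧ ∀ (R : ℝ) (ω : Path) (t : ℝ) (k : ℤ) (z : ℂ), 0 < R → z ∈ An ω t k →
    Up ω z t ≤ 2 * R →
    qq R z (wk ω t k) ≤ C * qq R z (wz ω z t) ∧ 1 + uk R ω t k ^ 2 ≤ C * qq R z (wz ω z t) := by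
  obtain ⟨C, hC⟩ := exists_koebeF
  obtain ⟨C₁, hC₁, h1⟩ := geo1
  have hC0 : 0 < C := by linarith [hC.two_le]
  obtain ⟨A, hA⟩ : ∃ A, A = 1 + 5 * (C₁ * C) ^ 2 := ⟨_, rfl⟩
  have hA1 : 1 ≤ A := by rw [hA]; nlinarith [sq_nonneg (C₁ * C)]
  have hA2 : 0 ≤ 2 * C₁ ^ 2 * A := by positivity
  refine ⟨2 + 2 * C₁ ^ 2 * A + A, by linarith, fun R ω t k z hR hz hU => ?_⟩
  obtain ⟨h0, h2, -⟩ := geo_an hz
  obtain ⟨-, g2, g3⟩ := h1 R ω t k z hR hz
  have ha : (0 : ℝ) < 2 ^ k := by positivity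
  have hu := (uk_pos hR ω h0.1 k).le
  have l := hC.lip ω z (wz ω z t) t h0 (wh_spec ω h0.1 (ha.trans_le h2)).1
  obtain ⟨d, hd⟩ : ∃ d, d = ‖z - wz ω z t‖ / R := ⟨_, rfl⟩
  have hd0 : 0 ≤ d := by rw [hd]; positivity
  have hq : qq R z (wz ω z t) = 1 + d ^ 2 := by rw [qq, hd, div_pow]
  have l1 : us R ω z t ≤ C * (2 + d) := by
    rw [us, div_le_iff₀ hR, hd, mul_assoc, add_mul, div_mul_cancel₀ _ hR.ne', norm_sub_rev]
    exact l.trans (by gcongr)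
  have l2 : uk R ω t k ≤ C₁ * C * (2 + d) := by
    rw [mul_assoc]
    exact g2.trans (by gcongr)
  have l3 : 1 + uk R ω t k ^ 2 ≤ A * (1 + d ^ 2) := by
    have h3 : uk R ω t k ^ 2 ≤ (C₁ * C) ^ 2 * (5 * (1 + d ^ 2)) := by
      calc uk R ω t k ^ 2 ≤ (C₁ * C * (2 + d)) ^ 2 := by gcongr
        _ = (C₁ * C) ^ 2 * (2 + d) ^ 2 := by ring
        _ ≤ _ := by gcongr; nlinarith [sq_nonneg (2 * d - 1)]
    rw [hA]
    nlinarith [sq_nonneg d]
  have l4 : ‖z - wk ω t k‖ / R ≤ d + C₁ * uk R ω t k := by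
    rw [div_le_iff₀ hR, hd, add_mul, div_mul_cancel₀ _ hR.ne']
    linarith [norm_sub_le_norm_sub_add_norm_sub z (wz ω z t) (wk ω t k)]
  have l5 : qq R z (wk ω t k) ≤ 1 + 2 * d ^ 2 + 2 * C₁ ^ 2 * uk R ω t k ^ 2 := by
    rw [qq, ← div_pow]
    have := pow_le_pow_left₀ (by positivity) l4 2
    nlinarith [sq_nonneg (d - C₁ * uk R ω t k)]
  have l6 : 2 * C₁ ^ 2 * uk R ω t k ^ 2 ≤ 2 * C₁ ^ 2 * (A * (1 + d ^ 2)) := by gcongr; linarith
  rw [hq]
  constructor <;> nlinarith [sq_nonneg d, mul_nonneg hA2 (sq_nonneg d)]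

theorem geo_P2_le {p : Par} (hp : p.Ok) (ω : Path) (t : ℝ) (z : ℂ) : P2 p ω t z ≤ bet p z * aF p.R ω z t := by
  have h1 := cut_mem p.η (Yc ω z t)
  have h2 := psi_mem (Up ω z t / p.R)
  have h3 : Sc ω z t ^ gE p.κ ≤ 1 := Real.rpow_le_one Sc_mem.1 Sc_mem.2 (gE_mem hp.κ0 hp.κ8).1.le
  have h4 := (bet_mem p z).1.le
  calc P2 p ω t z ≤ bet p z * 1 * 1 * 1 * aF p.R ω z t := by
        unfold P2
        have := Real.rpow_nonneg (Sc_mem (ω := ω) (z := z) (t := t)).1 (gE p.κ)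
        have := (aF_mem p.R ω z t).1.le
        gcongr
        exacts [h2.1, h1.2, h2.2]
    _ = _ := by ring

/-- G3: `P2 ≤ β(z) a ≤ C β(w_k) qq(z,w_k)^{-2} (1 + u_k²)^{-4}` (`bet_le`, G2, `P_supp`), then `lintegral_qq` -/
theorem geo3 : ∃ C, 1 ≤ C ∧ ∀ p : Par, p.Ok → ∀ (ω : Path) (t : ℝ) (k : ℤ),
    WW p.R ω t k (P2 p ω t) ≤ ENNReal.ofReal (C * (bet p (wk ω t k) / (1 + uk p.R ω t k ^ 2) ^ 4)) := by
  obtain ⟨C, hC, h2⟩ := geo2
  have hC8 : 1 ≤ C ^ 8 := one_le_pow₀ hC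
  refine ⟨40 * C ^ 8, by linarith, fun p hp ω t k => ?_⟩
  have hb := (bet_mem p (wk ω t k)).1
  obtain ⟨H, hH⟩ : ∃ H, H = bet p (wk ω t k) / (1 + uk p.R ω t k ^ 2) ^ 4 := ⟨_, rfl⟩
  have hH0 : 0 ≤ H := by rw [hH]; positivity
  rw [← hH]
  have key : ∀ z ∈ An ω t k, P2 p ω t z ≤ 4 * C ^ 8 * H * (qq p.R z (wk ω t k) ^ 2)⁻¹ := by
    intro z hz
    have q1 := one_le_qq p.R z (wk ω t k)
    have q2 := one_le_qq p.R z (wz ω z t)
    by_cases h0 : P2 p ω t z = 0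
    · rw [h0]
      positivity
    obtain ⟨g1, g2⟩ := h2 p.R ω t k z hp.R0 hz (P_supp hp (Or.inr h0)).2.2.le
    refine (geo_P2_le hp ω t z).trans ?_
    have b1 := bet_le p z (wk ω t k)
    rw [aF, hH]
    generalize qq p.R z (wk ω t k) = a at *
    generalize qq p.R z (wz ω z t) = q at *
    have hu : 0 < 1 + uk p.R ω t k ^ 2 := by positivity
    generalize 1 + uk p.R ω t k ^ 2 = u at *
    have e : a ^ 4 * u ^ 4 ≤ (C * q) ^ 4 * (C * q) ^ 4 := by gcongr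
    calc bet p z * (q ^ 8)⁻¹ ≤ 4 * bet p (wk ω t k) * a ^ 2 * (q ^ 8)⁻¹ := by gcongr
      _ = 4 * bet p (wk ω t k) * (a ^ 4 * u ^ 4) / (q ^ 8 * u ^ 4 * a ^ 2) := by field_simp
      _ ≤ 4 * bet p (wk ω t k) * ((C * q) ^ 4 * (C * q) ^ 4) / (q ^ 8 * u ^ 4 * a ^ 2) := by gcongr
      _ = _ := by field_simp
  calc WW p.R ω t k (P2 p ω t)
      ≤ ∫⁻ z in An ω t k, ENNReal.ofReal (4 * C ^ 8 * H) * ENNReal.ofReal ((qq p.R z (wk ω t k) ^ 2)⁻¹ / p.R ^ 2) := by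
        refine setLIntegral_mono' (measurableSet_An ω t k) fun z hz => ?_
        rw [← ENNReal.ofReal_mul (by positivity), ← mul_div_assoc]
        exact ENNReal.ofReal_le_ofReal (div_le_div_of_nonneg_right (key z hz) (sq_nonneg _))
    _ ≤ ENNReal.ofReal (4 * C ^ 8 * H) * 10 := by
        rw [lintegral_const_mul' _ _ ENNReal.ofReal_ne_top]
        gcongr
        exact (setLIntegral_le_lintegral _ _).trans (lintegral_qq hp.R0 _)
    _ = _ := by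
        rw [← ENNReal.ofReal_ofNat, ← ENNReal.ofReal_mul (by positivity)]
        congr 1
        ring

/-! ### Geo-b -/

theorem geo4a_box {q a : ℝ} (hq : 1 < q) (ha : 0 < a) (c : ℝ) :
    ∫⁻ ζ : ℂ, (Icc (c - 2 * a) (c + 2 * a)).indicator 1 ζ.re *
      (Ioc 0 (2 * a)).indicator (fun y => ENNReal.ofReal (y ^ (q - 2) / a ^ q)) ζ.im =
      ENNReal.ofReal (2 * 2 ^ q / (q - 1)) := by
  have hm : Measurable ((Ioc 0 (2 * a)).indicator fun y => ENNReal.ofReal (y ^ (q - 2) / a ^ q)) :=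
    Measurable.indicator (by fun_prop) measurableSet_Ioc
  have hm' : Measurable ((Icc (c - 2 * a) (c + 2 * a)).indicator (1 : ℝ → ℝ≥0∞)) :=
    measurable_one.indicator measurableSet_Icc
  have h1 := Complex.volume_preserving_equiv_real_prod.lintegral_comp
    (f := fun p : ℝ × ℝ => (Icc (c - 2 * a) (c + 2 * a)).indicator 1 p.1 *
      (Ioc 0 (2 * a)).indicator (fun y => ENNReal.ofReal (y ^ (q - 2) / a ^ q)) p.2)
    ((hm'.comp measurable_fst).mul (hm.comp measurable_snd))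
  have hi := (intervalIntegral.intervalIntegrable_rpow' (a := 0) (b := 2 * a) (r := q - 2) (by linarith)).div_const (a ^ q)
  have haq : 0 < a ^ q := Real.rpow_pos_of_pos ha _
  refine h1.trans ?_
  rw [Measure.volume_eq_prod, lintegral_prod_mul hm'.aemeasurable hm.aemeasurable,
    lintegral_indicator_one measurableSet_Icc, Real.volume_Icc, lintegral_indicator measurableSet_Ioc,
    ← ofReal_integral_eq_lintegral_ofReal hi.1 ((ae_restrict_mem measurableSet_Ioc).mono fun y hy =>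
      div_nonneg (Real.rpow_nonneg hy.1.le _) haq.le),
    ← intervalIntegral.integral_of_le (by linarith), intervalIntegral.integral_div,
    integral_rpow (Or.inl (by linarith)), ← ENNReal.ofReal_mul (by linarith)]
  congr 1
  have e : q - 2 + 1 = q - 1 := by ring
  have hq1 : q - 1 ≠ 0 := by linarith
  rw [e, Real.zero_rpow hq1, sub_zero, Real.rpow_sub_one (by linarith), Real.mul_rpow zero_le_two ha.le]
  field_simp
  ring

/-- change variables by `lintegral_Dom`, `Up_ft`, `gt_ft`: the integral is `∫ (Y/|ζ - ω t|)^q / Y² dA(ζ)` over the half annulus,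
at most `2^{-kq} ∫_{|X| ≤ 2^{k+1}} ∫_0^{2^{k+1}} Y^{q-2}` -/
theorem geo4a {q : ℝ} (hq : 1 < q) : ∃ C, 1 ≤ C ∧ ∀ (ω : Path) (t : ℝ) (k : ℤ),
    ∫⁻ z in An ω t k, ENNReal.ofReal (Sc ω z t ^ q / Up ω z t ^ 2) ≤ ENNReal.ofReal C := by
  refine ⟨max 1 (2 * 2 ^ q / (q - 1)), le_max_left _ _, fun ω t k => ?_⟩
  rcases lt_or_ge t 0 with ht | ht
  · have : An ω t k = ∅ := eq_empty_of_forall_notMem fun z hz => hz.1.1.not_gt ht
    rw [this, Measure.restrict_empty, lintegral_zero_measure]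
    exact zero_le
  have ha : (0 : ℝ) < 2 ^ k := by positivity
  refine le_trans ?_ ((geo4a_box hq ha (ω t)).le.trans (ENNReal.ofReal_le_ofReal (le_max_right _ _)))
  have hsub : An ω t k ⊆ Dom ω t := fun z hz => hz.1
  rw [← inter_eq_left.2 hsub, ← Measure.restrict_restrict (measurableSet_An ω t k),
    ← lintegral_indicator (measurableSet_An ω t k), lintegral_Dom ht]
  refine le_trans (setLIntegral_mono' (isOpen_lt continuous_const Complex.continuous_im).measurableSet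
    fun ζ hζ => ?_) (setLIntegral_le_lintegral _ _)
  by_cases hz : ft ω t ζ ∈ An ω t k
  swap
  · rw [indicator_of_notMem hz, mul_zero]
    exact zero_le
  obtain ⟨h0, h1, h2⟩ := geo_an hz
  have hY : 0 < ζ.im := hζ
  have hg : gt ω (ft ω t ζ) t = ζ := gt_ft ht hζ
  have hZ : Zc ω (ft ω t ζ) t = ζ - ω t := by rw [Zc, hg]
  have hU := h0.up_pos
  rw [hZ] at h1 h2
  have h3 := abs_le.1 (Complex.abs_re_le_norm (ζ - ω t))
  have h4 := Complex.im_le_norm (ζ - ω t)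
  simp only [Complex.sub_re, Complex.ofReal_re, Complex.sub_im, Complex.ofReal_im, sub_zero] at h3 h4
  rw [indicator_of_mem hz, indicator_of_mem (show ζ.re ∈ Icc _ _ from ⟨by linarith [h3.1], by linarith [h3.2]⟩),
    indicator_of_mem (show ζ.im ∈ Ioc _ _ from ⟨hY, by linarith⟩), Pi.one_apply, one_mul,
    ← ENNReal.ofReal_mul (sq_nonneg _)]
  refine ENNReal.ofReal_le_ofReal ?_
  rw [Up_ft ht hζ] at hU ⊢
  have hD : 0 < ‖deriv (ft ω t) ζ‖ := pos_of_mul_pos_of_pos_right' (by rwa [mul_comm] at hU) hY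
  rw [Sc, Yc, hZ, hg, Real.div_rpow hY.le (norm_nonneg _), Real.rpow_sub hY, Real.rpow_two]
  have h5 : ((2 : ℝ) ^ k) ^ q ≤ ‖ζ - ω t‖ ^ q := Real.rpow_le_rpow ha.le h1 (by linarith)
  have h6 : 0 < ((2 : ℝ) ^ k) ^ q := Real.rpow_pos_of_pos ha _
  have h7 : 0 ≤ ζ.im ^ q := Real.rpow_nonneg hY.le _
  calc ‖deriv (ft ω t) ζ‖ ^ 2 * (ζ.im ^ q / ‖ζ - ω t‖ ^ q / (ζ.im * ‖deriv (ft ω t) ζ‖) ^ 2)
      = ζ.im ^ q / ζ.im ^ 2 / ‖ζ - ω t‖ ^ q := by field_simp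
    _ ≤ _ := by gcongr

theorem geo4_real {c S A u R θ a g q K : ℝ} (hc : 0 ≤ c) (hc1 : c ≤ 1) (hS : 0 < S) (hA : 0 ≤ A) (hu : 0 < u)
    (hR : 0 < R) (hθ : 0 < θ) (hq : q * θ = a - g * (1 - θ)) (hK : A ≤ K) :
    c * (u / R) ^ (-(2 * θ)) * S ^ a * A / R ^ 2 ≤ (c * S ^ g * A / R ^ 2) ^ (1 - θ) * (K * (S ^ q / u ^ 2)) ^ θ := by
  have h1 : 0 ≤ S ^ g := Real.rpow_nonneg hS.le _
  have h2 : 0 ≤ S ^ q := Real.rpow_nonneg hS.le _
  have h3 : c * A ≤ K := (mul_le_of_le_one_left hA hc1).trans hK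
  refine le_trans (le_of_eq ?_) (mul_le_mul_of_nonneg_left (Real.rpow_le_rpow (x := c * A * (S ^ q / u ^ 2))
    (by positivity) (by gcongr) hθ.le) (Real.rpow_nonneg (by positivity) _))
  have e1 : (c * S ^ g * A / R ^ 2) ^ (1 - θ) = (c * A) ^ (1 - θ) * S ^ (g * (1 - θ)) / R ^ (2 * (1 - θ)) := by
    rw [show c * S ^ g * A / R ^ 2 = c * A * S ^ g / R ^ (2 : ℝ) by rw [Real.rpow_two]; ring,
      Real.div_rpow (by positivity) (by positivity), Real.mul_rpow (by positivity) h1, ← Real.rpow_mul hS.le,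
      ← Real.rpow_mul hR.le]
  have e2 : (c * A * (S ^ q / u ^ 2)) ^ θ = (c * A) ^ θ * S ^ (q * θ) / u ^ (2 * θ) := by
    rw [show c * A * (S ^ q / u ^ 2) = c * A * S ^ q / u ^ (2 : ℝ) by rw [Real.rpow_two]; ring,
      Real.div_rpow (by positivity) (by positivity), Real.mul_rpow (by positivity) h2, ← Real.rpow_mul hS.le,
      ← Real.rpow_mul hu.le]
  have e3 : (c * A) ^ (1 - θ) * (c * A) ^ θ = c * A := by
    rw [← Real.rpow_add' (by positivity) (by norm_num), sub_add_cancel, Real.rpow_one]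
  have e4 : S ^ (g * (1 - θ)) * S ^ (q * θ) = S ^ a := by
    rw [← Real.rpow_add hS, hq]
    congr 1
    ring
  have e5 : R ^ (2 * (1 - θ)) * R ^ (2 * θ) = R ^ 2 := by
    rw [← Real.rpow_add hR, ← Real.rpow_two]
    congr 1
    ring
  have e6 : (u / R) ^ (-(2 * θ)) = R ^ (2 * θ) / u ^ (2 * θ) := by
    rw [Real.rpow_neg (by positivity), Real.div_rpow hu.le hR.le, inv_div]
  have p1 : 0 < R ^ (2 * (1 - θ)) := Real.rpow_pos_of_pos hR _
  have p2 : 0 < R ^ (2 * θ) := Real.rpow_pos_of_pos hR _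
  have p3 : 0 < u ^ (2 * θ) := Real.rpow_pos_of_pos hu _
  rw [e1, e2, e6, ← e5, div_mul_div_comm, mul_mul_mul_comm, e3, e4]
  field_simp

/-- G4: Hölder (`ENNReal.lintegral_mul_norm_pow_le`) with exponents `1 - b/2`, `b/2`:
`P1/R² ≤ (P2/R²)^{1-b/2} (C H S^q/Υ²)^{b/2}`, `q = (a - g(1-b/2))/(b/2) > 1`, `H = β(w_k)(1+u_k²)^{-6}`, since on `B` we have
`β = 1 ≤ 4 β(w_k) qq(z,w_k)²`, so `a ≤ C H` by G2 -/
theorem geo4 (hκ : 0 < κ) (hκ8 : κ < 8) : ∃ C, 1 ≤ C ∧ ∀ p : Par, p.Ok → p.κ = κ → ∀ (ω : Path) (t : ℝ) (k : ℤ),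
    WW p.R ω t k (P1 p ω t) ≤ ENNReal.ofReal C * WW p.R ω t k (P2 p ω t) ^ (1 - bb κ / 2) *
      ENNReal.ofReal (bet p (wk ω t k) / (1 + uk p.R ω t k ^ 2) ^ 6) ^ (bb κ / 2) := by
  obtain ⟨b0, b1, b2, -⟩ := bb_mem hκ hκ8
  obtain ⟨θ, hθ⟩ : ∃ θ, θ = bb κ / 2 := ⟨_, rfl⟩
  have hθ0 : 0 < θ := by linarith
  have hθ1 : θ < 1 := by linarith
  obtain ⟨q, hq⟩ : ∃ q, q = (aa κ - gE κ * (1 - θ)) / θ := ⟨_, rfl⟩
  have hq1 : 1 < q := by
    rw [hq, lt_div_iff₀ hθ0, gE]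
    nlinarith
  have hq2 : q * θ = aa κ - gE κ * (1 - θ) := by rw [hq, div_mul_cancel₀ _ hθ0.ne']
  obtain ⟨C, hC, h2⟩ := geo2
  obtain ⟨C₄, hC₄, h4⟩ := geo4a hq1
  have hC8 : 1 ≤ C ^ 8 := one_le_pow₀ hC
  have hK : 1 ≤ 4 * C ^ 8 * C₄ := by nlinarith
  refine ⟨4 * C ^ 8 * C₄, hK, fun p hp hpκ ω t k => ?_⟩
  subst hpκ
  have hb := (bet_mem p (wk ω t k)).1
  obtain ⟨H, hH⟩ : ∃ H, H = bet p (wk ω t k) / (1 + uk p.R ω t k ^ 2) ^ 6 := ⟨_, rfl⟩
  have hH0 : 0 ≤ H := by rw [hH]; positivity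
  rw [← hH, ← hθ]
  have key : ∀ z ∈ An ω t k, ENNReal.ofReal (P1 p ω t z / p.R ^ 2) ≤ ENNReal.ofReal (P2 p ω t z / p.R ^ 2) ^ (1 - θ) *
      (ENNReal.ofReal (4 * C ^ 8 * H) * ENNReal.ofReal (Sc ω z t ^ q / Up ω z t ^ 2)) ^ θ := by
    intro z hz
    by_cases h0 : P1 p ω t z = 0
    · rw [h0, zero_div, ENNReal.ofReal_zero]
      exact zero_le
    have hzB : z ∈ ball p.x₀ p.r := by_contra fun hn => h0 (by simp [P1, ind, hn])
    have hal : Alive ω z t := hz.1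
    obtain ⟨g1, g2⟩ := h2 p.R ω t k z hp.R0 hz (P_supp hp (Or.inl h0)).2.2.le
    have hA : aF p.R ω z t ≤ 4 * C ^ 8 * H := by
      have q1 := one_le_qq p.R z (wk ω t k)
      have q2 := one_le_qq p.R z (wz ω z t)
      have b1 := bet_le p z (wk ω t k)
      rw [bet_eq_one hzB] at b1
      rw [aF, hH]
      generalize qq p.R z (wk ω t k) = a at *
      generalize qq p.R z (wz ω z t) = q at *
      have hu : 0 < 1 + uk p.R ω t k ^ 2 := by positivity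
      generalize 1 + uk p.R ω t k ^ 2 = u at *
      calc (q ^ 8)⁻¹ = 1 * u ^ 6 / (q ^ 8 * u ^ 6) := by field_simp
        _ ≤ 4 * bet p (wk ω t k) * a ^ 2 * u ^ 6 / (q ^ 8 * u ^ 6) := by gcongr
        _ ≤ 4 * bet p (wk ω t k) * (C * q) ^ 2 * (C * q) ^ 6 / (q ^ 8 * u ^ 6) := by gcongr
        _ = _ := by field_simp
    have c1 := cut_mem p.η (Yc ω z t)
    have c2 := psi_mem (Up ω z t / p.R)
    have hS := Real.rpow_nonneg hal.sc_pos.le q
    have h5 := geo4_real (mul_nonneg c1.1 c2.1) (mul_le_one₀ c1.2 c2.1 c2.2) hal.sc_pos (aF_mem p.R ω z t).1.le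
      hal.up_pos hp.R0 hθ0 hq2 hA
    have hP2 := (P_nonneg hp ω t z).2.1
    rw [← ENNReal.ofReal_mul (by positivity), ENNReal.ofReal_rpow_of_nonneg (by positivity) (by linarith),
      ENNReal.ofReal_rpow_of_nonneg (by positivity) hθ0.le, ← ENNReal.ofReal_mul (Real.rpow_nonneg (by positivity) _)]
    refine ENNReal.ofReal_le_ofReal ?_
    rw [P1, P2, bet_eq_one hzB, ind, indicator_of_mem hzB, one_mul, show bb p.κ = 2 * θ by linarith]
    exact h5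
  have m1 : Measurable fun z => ENNReal.ofReal (P2 p ω t z / p.R ^ 2) :=
    ((measurable_P p ω t).2.1.div_const _).ennreal_ofReal
  have m2 : Measurable fun z => ENNReal.ofReal (Sc ω z t ^ q / Up ω z t ^ 2) := by
    have a1 : Measurable fun z => Sc ω z t := measurable_Sc.comp (f := fun z : ℂ => (ω, z, t)) (by fun_prop)
    have a2 : Measurable fun z => Up ω z t := measurable_Up.comp (f := fun z : ℂ => (ω, z, t)) (by fun_prop)
    exact ((a1.pow_const q).div (a2.pow_const 2)).ennreal_ofReal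
  refine (setLIntegral_mono' (measurableSet_An ω t k) key).trans
    ((ENNReal.lintegral_mul_norm_pow_le m1.aemeasurable (m2.const_mul _).aemeasurable (by linarith) hθ0.le
      (sub_add_cancel 1 θ)).trans ?_)
  rw [mul_comm (ENNReal.ofReal (4 * C ^ 8 * C₄)), mul_assoc _ (ENNReal.ofReal (4 * C ^ 8 * C₄))]
  refine mul_le_mul_right ?_ _
  rw [lintegral_const_mul' _ _ ENNReal.ofReal_ne_top]
  calc (ENNReal.ofReal (4 * C ^ 8 * H) * ∫⁻ z in An ω t k, ENNReal.ofReal (Sc ω z t ^ q / Up ω z t ^ 2)) ^ θ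
      ≤ (ENNReal.ofReal (4 * C ^ 8 * C₄) * ENNReal.ofReal H) ^ θ := by
        refine ENNReal.rpow_le_rpow ((mul_le_mul_right (h4 ω t k) _).trans (le_of_eq ?_)) hθ0.le
        rw [← ENNReal.ofReal_mul (by positivity), ← ENNReal.ofReal_mul (by positivity)]
        congr 1
        ring
    _ ≤ _ := by
        rw [ENNReal.mul_rpow_of_nonneg _ _ hθ0.le]
        refine mul_le_mul_left ?_ _
        conv_rhs => rw [← ENNReal.rpow_one (ENNReal.ofReal _)]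
        exact ENNReal.rpow_le_rpow_of_exponent_le (ENNReal.one_le_ofReal.2 hK) hθ1.le

/-! ### Geo-c -/

theorem geo5_min {C δ u v : ℝ} (hC : 1 ≤ C) (hδ : 0 ≤ δ) (hδ1 : δ ≤ 1) (hu : 0 < u) (hv : 0 < v) (h1 : u ≤ C * v)
    (h2 : v ≤ C * u) : min (v ^ δ) (v ^ (-δ)) ≤ C * min (u ^ δ) (u ^ (-δ)) := by
  have hCδ : C ^ δ ≤ C := by simpa using Real.rpow_le_rpow_of_exponent_le hC hδ1
  have key : ∀ {a b : ℝ}, 0 < a → 0 < b → a ≤ C * b → a ^ δ ≤ C * b ^ δ := fun {a b} ha hb h => by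
    refine (Real.rpow_le_rpow ha.le h hδ).trans ?_
    rw [Real.mul_rpow (by linarith) hb.le]
    exact mul_le_mul_of_nonneg_right hCδ (Real.rpow_nonneg hb.le _)
  rw [mul_min_of_nonneg _ _ (by linarith)]
  refine min_le_min (key hv hu h2) ?_
  have p1 := Real.rpow_pos_of_pos hu δ
  have p2 := Real.rpow_pos_of_pos hv δ
  rw [Real.rpow_neg hu.le, Real.rpow_neg hv.le, ← div_eq_mul_inv, le_div_iff₀ p1, inv_mul_le_iff₀ p2, mul_comm]
  exact key hu hv h1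

/-- G5: on the ball about `w_k` of radius `Υ(w_k)/(8C²)` (`KoebeF.near`): `‖Z - 1.5 i 2^k‖ ≤ 2^k/4`, so the ball lies in the annulus,
`S ≥ 1/2`, `cut (η/8) Y = 1`, `u ≍ u_k` (`Th'_ge`), `β(w_k) ≤ 4 β(z) (1 + u_k²)²`; its area is `c R² u_k²` -/
theorem geo5 (hκ : 0 < κ) (hκ8 : κ < 8) : ∃ c, 0 < c ∧ ∀ p : Par, p.Ok → p.κ = κ → ∀ (ω : Path) (t : ℝ) (k : ℤ),
    0 ≤ t → p.η < (2 : ℝ) ^ (k + 1) →
    ENNReal.ofReal (c * (bet p (wk ω t k) * uk p.R ω t k ^ 2 *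
      min (uk p.R ω t k ^ dE κ) (uk p.R ω t k ^ (-dE κ)) / (1 + uk p.R ω t k ^ 2) ^ 2)) ≤
      WW p.R ω t k (P3 p ω t) := by
  obtain ⟨C, hC⟩ := exists_koebeF
  have hC2 := hC.two_le
  obtain ⟨d0, d1, -⟩ := dE_mem hκ hκ8
  refine ⟨dE κ / (4096 * C ^ 5), by positivity, fun p hp hpκ ω t k ht hη => ?_⟩
  subst hpκ
  have ha : (0 : ℝ) < 2 ^ k := by positivity
  rw [zpow_add_one₀ two_ne_zero] at hη
  obtain ⟨b1, b2, b3, b4⟩ : Alive ω (wk ω t k) t ∧ gt ω (wk ω t k) t = _ ∧ Zc ω (wk ω t k) t = _ ∧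
    Yc ω (wk ω t k) t = _ := wh_spec ω ht (show (0 : ℝ) < 3 / 2 * 2 ^ k by positivity)
  have hU := b1.up_pos
  have hR := hp.R0
  have hu := uk_pos hR ω ht k
  have hb := (bet_mem p (wk ω t k)).1
  have hm : 0 ≤ min (uk p.R ω t k ^ dE p.κ) (uk p.R ω t k ^ (-dE p.κ)) :=
    le_min (Real.rpow_nonneg hu.le _) (Real.rpow_nonneg hu.le _)
  have hr : Up ω (wk ω t k) t / (8 * C ^ 2) ≤ Up ω (wk ω t k) t / C := by
    gcongr
    nlinarith
  have key : ∀ z ∈ ball (wk ω t k) (Up ω (wk ω t k) t / (8 * C ^ 2)), z ∈ An ω t k ∧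
      bet p (wk ω t k) / (4 * (1 + uk p.R ω t k ^ 2) ^ 2) * (1 / 4) *
        (dE p.κ / (4 * C) * min (uk p.R ω t k ^ dE p.κ) (uk p.R ω t k ^ (-dE p.κ))) ≤ P3 p ω t z := by
    intro z hz
    obtain ⟨n1, -, n3, -, n5, n6, -⟩ := hC.near ω _ t b1 z (ball_subset_ball hr hz)
    rw [mem_ball_iff_norm] at hz
    have e1 : ‖gt ω z t - gt ω (wk ω t k) t‖ ≤ 2 ^ k / 4 := by
      rw [b4] at n3
      refine le_of_mul_le_mul_left (n3.trans ?_) hU
      calc C * (3 / 2 * 2 ^ k) * ‖z - wk ω t k‖ ≤ C * (3 / 2 * 2 ^ k) * (Up ω (wk ω t k) t / (8 * C ^ 2)) := by gcongr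
        _ = Up ω (wk ω t k) t * (2 ^ k * (3 / (16 * C))) := by field_simp; norm_num
        _ ≤ Up ω (wk ω t k) t * (2 ^ k * (1 / 4)) := by
            refine mul_le_mul_of_nonneg_left (mul_le_mul_of_nonneg_left ?_ ha.le) hU.le
            rw [div_le_div_iff₀ (by linarith) (by norm_num)]
            linarith
        _ = _ := by ring
    have e2 : 5 / 4 * 2 ^ k ≤ Yc ω z t := by
      have : Yc ω (wk ω t k) t - ‖gt ω z t - gt ω (wk ω t k) t‖ ≤ Yc ω z t := (kf_im _ _).1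
      linarith
    have e3 : ‖Zc ω z t‖ ≤ 7 / 4 * 2 ^ k := by
      have h1 : Zc ω z t = (gt ω z t - gt ω (wk ω t k) t) + Zc ω (wk ω t k) t := by simp [Zc]
      have h2 : ‖Zc ω (wk ω t k) t‖ = 3 / 2 * 2 ^ k := by
        rw [b3, norm_mul, Complex.norm_I, one_mul, Complex.norm_real, Real.norm_of_nonneg (by positivity)]
      rw [h1]
      linarith [norm_add_le (gt ω z t - gt ω (wk ω t k) t) (Zc ω (wk ω t k) t)]
    have e4 : Yc ω z t ≤ ‖Zc ω z t‖ := Yc_le_norm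
    refine ⟨⟨n1, by linarith, by rw [zpow_add_one₀ two_ne_zero]; linarith⟩, ?_⟩
    have e5 : 1 / 2 ≤ Sc ω z t := by
      rw [Sc, le_div_iff₀ (by linarith)]
      linarith
    have e6 : qq p.R (wk ω t k) z ≤ 1 + uk p.R ω t k ^ 2 := by
      rw [qq, uk, ← div_pow, norm_sub_rev]
      gcongr
      exact hz.le.trans (div_le_self hU.le (by nlinarith))
    have e7 : bet p (wk ω t k) / (4 * (1 + uk p.R ω t k ^ 2) ^ 2) ≤ bet p z := by
      rw [div_le_iff₀ (by positivity)]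
      have q1 := one_le_qq p.R (wk ω t k) z
      have := (bet_mem p z).1
      calc bet p (wk ω t k) ≤ 4 * bet p z * qq p.R (wk ω t k) z ^ 2 := bet_le p _ z
        _ ≤ 4 * bet p z * (1 + uk p.R ω t k ^ 2) ^ 2 := by gcongr
        _ = _ := by ring
    have hz0 : 0 < Up ω z t / p.R := div_pos n1.up_pos hR
    have e8 := geo5_min (by linarith : 1 ≤ C) d0.le d1 hz0 hu
      (by rw [uk, ← mul_div_assoc]; gcongr) (by rw [uk, ← mul_div_assoc]; gcongr)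
    have e9 : dE p.κ / (4 * C) * min (uk p.R ω t k ^ dE p.κ) (uk p.R ω t k ^ (-dE p.κ)) ≤
        Th' (dE p.κ) (Up ω z t / p.R) := by
      refine le_trans ?_ (Th'_ge d0.le hz0)
      refine (mul_le_mul_of_nonneg_left e8 (by positivity)).trans (le_of_eq ?_)
      field_simp
    rw [P3, cut_eq_one (by linarith [hp.η0]) (by linarith), mul_one]
    have := (bet_mem p z).1
    gcongr
    nlinarith
  refine le_trans ?_ (lintegral_mono_set fun z hz => (key z hz).1)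
  refine le_trans ?_ (setLIntegral_mono' measurableSet_ball fun z hz =>
    ENNReal.ofReal_le_ofReal (div_le_div_of_nonneg_right (key z hz).2 (sq_nonneg p.R)))
  rw [setLIntegral_const, Complex.volume_ball, ← ENNReal.ofReal_pow (by positivity)]
  refine le_trans ?_ (mul_le_mul_right (le_mul_of_one_le_right' (b := ((NNReal.pi : ℝ≥0) : ℝ≥0∞)) ?_) _)
  · rw [← ENNReal.ofReal_mul (by positivity)]
    refine ENNReal.ofReal_le_ofReal (le_of_eq ?_)
    have : Up ω (wk ω t k) t = uk p.R ω t k * p.R := by rw [uk, div_mul_cancel₀ _ hR.ne']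
    rw [this]
    field_simp
    norm_num
  · exact ENNReal.one_le_coe_iff.2 (by exact_mod_cast (show (1 : ℝ) ≤ Real.pi by linarith [Real.pi_gt_three]))

theorem WW_zero {p : Par} (hp : p.Ok) (ω : Path) (t : ℝ) {k : ℤ} (hk : (2 : ℝ) ^ (k + 1) ≤ p.η) :
    WW p.R ω t k (P1 p ω t) = 0 ∧ WW p.R ω t k (P2 p ω t) = 0 := by
  have key : ∀ z ∈ An ω t k, P1 p ω t z = 0 ∧ P2 p ω t z = 0 := fun z hz => by
    by_contra hn
    have h1 := (P_supp hp (not_and_or.1 hn)).2.1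
    have h2 : Yc ω z t ≤ ‖Zc ω z t‖ := Yc_le_norm
    linarith [hz.2.2]
  constructor
  · exact setLIntegral_eq_zero (measurableSet_An ω t k) fun z hz => by simp [(key z hz).1]
  · exact setLIntegral_eq_zero (measurableSet_An ω t k) fun z hz => by simp [(key z hz).2]

/-- decomposition of an integral over living points -/
theorem lintegral_An (ω : Path) (t : ℝ) {F : ℂ → ℝ≥0∞} (hF : ∀ z, F z ≠ 0 → Alive ω z t) :
    ∫⁻ z, F z = ∑' k : ℤ, ∫⁻ z in An ω t k, F z := by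
  rw [← lintegral_iUnion (measurableSet_An ω t), setLIntegral_eq_of_support_subset]
  · intro z hz
    have h1 := hF z hz
    obtain ⟨k, hk⟩ := exists_mem_Ico_zpow ((alive_iff.1 h1).trans_le Yc_le_norm) one_lt_two
    exact mem_iUnion.2 ⟨k, h1, hk.1, hk.2⟩
  · intro k l hkl
    refine Set.disjoint_left.2 fun z hk hl => hkl ?_
    have h1 := (zpow_lt_zpow_iff_right₀ (one_lt_two (α := ℝ))).1 (hk.2.1.trans_lt hl.2.2)
    have h2 := (zpow_lt_zpow_iff_right₀ (one_lt_two (α := ℝ))).1 (hl.2.1.trans_lt hk.2.2)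
    omega

end Crest.Agent.R162.E
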