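import Crest.Agent.R162.E.Pt

/-! # Row 162, block E: the potential is an admissible jet; the rate of mass production -/

set_option autoImplicit false

open scoped ENNReal NNReal Topology
open Set Filter MeasureTheory Metric

noncomputable section
namespace Crest.Agent.R162.E

variable {p : Par} {κ s₀ : ℝ}

/-! ### Ok-a -/

theorem JI_at (hp : p.Ok) (z : ℂ) {t : ℝ} (ht : 0 ≤ t) (x : ℝ) (ω : Path) : (JI p z).At t x ω := by
  obtain ⟨c1, c2, c3⟩ := contDiffOn_phi hp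
  have hP : ∀ (φ : ℝ → ℝ) (e c : ℝ), ContDiffOn ℝ 1 φ (Ioi 0) → (jP p.R p.η φ e c z).At t x ω :=
    fun φ e c hφ => at_cut_mul hp.η0 ht fun h =>
      (h.at_jfU hφ).mul (h.at_jSp.mul ((at_jA hp.R0 h).mul (Jet.at_const continuousAt_const)))
  exact (hP _ _ _ c1).add ((hP _ _ _ c2).add (at_cut_mul (by have := hp.η0; positivity) ht fun h =>
    (h.at_jfU c3).mul (Jet.at_const continuousAt_const)))

theorem oka_const {c B t x : ℝ} {ω : Path} (hc : 0 ≤ c) (h : c ≤ B) : (Jet.const fun _ => c).Bd t x ω B := by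
  have hB : 0 ≤ B := hc.trans h
  refine ⟨?_, ?_, ?_, ?_⟩ <;> simp [Jet.const, abs_of_nonneg hc, h, hB]

theorem oka_U {φ : ℝ → ℝ} {η B t x : ℝ} {ω : Path} {z : ℂ} (hη : 0 < η) (hB : 0 ≤ B) (hY : η ≤ Yc ω z t)
    (h : ∀ v, 0 < v → 0 ≤ φ v ∧ φ v ≤ B ∧ |v * deriv φ v| ≤ B) : (jfU φ z).Bd t x ω (B * (1 + 4 / η ^ 2)) := by
  have ha : Alive ω z t := alive_iff.2 (hη.trans_le hY)
  obtain ⟨h0, h1, h2⟩ := h _ ha.up_pos
  have hZ : η ≤ ‖Zc ω z t‖ := hY.trans Yc_le_norm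
  have hS := Sc_mem (ω := ω) (z := z) (t := t)
  have e : 0 ≤ 4 / η ^ 2 := by positivity
  refine ⟨?_, ?_, ?_, ?_⟩
  · show ‖φ (Up ω z t)‖ ≤ _
    rw [Real.norm_eq_abs, abs_of_nonneg h0]; nlinarith
  · show ‖deriv φ (Up ω z t) * (-4 * Up ω z t * Sc ω z t ^ 2 / ‖Zc ω z t‖ ^ 2)‖ ≤ _
    have : deriv φ (Up ω z t) * (-4 * Up ω z t * Sc ω z t ^ 2 / ‖Zc ω z t‖ ^ 2) =
        -((Up ω z t * deriv φ (Up ω z t)) * (4 * Sc ω z t ^ 2 / ‖Zc ω z t‖ ^ 2)) := by ring
    rw [this, norm_neg, Real.norm_eq_abs, abs_mul, abs_of_nonneg (a := 4 * Sc ω z t ^ 2 / ‖Zc ω z t‖ ^ 2) (by positivity)]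
    have a3 : Sc ω z t ^ 2 ≤ 1 := pow_le_one₀ hS.1 hS.2
    calc _ ≤ B * (4 * 1 / η ^ 2) := by gcongr
      _ ≤ _ := by rw [mul_one]; nlinarith
  · simp only [jfU, Jet.fv, Pi.zero_apply, norm_zero]; positivity
  · simp only [jfU, Jet.fv, Pi.zero_apply, norm_zero]; positivity

/-- `bd_cut_mul`, `Jet.Bd.mul`, `jSp_bd`, `jA_bd`, `phi_bd` (for `jfU φ`: `|s| ≤ 4 |Υ φ'(Υ)|/η²`), `ind ≤ bet` -/
theorem JI_bd (hp : p.Ok) (T : ℝ) : ∃ B, 0 ≤ B ∧ ∀ (z : ℂ) (t x : ℝ) (ω : Path), t ≤ T →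
    (JI p z).Bd t x ω (B * bet p z) := by
  obtain ⟨B, hB0, hB⟩ := phi_bd hp
  have hη := hp.η0
  have hR := hp.R0
  have hK := hp.K0
  have hK₃ : 0 < p.K₃ := by linarith [hp.K₃1]
  obtain ⟨C, hC0, hC⟩ := bd_cut_mul hη
  obtain ⟨C', hC'0, hC'⟩ := bd_cut_mul (η := p.η / 8) (by positivity)
  obtain ⟨A, hA0, hA⟩ := jA_bd hR hη T
  have ha : 0 ≤ aa p.κ := by linarith [bb_mem hp.κ0 hp.κ8]
  have hg : 0 ≤ gE p.κ := (gE_mem hp.κ0 hp.κ8).1.le
  set S1 := 1 + 10 * (aa p.κ + aa p.κ ^ 2) * (1 + 1 / p.η ^ 2)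
  set S2 := 1 + 10 * (gE p.κ + gE p.κ ^ 2) * (1 + 1 / p.η ^ 2)
  set U1 := B * (1 + 4 / p.η ^ 2)
  set U3 := B * (1 + 4 / (p.η / 8) ^ 2)
  refine ⟨C * (4 * U1 * (4 * S1 * (4 * A * (p.K / p.R ^ 2)))) + (C * (4 * U1 * (4 * S2 * (4 * A * (p.K / p.R ^ 2)))) +
    C' * (4 * U3 * (p.K₃ / p.R ^ 2))), by positivity, fun z t x ω ht => ?_⟩
  obtain ⟨hβ0, -⟩ := bet_mem p z
  obtain ⟨hi0, hi1⟩ := ind_mem p z
  have h1 : (J1 p z).Bd t x ω (C * (4 * U1 * (4 * S1 * (4 * A * (p.K * bet p z / p.R ^ 2))))) :=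
    hC z t x ω _ _ (by positivity) fun hY =>
      (oka_U hη hB0 hY fun v hv => (hB v hv).1).mul ((jSp_bd ha hη hY).mul ((hA z t x ω ht hY).mul
        (oka_const (by positivity) (by gcongr))))
  have h2 : (J2 p z).Bd t x ω (C * (4 * U1 * (4 * S2 * (4 * A * (p.K * bet p z / p.R ^ 2))))) :=
    hC z t x ω _ _ (by positivity) fun hY =>
      (oka_U hη hB0 hY fun v hv => (hB v hv).2.1).mul ((jSp_bd hg hη hY).mul ((hA z t x ω ht hY).mul
        (oka_const (by positivity) le_rfl)))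
  have h3 : (J3 p z).Bd t x ω (C' * (4 * U3 * (p.K₃ * bet p z / p.R ^ 2))) :=
    hC' z t x ω _ _ (by positivity) fun hY =>
      (oka_U (by positivity) hB0 hY fun v hv => (hB v hv).2.2).mul (oka_const (by positivity) le_rfl)
  exact (h1.add (h2.add h3)).mono (le_of_eq (by ring))

theorem mz_JI (p : Par) : Mz (JI p) := by
  have hc : ∀ η : ℝ, Measurable (cut η) := fun η => (contDiff_cut η).continuous.measurable
  have hψ : Measurable psi := contDiff_psi.continuous.measurable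
  have hst : Measurable Real.smoothTransition := Real.smoothTransition.continuous.measurable
  have h1 : Measurable (phi1 p) := by unfold phi1; fun_prop
  have h2 : Measurable (phi2 p) := by unfold phi2; fun_prop
  have h3 : Measurable (phi3 p) := by unfold phi3 Th; fun_prop
  have hi := measurable_ind p
  have hb := (continuous_bet p).measurable
  exact ((mz_jfY (hc _)).mul ((mz_jfU h1).mul ((mz_jSp _).mul ((mz_jA _).mul (mz_const (by fun_prop)))))).add
    (((mz_jfY (hc _)).mul ((mz_jfU h2).mul ((mz_jSp _).mul ((mz_jA _).mul (mz_const (by fun_prop)))))).add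
      ((mz_jfY (hc _)).mul ((mz_jfU h3).mul (mz_const (by fun_prop)))))

theorem ad_JI (p : Par) (z : ℂ) : (JI p z).Ad := by
  exact ((ad_jfY _).mul ((ad_jfU _).mul (ad_jSp.mul (ad_jA.mul (Jet.ad_const _))))).add
    (((ad_jfY _).mul ((ad_jfU _).mul (ad_jSp.mul (ad_jA.mul (Jet.ad_const _))))).add
      ((ad_jfY _).mul ((ad_jfU _).mul (Jet.ad_const _))))

/-! ### Ok-b -/

theorem ad_Phi (p : Par) : (Phi p).Ad := by
  intro t x ω ω' h
  simp only [Phi, Jet.int, fun z => (ad_JI p z t x ω ω' h).1, fun z => (ad_JI p z t x ω ω' h).2.1,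
    fun z => (ad_JI p z t x ω ω' h).2.2.1, fun z => (ad_JI p z t x ω ω' h).2.2.2, and_self]

theorem Phi_at (hp : p.Ok) {t : ℝ} (ht : 0 ≤ t) (x : ℝ) (ω : Path) : (Phi p).At t x ω := by
  obtain ⟨B, -, hB⟩ := JI_bd hp (t + 1)
  refine Jet.at_int (T := t + 1) (b := fun z => B * bet p z) ⟨ht, by linarith⟩ ((integrable_bet hp).const_mul B)
    (fun z r hr y ω' => ⟨JI_at hp z hr.1 y ω', hB z r y ω' hr.2.le⟩) fun r _ y ω' => ?_
  obtain ⟨m1, m2, m3, m4⟩ := mz_JI p r y ω'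
  exact ⟨m1.aestronglyMeasurable, m2.aestronglyMeasurable, m3.aestronglyMeasurable, m4.aestronglyMeasurable⟩

theorem Phi_bd (hp : p.Ok) (T : ℝ) : ∃ B, 0 ≤ B ∧ ∀ (t x : ℝ) (ω : Path), t ≤ T → (Phi p).Bd t x ω B := by
  obtain ⟨B, hB0, hB⟩ := JI_bd hp T
  have hi := (integrable_bet hp).const_mul B
  refine ⟨∫ z, B * bet p z, integral_nonneg fun z => mul_nonneg hB0 (bet_mem p z).1.le, fun t x ω ht => ?_⟩
  exact ⟨norm_integral_le_of_norm_le hi (Eventually.of_forall fun z => (hB z t x ω ht).1),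
    norm_integral_le_of_norm_le hi (Eventually.of_forall fun z => (hB z t x ω ht).2.1),
    norm_integral_le_of_norm_le hi (Eventually.of_forall fun z => (hB z t x ω ht).2.2.1),
    norm_integral_le_of_norm_le hi (Eventually.of_forall fun z => (hB z t x ω ht).2.2.2)⟩

theorem Phi_val_nonneg (hp : p.Ok) (t : ℝ) (ω : Path) : 0 ≤ (Phi p).val t ω := by
  exact integral_nonneg fun z => (JI_val hp ω z t).1

theorem Phi_val_le (hp : p.Ok) {t : ℝ} {ω : Path} (h : ∀ z ∈ ball p.x₀ p.r, 2 * p.R ≤ Up ω z t) :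
    (Phi p).val t ω ≤ 200 * p.K₃ * (1 + (p.r / p.R) ^ 2) := by
  have hR := hp.R0
  have hK₃ : 0 < p.K₃ := by linarith [hp.K₃1]
  have hi : Integrable fun z => bet p z / p.R ^ 2 := (integrable_bet hp).div_const _
  have h0 : ∀ z, 0 ≤ bet p z / p.R ^ 2 := fun z => by have := (bet_mem p z).1; positivity
  have h1 : ∫ z, bet p z / p.R ^ 2 ≤ 100 * (1 + (p.r / p.R) ^ 2) := by
    rw [← ENNReal.ofReal_le_ofReal_iff (by positivity), ofReal_integral_eq_lintegral_ofReal hi (Eventually.of_forall h0)]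
    exact lintegral_bet hp
  calc (Phi p).val t ω = ∫ z, (JI p z).val t ω := rfl
    _ ≤ ∫ z, 2 * p.K₃ * (bet p z / p.R ^ 2) :=
        integral_mono_of_nonneg (Eventually.of_forall fun z => (JI_val hp ω z t).1) (hi.const_mul _)
          (Eventually.of_forall fun z => (JI_val hp ω z t).2 (h z))
    _ = 2 * p.K₃ * ∫ z, bet p z / p.R ^ 2 := integral_const_mul _ _
    _ ≤ 2 * p.K₃ * (100 * (1 + (p.r / p.R) ^ 2)) := by gcongr
    _ = _ := by ring

theorem Phi_gen (hp : p.Ok) (t : ℝ) (ω : Path) : Integrable (fun z => (JI p z).gen κ t ω) ∧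
    Integrable (fun z => (JI p z).x t (ω t) ω) ∧ (Phi p).gen κ t ω = ∫ z, (JI p z).gen κ t ω := by
  obtain ⟨B, -, hB⟩ := JI_bd hp t
  have hi := (integrable_bet hp).const_mul B
  obtain ⟨-, m2, m3, m4⟩ := mz_JI p t (ω t) ω
  have i2 : Integrable fun z => (JI p z).s t (ω t) ω :=
    hi.mono' m2.aestronglyMeasurable (Eventually.of_forall fun z => (hB z t _ ω le_rfl).2.1)
  have i3 : Integrable fun z => (JI p z).x t (ω t) ω :=
    hi.mono' m3.aestronglyMeasurable (Eventually.of_forall fun z => (hB z t _ ω le_rfl).2.2.1)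
  have i4 : Integrable fun z => (JI p z).xx t (ω t) ω :=
    hi.mono' m4.aestronglyMeasurable (Eventually.of_forall fun z => (hB z t _ ω le_rfl).2.2.2)
  refine ⟨i2.add (i4.const_mul (κ / 2)), i3, ?_⟩
  simp only [Jet.gen, smul_eq_mul]
  rw [integral_add i2 (i4.const_mul _), integral_const_mul]
  rfl

/-! ### Ok-c -/

/-- `cut η Y · dens ≤ C y^{-b}/η²` -/
theorem cut_dens_bd (hp : p.Ok) (hs₀ : 0 < s₀) : ∃ B, 0 ≤ B ∧ ∀ (ω : Path) (z : ℂ) (t : ℝ),
    0 ≤ cut p.η (Yc ω z t) * dens p.κ s₀ p.y ω z t ∧ cut p.η (Yc ω z t) * dens p.κ s₀ p.y ω z t ≤ B := by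
  obtain ⟨C, hC0, hC⟩ := deriv_st
  have hy := hp.y0
  have hη := hp.η0
  obtain ⟨hb0, -, hba, -⟩ := bb_mem hp.κ0 hp.κ8
  refine ⟨4 * C * p.y ^ (-bb p.κ) / p.η ^ 2, by positivity, fun ω z t => ?_⟩
  have hc := cut_mem p.η (Yc ω z t)
  refine ⟨mul_nonneg hc.1 dens_nonneg, ?_⟩
  rcases le_or_gt (Yc ω z t) p.η with h | h
  · rw [(cut_eq_zero hη h).1, zero_mul]; positivity
  by_cases hd : dens p.κ s₀ p.y ω z t = 0
  · rw [hd, mul_zero]; positivity
  obtain ⟨ha, hU, -, -⟩ := dens_supp hp.κ8 hy hs₀ hd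
  have hZ : p.η ≤ ‖Zc ω z t‖ := h.le.trans Yc_le_norm
  have hS := Sc_mem (ω := ω) (z := z) (t := t)
  have g1 : Gr p.κ ω z t ≤ p.y ^ (-bb p.κ) := by
    unfold Gr Vg
    calc _ ≤ p.y ^ (-bb p.κ) * 1 :=
          mul_le_mul (Real.rpow_le_rpow_of_nonpos hy hU.le (by linarith))
            (Real.rpow_le_one hS.1 hS.2 (by linarith)) (Real.rpow_nonneg hS.1 _) (by positivity)
      _ = _ := mul_one _
  have g0 : 0 ≤ Gr p.κ ω z t := mul_nonneg (Real.rpow_nonneg Up_nonneg _) (Real.rpow_nonneg hS.1 _)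
  have a3 : Sc ω z t ^ 2 ≤ 1 := pow_le_one₀ hS.1 hS.2
  calc _ ≤ 1 * dens p.κ s₀ p.y ω z t := mul_le_mul_of_nonneg_right hc.2 dens_nonneg
    _ ≤ 4 * C * p.y ^ (-bb p.κ) * 1 * 1 / p.η ^ 2 := by
        rw [one_mul]; unfold dens
        gcongr
        · exact Real.smoothTransition.nonneg _
        · exact (hC _).2
        · exact Real.smoothTransition.le_one _
    _ = _ := by ring

theorem okc_meas (κ s₀ y η : ℝ) (ω : Path) :
    Measurable fun q : ℂ × ℝ => cut η (Yc ω q.1 q.2) * dens κ s₀ y ω q.1 q.2 := by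
  have h1 : Measurable fun q : ℂ × ℝ => Yc ω q.1 q.2 :=
    Complex.measurable_im.comp (measurable_gt.comp (f := fun q : ℂ × ℝ => (ω, q.1, q.2)) (by fun_prop))
  exact ((contDiff_cut η).continuous.measurable.comp h1).mul
    (measurable_dens.comp (f := fun q : ℂ × ℝ => (y, ω, q.1, q.2)) (by fun_prop))

theorem rate_bd (hp : p.Ok) (hs₀ : 0 < s₀) : ∃ B, ∀ (t : ℝ) (ω : Path), 0 ≤ rate p s₀ t ω ∧ rate p s₀ t ω ≤ B := by
  obtain ⟨B, -, hB⟩ := cut_dens_bd hp hs₀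
  refine ⟨B * (volume : Measure ℂ).real (ball p.x₀ p.r), fun t ω => ⟨integral_nonneg fun z => (hB ω z t).1, ?_⟩⟩
  refine (le_abs_self _).trans ?_
  rw [← Real.norm_eq_abs]
  unfold rate
  refine norm_setIntegral_le_of_norm_le_const measure_ball_lt_top fun z _ => ?_
  rw [Real.norm_eq_abs, abs_of_nonneg (hB ω z t).1]; exact (hB ω z t).2

theorem rate_eq (hp : p.Ok) (hs₀ : 0 < s₀) (t : ℝ) (ω : Path) :
    Integrable (fun z => ind p z * (cut p.η (Yc ω z t) * dens p.κ s₀ p.y ω z t)) ∧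
      rate p s₀ t ω = ∫ z, ind p z * (cut p.η (Yc ω z t) * dens p.κ s₀ p.y ω z t) := by
  obtain ⟨B, -, hB⟩ := cut_dens_bd hp hs₀
  have e : (fun z => ind p z * (cut p.η (Yc ω z t) * dens p.κ s₀ p.y ω z t)) =
      (ball p.x₀ p.r).indicator fun z => cut p.η (Yc ω z t) * dens p.κ s₀ p.y ω z t := by
    funext z; by_cases hz : z ∈ ball p.x₀ p.r <;> simp [ind, hz]
  rw [e, integral_indicator measurableSet_ball, integrable_indicator_iff measurableSet_ball]
  refine ⟨Measure.integrableOn_of_bounded (M := B) measure_ball_lt_top.ne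
    ((okc_meas _ _ _ _ ω).comp (f := fun z : ℂ => (z, t)) (by fun_prop)).aestronglyMeasurable
    (Eventually.of_forall fun z => ?_), rfl⟩
  rw [Real.norm_eq_abs, abs_of_nonneg (hB ω z t).1]; exact (hB ω z t).2

/-- dominated convergence; for fixed `z` the integrand is continuous at living points and vanishes near dead points -/
theorem rate_cont (hp : p.Ok) (hs₀ : 0 < s₀) :
    ContinuousOn (fun q : ℝ × Path => rate p s₀ q.1 q.2) (Ici 0 ×ˢ univ) := by
  obtain ⟨B, -, hB⟩ := cut_dens_bd hp hs₀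
  refine continuousOn_of_dominated (bound := fun _ => B) (fun q _ => ?_) (fun q _ => Eventually.of_forall fun z => ?_)
    (integrableOn_const measure_ball_lt_top.ne) (Eventually.of_forall fun z q hq => ?_)
  · exact ((okc_meas _ _ _ _ q.2).comp (f := fun z : ℂ => (z, q.1)) (by fun_prop)).aestronglyMeasurable
  · rw [Real.norm_eq_abs, abs_of_nonneg (hB _ z _).1]; exact (hB _ z _).2
  have hmap : MapsTo (fun q : ℝ × Path => (q.2, z, q.1)) (Ici 0 ×ˢ univ) (univ ×ˢ univ ×ˢ Ici 0) :=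
    fun q hq => ⟨trivial, trivial, hq.1⟩
  have hc0 : ContinuousWithinAt (fun q : ℝ × Path => (q.2, z, q.1)) (Ici 0 ×ˢ univ) q := by fun_prop
  have hY : ContinuousWithinAt (fun q : ℝ × Path => Yc q.2 z q.1) (Ici 0 ×ˢ univ) q :=
    (continuousOn_Yc _ (hmap hq)).comp (f := fun q : ℝ × Path => (q.2, z, q.1)) hc0 hmap
  by_cases ha : Alive q.2 z q.1
  · have hg : ContinuousWithinAt (fun q : ℝ × Path => gt q.2 z q.1) (Ici 0 ×ˢ univ) q :=
      ha.cont_gt.comp (f := fun q : ℝ × Path => (q.2, z, q.1)) hc0 hmap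
    have hU : ContinuousWithinAt (fun q : ℝ × Path => Up q.2 z q.1) (Ici 0 ×ˢ univ) q :=
      ha.cont_Up.comp (f := fun q : ℝ × Path => (q.2, z, q.1)) hc0 hmap
    have hω : ContinuousWithinAt (fun q : ℝ × Path => (q.2 q.1 : ℂ)) (Ici 0 ×ˢ univ) q := by fun_prop
    have hZ : ContinuousWithinAt (fun q : ℝ × Path => ‖Zc q.2 z q.1‖) (Ici 0 ×ˢ univ) q := (hg.sub hω).norm
    have hZ0 : ‖Zc q.2 z q.1‖ ≠ 0 := ((alive_iff.1 ha).trans_le Yc_le_norm).ne'
    have hS : ContinuousWithinAt (fun q : ℝ × Path => Sc q.2 z q.1) (Ici 0 ×ˢ univ) q := hY.div hZ hZ0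
    have hst : Continuous (deriv Real.smoothTransition) :=
      (Real.smoothTransition.contDiff (n := 1)).continuous_deriv le_rfl
    have hU0 := ha.up_pos
    have hy := hp.y0
    refine ((contDiff_cut _).continuous.continuousAt.comp_continuousWithinAt hY).mul ?_
    unfold dens Gr Vg
    refine ((((continuousWithinAt_const.mul (hst.continuousAt.comp_continuousWithinAt
      ((hU.div_const _).log (by positivity)))).mul ((hU.rpow_const (Or.inl hU0.ne')).mul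
      (hS.rpow_const (Or.inl ha.sc_pos.ne')))).mul (hS.pow 2)).mul
      (Real.smoothTransition.continuous.continuousAt.comp_continuousWithinAt
        ((hS.div_const _).sub continuousWithinAt_const))).div (hZ.pow 2) (pow_ne_zero _ hZ0)
  · have h0 : Yc q.2 z q.1 < p.η := by rw [(dead ha).2.1]; exact hp.η0
    have : ∀ᶠ q' in 𝓝[Ici 0 ×ˢ univ] q, Yc q'.2 z q'.1 < p.η := hY.eventually (gt_mem_nhds h0)
    refine (continuousWithinAt_const (b := (0 : ℝ))).congr_of_eventuallyEq (this.mono fun q' h => ?_) ?_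
    · simp only [(cut_eq_zero hp.η0 h.le).1, zero_mul]
    · simp only [(cut_eq_zero hp.η0 h0.le).1, zero_mul]

theorem rate_agr {t : ℝ} {ω ω' : Path} (h : Agr t ω ω') : rate p s₀ t ω' = rate p s₀ t ω := by
  simp only [rate, Yc, h.gt, h.dens]

/-- Tonelli -/
theorem rate_integral (hp : p.Ok) (hs₀ : 0 < s₀) {s T : ℝ} (hsT : s ≤ T) (ω : Path) :
    ENNReal.ofReal (∫ t in s..T, rate p s₀ t ω) =
      ∫⁻ z in ball p.x₀ p.r, ∫⁻ t in Ioc s T, ENNReal.ofReal (cut p.η (Yc ω z t) * dens p.κ s₀ p.y ω z t) := by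
  obtain ⟨B, -, hB⟩ := cut_dens_bd hp hs₀
  obtain ⟨B', hB'⟩ := rate_bd hp hs₀
  have hm := okc_meas p.κ s₀ p.y p.η ω
  have hr : StronglyMeasurable fun t => rate p s₀ t ω :=
    StronglyMeasurable.integral_prod_left' (μ := volume.restrict (ball p.x₀ p.r)) hm.stronglyMeasurable
  have hsw := lintegral_lintegral_swap (μ := volume.restrict (ball p.x₀ p.r)) (ν := volume.restrict (Ioc s T))
    (f := fun z t => ENNReal.ofReal (cut p.η (Yc ω z t) * dens p.κ s₀ p.y ω z t)) hm.ennreal_ofReal.aemeasurable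
  rw [intervalIntegral.integral_of_le hsT, ofReal_integral_eq_lintegral_ofReal _
    (Eventually.of_forall fun t => (hB' t ω).1), hsw]
  · refine lintegral_congr fun t => ofReal_integral_eq_lintegral_ofReal ?_ (Eventually.of_forall fun z => (hB ω z t).1)
    refine Measure.integrableOn_of_bounded (M := B) measure_ball_lt_top.ne
      (hm.comp (f := fun z : ℂ => (z, t)) (by fun_prop)).aestronglyMeasurable (Eventually.of_forall fun z => ?_)
    rw [Real.norm_eq_abs, abs_of_nonneg (hB ω z t).1]; exact (hB ω z t).2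
  · refine Measure.integrableOn_of_bounded (M := B') measure_Ioc_lt_top.ne hr.aestronglyMeasurable
      (Eventually.of_forall fun t => ?_)
    rw [Real.norm_eq_abs, abs_of_nonneg (hB' t ω).1]; exact (hB' t ω).2

/-- monotone convergence twice: `cut (1/(n+1)) Y ↑ 1` where `dens ≠ 0` -/
theorem iSup_cut_nu (hκ8 : κ < 8) (hs₀ : 0 < s₀) {y : ℝ} (hy : 0 < y) (ω : Path) (A : Set ℂ) (I : Set ℝ) :
    (Monotone fun n : ℕ =>
      ∫⁻ z in A, ∫⁻ t in I, ENNReal.ofReal (cut (1 / ((n : ℝ) + 1)) (Yc ω z t) * dens κ s₀ y ω z t)) ∧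
    ⨆ n : ℕ, ∫⁻ z in A, ∫⁻ t in I, ENNReal.ofReal (cut (1 / ((n : ℝ) + 1)) (Yc ω z t) * dens κ s₀ y ω z t) =
      nu κ s₀ y ω A I := by
  have hmono : ∀ z t, Monotone fun n : ℕ => ENNReal.ofReal (cut (1 / ((n : ℝ) + 1)) (Yc ω z t) * dens κ s₀ y ω z t) :=
    fun z t n m h => ENNReal.ofReal_le_ofReal (mul_le_mul_of_nonneg_right
      (cut_anti (by positivity) (Nat.one_div_le_one_div h) Yc_nonneg) dens_nonneg)
  have hm := fun n : ℕ => (okc_meas κ s₀ y (1 / ((n : ℝ) + 1)) ω).ennreal_ofReal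
  refine ⟨fun n m h => lintegral_mono fun z => lintegral_mono fun t => hmono z t h, ?_⟩
  rw [← lintegral_iSup (fun n => (hm n).lintegral_prod_right') fun n m h z => lintegral_mono fun t => hmono z t h]
  refine lintegral_congr fun z => ?_
  have hm2 : ∀ n : ℕ, Measurable fun t : ℝ =>
      ENNReal.ofReal (cut (1 / ((n : ℝ) + 1)) (Yc ω z t) * dens κ s₀ y ω z t) :=
    fun n => (hm n).comp (f := fun t : ℝ => (z, t)) (by fun_prop)
  rw [← lintegral_iSup hm2 fun n m h t => hmono z t h]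
  refine lintegral_congr fun t => le_antisymm (iSup_le fun n => ENNReal.ofReal_le_ofReal
    (mul_le_of_le_one_left dens_nonneg (cut_mem _ _).2)) ?_
  by_cases hd : dens κ s₀ y ω z t = 0
  · simp [hd]
  have hY := alive_iff.1 (dens_supp hκ8 hy hs₀ hd).1
  obtain ⟨n, hn⟩ := exists_nat_one_div_lt (half_pos hY)
  refine le_iSup_of_le n (le_of_eq ?_)
  rw [cut_eq_one (by positivity) (by linarith), one_mul]

end Crest.Agent.R162.E
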