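import Crest.Agent.R162.E.A

/-! # Row 162, block E: pointwise drift inequalities -/

set_option autoImplicit false

open scoped ENNReal NNReal Topology
open Set Filter MeasureTheory Metric

noncomputable section
namespace Crest.Agent.R162.E

variable {κ : ℝ}

/-! ### Pt-a -/

theorem jP_val (R η : ℝ) (φ : ℝ → ℝ) (e c : ℝ) (ω : Path) (z : ℂ) (t : ℝ) : (jP R η φ e c z).val t ω =
    c * cut η (Yc ω z t) * φ (Up ω z t) * Sc ω z t ^ e * aF R ω z t := by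
  simp only [jP, Jet.val_mul, jSp_val, jA_val]
  show cut η (Yc ω z t) * (φ (Up ω z t) * (Sc ω z t ^ e * (aF R ω z t * c))) = _
  ring

/-- product rule (`Jet.gen_mul`, `Jet.gen_fv`, `Alive.jSp_gen`, `jSp_x_le`, `jA_diag`); the term with `deriv (cut η)` is `≤ 0` -/
theorem jP_diag : ∃ C, 1 ≤ C ∧ ∀ (κ R η : ℝ) (φ : ℝ → ℝ) (e c : ℝ) (ω : Path) (z : ℂ) (t : ℝ), 0 < κ → κ < 8 →
    0 < R → 0 < η → 0 ≤ e → 0 ≤ c → 0 ≤ φ (Up ω z t) → Alive ω z t →
    (jP R η φ e c z).gen κ t ω ≤ c * cut η (Yc ω z t) * Sc ω z t ^ e * aF R ω z t *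
      (-4 * Sc ω z t ^ 2 * (Up ω z t * deriv φ (Up ω z t)) +
        φ (Up ω z t) * (-(κ / 2) * e * (aa κ - e) * (1 - Sc ω z t ^ 2) - κ / 2 * e * Sc ω z t ^ 2) +
        C * (1 + e) * (us R ω z t + us R ω z t ^ 2) * φ (Up ω z t)) / ‖Zc ω z t‖ ^ 2 ∧
    |(jP R η φ e c z).x t (ω t) ω| ≤ C * (1 + e) * (1 + us R ω z t) *
      (c * cut η (Yc ω z t) * φ (Up ω z t) * Sc ω z t ^ e * aF R ω z t) / ‖Zc ω z t‖ := by
  obtain ⟨C, hC, hA⟩ := jA_diag
  refine ⟨8 * C, by linarith, fun κ R η φ e c ω z t hκ hκ8 hR hη he hc hφ h => ?_⟩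
  obtain ⟨a1, a2⟩ := hA κ R ω z t hκ hκ8 hR h
  have s1 := jSp_x_le (p := e) (z := z) (t := t) (ω := ω)
  rw [abs_of_nonneg he] at s1
  have s2 := h.jSp_gen (p := e) hκ
  have hZ : 0 < ‖Zc ω z t‖ := (alive_iff.1 h).trans_le Yc_le_norm
  have hχ := (cut_mem η (Yc ω z t)).1
  have hχ' := deriv_cut_nonneg hη (Yc ω z t)
  have hS : 0 ≤ Sc ω z t ^ e := Real.rpow_nonneg Sc_mem.1 _
  have ha := (aF_mem R ω z t).1.le
  have hu := us_nonneg hR ω z t
  have hY : 0 ≤ Yc ω z t := Yc_nonneg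
  have e1 : (jP R η φ e c z).gen κ t ω =
      deriv (cut η) (Yc ω z t) * (-2 * Yc ω z t / ‖Zc ω z t‖ ^ 2) *
        (φ (Up ω z t) * (Sc ω z t ^ e * (aF R ω z t * c))) +
      cut η (Yc ω z t) * (deriv φ (Up ω z t) * (-4 * Up ω z t * Sc ω z t ^ 2 / ‖Zc ω z t‖ ^ 2) *
        (Sc ω z t ^ e * (aF R ω z t * c)) + φ (Up ω z t) * ((jSp e z).gen κ t ω * (aF R ω z t * c) +
          Sc ω z t ^ e * ((jA R z).gen κ t ω * c) + κ * (jSp e z).x t (ω t) ω * ((jA R z).x t (ω t) ω * c))) := by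
    simp only [jP, Jet.gen_mul, Jet.val_mul, jSp_val, jA_val, jfY, jfU, Jet.gen_fv, Jet.gen_const]
    simp [Jet.val, Jet.fv, Jet.const, Jet.mul]
  have e2 : (jP R η φ e c z).x t (ω t) ω = cut η (Yc ω z t) * (φ (Up ω z t) *
      ((jSp e z).x t (ω t) ω * (aF R ω z t * c) + Sc ω z t ^ e * ((jA R z).x t (ω t) ω * c))) := by
    rw [← jA_val, ← jSp_val]
    simp [jP, jfY, jfU, Jet.val, Jet.fv, Jet.const, Jet.mul]
  set ρ := ‖Zc ω z t‖
  set χ := cut η (Yc ω z t)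
  set S := Sc ω z t ^ e
  set a := aF R ω z t
  set u := us R ω z t
  set f := φ (Up ω z t)
  set sx := (jSp e z).x t (ω t) ω
  set ax := (jA R z).x t (ω t) ω
  set ag := (jA R z).gen κ t ω
  constructor
  · have b0 : deriv (cut η) (Yc ω z t) * (-2 * Yc ω z t / ρ ^ 2) * (f * (S * (a * c))) ≤ 0 := by
      have : 0 ≤ deriv (cut η) (Yc ω z t) * (2 * Yc ω z t / ρ ^ 2) * (f * (S * (a * c))) := by positivity
      linarith [show deriv (cut η) (Yc ω z t) * (-2 * Yc ω z t / ρ ^ 2) * (f * (S * (a * c))) =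
        -(deriv (cut η) (Yc ω z t) * (2 * Yc ω z t / ρ ^ 2) * (f * (S * (a * c)))) by ring]
    have b1 : S * (ag * c) ≤ S * (C * (u + u ^ 2) * a / ρ ^ 2 * c) := by
      gcongr; exact (le_abs_self _).trans a2
    have b2 : κ * sx * (ax * c) ≤ 8 * ((e * S / ρ) * (C * (u + u ^ 2) * a / ρ)) * c := by
      have : sx * ax ≤ (e * S / ρ) * (C * (u + u ^ 2) * a / ρ) := by
        calc sx * ax ≤ |sx| * |ax| := by rw [← abs_mul]; exact le_abs_self _
          _ ≤ (e * S / ρ) * (C * u * a / ρ) := by gcongr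
          _ ≤ _ := by gcongr; nlinarith
      calc κ * sx * (ax * c) = κ * (sx * ax) * c := by ring
        _ ≤ κ * ((e * S / ρ) * (C * (u + u ^ 2) * a / ρ)) * c := by gcongr
        _ ≤ _ := by gcongr
    have b3 : S * (C * (u + u ^ 2) * a / ρ ^ 2 * c) + 8 * ((e * S / ρ) * (C * (u + u ^ 2) * a / ρ)) * c ≤
        8 * C * (1 + e) * (u + u ^ 2) * (c * S * a) / ρ ^ 2 := by
      have : S * (C * (u + u ^ 2) * a / ρ ^ 2 * c) + 8 * ((e * S / ρ) * (C * (u + u ^ 2) * a / ρ)) * c =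
          (1 + 8 * e) * C * (u + u ^ 2) * (c * S * a) / ρ ^ 2 := by field_simp
      rw [this]
      gcongr ?_ * _ * _ / _
      nlinarith
    rw [e1, s2]
    calc _ ≤ 0 + χ * (deriv φ (Up ω z t) * (-4 * Up ω z t * Sc ω z t ^ 2 / ρ ^ 2) * (S * (a * c)) +
          f * (S * (-(κ / 2) * e * (aa κ - e) * (1 - Sc ω z t ^ 2) - κ / 2 * e * Sc ω z t ^ 2) / ρ ^ 2 * (a * c) +
            8 * C * (1 + e) * (u + u ^ 2) * (c * S * a) / ρ ^ 2)) := by
          gcongr ?_ + χ * (_ + f * ?_)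
          linarith
      _ = _ := by ring
  · rw [e2, abs_mul, abs_mul, abs_of_nonneg hχ, abs_of_nonneg hφ]
    have b1 : |sx * (a * c) + S * (ax * c)| ≤ e * S / ρ * (a * c) + S * (C * u * a / ρ * c) := by
      refine (abs_add_le _ _).trans ?_
      rw [abs_mul, abs_mul S, abs_mul ax, abs_of_nonneg hS, abs_of_nonneg hc, abs_of_nonneg (mul_nonneg ha hc)]
      gcongr
    calc _ ≤ χ * (f * (e * S / ρ * (a * c) + S * (C * u * a / ρ * c))) := by gcongr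
      _ = (e + C * u) * (c * χ * f * S * a) / ρ := by ring
      _ ≤ _ := by
        gcongr
        nlinarith [mul_nonneg he hu, mul_nonneg (by linarith : 0 ≤ C) hu, mul_nonneg (mul_nonneg (by linarith : 0 ≤ C) he) hu,
          mul_nonneg (by linarith : 0 ≤ C - 1) he]

theorem contDiffOn_phi {p : Par} (hp : p.Ok) : ContDiffOn ℝ 1 (phi1 p) (Ioi 0) ∧ ContDiffOn ℝ 1 (phi2 p) (Ioi 0) ∧
    ContDiffOn ℝ 1 (phi3 p) (Ioi 0) := by
  have hR := hp.R0
  have hy := hp.y0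
  have hd : ContDiff ℝ 1 fun v : ℝ => v / p.R := contDiff_id.div_const _
  have h2 : ContDiff ℝ 1 (phi2 p) := (contDiff_psi.of_le (by norm_num)).comp hd
  refine ⟨(h2.contDiffOn.mul (hd.contDiffOn.rpow_const_of_ne fun v hv => ?_)).mul ?_, h2.contDiffOn, ?_⟩
  · exact (div_pos hv hR).ne'
  · refine Real.smoothTransition.contDiff.comp_contDiffOn ((contDiff_id.div_const _).contDiffOn.log fun v hv => ?_)
    exact (div_pos hv hy).ne'
  · exact (contDiffOn_Th _).comp hd.contDiffOn fun v hv => div_pos hv hR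

theorem deriv_phi {p : Par} (hp : p.Ok) {v : ℝ} (hv : 0 < v) :
    v * deriv (phi1 p) v = v / p.R * deriv psi (v / p.R) * (v / p.R) ^ (-bb p.κ) *
        Real.smoothTransition (Real.log (v / p.y)) - bb p.κ * phi1 p v +
        psi (v / p.R) * (v / p.R) ^ (-bb p.κ) * deriv Real.smoothTransition (Real.log (v / p.y)) ∧
    v * deriv (phi2 p) v = v / p.R * deriv psi (v / p.R) ∧
    v * deriv (phi3 p) v = Th' (dE p.κ) (v / p.R) := by
  have hR := hp.R0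
  have hy := hp.y0
  have hu : 0 < v / p.R := div_pos hv hR
  have d0 : HasDerivAt (fun v : ℝ => v / p.R) (1 / p.R) v := (hasDerivAt_id v).div_const _
  have d1 : HasDerivAt (fun v : ℝ => psi (v / p.R)) (deriv psi (v / p.R) * (1 / p.R)) v :=
    (contDiff_psi.differentiable (by norm_num) _).hasDerivAt.comp v d0
  have d2 : HasDerivAt (fun v : ℝ => (v / p.R) ^ (-bb p.κ)) (1 / p.R * -bb p.κ * (v / p.R) ^ (-bb p.κ - 1)) v :=
    d0.rpow_const (Or.inl hu.ne')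
  have d3 : HasDerivAt (fun v : ℝ => Real.smoothTransition (Real.log (v / p.y)))
      (deriv Real.smoothTransition (Real.log (v / p.y)) * (1 / p.y / (v / p.y))) v :=
    ((Real.smoothTransition.contDiff (n := 1)).differentiable (by norm_num) _).hasDerivAt.comp v
      (((hasDerivAt_id v).div_const _).log (div_pos hv hy).ne')
  have d4 : HasDerivAt (phi3 p) (Th' (dE p.κ) (v / p.R) / (v / p.R) * (1 / p.R)) v :=
    (hasDerivAt_Th _ hu).comp v d0
  refine ⟨?_, ?_, ?_⟩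
  · have := ((d1.mul d2).mul d3).deriv
    rw [show deriv (phi1 p) v = _ from this, Real.rpow_sub_one hu.ne']
    simp only [phi1, Pi.mul_apply]
    field_simp
    ring
  · rw [show deriv (phi2 p) v = _ from d1.deriv]; field_simp
  · rw [d4.deriv]; field_simp

/-- `φ` and `v φ'(v)` are bounded (`phi1` vanishes off `[y, 2R]`) -/
theorem phi_bd {p : Par} (hp : p.Ok) : ∃ B, 0 ≤ B ∧ ∀ v, 0 < v →
    (0 ≤ phi1 p v ∧ phi1 p v ≤ B ∧ |v * deriv (phi1 p) v| ≤ B) ∧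
    (0 ≤ phi2 p v ∧ phi2 p v ≤ B ∧ |v * deriv (phi2 p) v| ≤ B) ∧
    (0 ≤ phi3 p v ∧ phi3 p v ≤ B ∧ |v * deriv (phi3 p) v| ≤ B) := by
  obtain ⟨C, hC0, hC⟩ := deriv_psi
  obtain ⟨D, hD0, hD⟩ := deriv_st
  obtain ⟨hb0, hb1, -, -⟩ := bb_mem hp.κ0 hp.κ8
  obtain ⟨hd0, hd1, -⟩ := dE_mem hp.κ0 hp.κ8
  have hR := hp.R0
  have hy := hp.y0
  set M := (p.y / p.R) ^ (-bb p.κ) with hM
  have hM0 : 0 ≤ M := by positivity
  refine ⟨1 + 2 * C + M + D * M, by positivity, fun v hv => ?_⟩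
  obtain ⟨e1, e2, e3⟩ := deriv_phi hp hv
  have hu : 0 < v / p.R := div_pos hv hR
  have hψ := psi_mem (v / p.R)
  have hDM : 0 ≤ D * M := by positivity
  have k1 : |v / p.R * deriv psi (v / p.R)| ≤ 2 * C := by
    by_cases h : deriv psi (v / p.R) = 0
    · rw [h]; simp; positivity
    · rw [abs_mul, abs_of_pos hu]; gcongr; exacts [((hC _).2 h).2, (hC _).1]
  have k1' : |v / p.R * deriv psi (v / p.R) * (v / p.R) ^ (-bb p.κ)| ≤ 2 * C := by
    by_cases h : deriv psi (v / p.R) = 0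
    · rw [h]; simp; positivity
    · rw [abs_mul, abs_of_pos (a := (v / p.R) ^ (-bb p.κ)) (by positivity)]
      exact (mul_le_of_le_one_right (abs_nonneg _)
        (Real.rpow_le_one_of_one_le_of_nonpos ((hC _).2 h).1 (by linarith))).trans k1
  have hst0 := Real.smoothTransition.nonneg (Real.log (v / p.y))
  have hst1 := Real.smoothTransition.le_one (Real.log (v / p.y))
  have hpw : p.y ≤ v → (v / p.R) ^ (-bb p.κ) ≤ M := fun h =>
    Real.rpow_le_rpow_of_nonpos (by positivity) (by gcongr) (by linarith)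
  have hlog : v < p.y → Real.log (v / p.y) < 0 := fun h =>
    Real.log_neg (by positivity) ((div_lt_one hy).2 h)
  have k2 : 0 ≤ phi1 p v ∧ phi1 p v ≤ M := by
    refine ⟨mul_nonneg (mul_nonneg hψ.1 (by positivity)) hst0, ?_⟩
    unfold phi1
    rcases lt_or_ge v p.y with h | h
    · rw [Real.smoothTransition.zero_of_nonpos (hlog h).le, mul_zero]; exact hM0
    · calc _ ≤ 1 * M * 1 := by gcongr; exacts [hψ.2, hpw h]
        _ = M := by ring
  have k3 : 0 ≤ psi (v / p.R) * (v / p.R) ^ (-bb p.κ) * deriv Real.smoothTransition (Real.log (v / p.y)) ∧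
      psi (v / p.R) * (v / p.R) ^ (-bb p.κ) * deriv Real.smoothTransition (Real.log (v / p.y)) ≤ D * M := by
    refine ⟨mul_nonneg (mul_nonneg hψ.1 (by positivity)) (hD _).1, ?_⟩
    rcases lt_or_ge v p.y with h | h
    · have : deriv Real.smoothTransition (Real.log (v / p.y)) = 0 := by
        have : Real.smoothTransition =ᶠ[𝓝 (Real.log (v / p.y))] fun _ => 0 :=
          (eventually_lt_nhds (hlog h)).mono fun w hw => Real.smoothTransition.zero_of_nonpos hw.le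
        rw [this.deriv_eq, deriv_const]
      rw [this, mul_zero]; exact hDM
    · calc _ ≤ 1 * M * D := by gcongr; exacts [(hD _).1, hψ.2, hpw h, (hD _).2]
        _ = D * M := by ring
  refine ⟨⟨k2.1, by linarith [k2.2], ?_⟩, ⟨hψ.1, by unfold phi2; linarith [hψ.2], by rw [e2]; linarith⟩,
    (Th_mem _ hu.le).1, by unfold phi3; linarith [(Th_mem (dE p.κ) hu.le).2], ?_⟩
  · rw [e1]
    have a1 : |v / p.R * deriv psi (v / p.R) * (v / p.R) ^ (-bb p.κ) * Real.smoothTransition (Real.log (v / p.y))| ≤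
        2 * C := by
      rw [abs_mul, abs_of_nonneg hst0]; exact (mul_le_of_le_one_right (abs_nonneg _) hst1).trans k1'
    have a2 : 0 ≤ bb p.κ * phi1 p v := mul_nonneg hb0.le k2.1
    have a3 : bb p.κ * phi1 p v ≤ M := (mul_le_of_le_one_left k2.1 hb1.le).trans k2.2
    rw [abs_le] at a1 ⊢
    constructor <;> linarith [a1.1, a1.2, k3.1, k3.2]
  · rw [e3, abs_of_nonneg (Th'_mem hd0.le hu.le).1]; linarith [(Th'_mem hd0.le hu.le).2]

/-! ### Pt-b -/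

/-- the killing rate of `J1` -/
def kill (p : Par) (ω : Path) (t : ℝ) (z : ℂ) : ℝ :=
  4 * ind p z * cut p.η (Yc ω z t) * psi (Up ω z t / p.R) * (Up ω z t / p.R) ^ (-bb p.κ) *
    deriv Real.smoothTransition (Real.log (Up ω z t / p.y)) * Sc ω z t ^ aa p.κ * Sc ω z t ^ 2 * aF p.R ω z t

/-- the entry cost is paid by `P3` -/
theorem ptb_entry (hκ : 0 < κ) (hκ8 : κ < 8) : ∃ D, 1 ≤ D ∧ ∀ p : Par, p.Ok → p.κ = κ →
    ∀ (ω : Path) (z : ℂ) (t : ℝ), Alive ω z t →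
    bet p z * cut p.η (Yc ω z t) * (4 * Sc ω z t ^ 2 * |Up ω z t / p.R * deriv psi (Up ω z t / p.R)|) ≤
      D * P3 p ω t z := by
  obtain ⟨C, hC0, hC⟩ := deriv_psi
  obtain ⟨hd0, hd1, -⟩ := dE_mem hκ hκ8
  have h0 : 0 ≤ 64 * C / dE κ := by positivity
  refine ⟨1 + 64 * C / dE κ, by linarith, fun p hp hpκ ω z t h => ?_⟩
  subst hpκ
  have n3 := (P_nonneg hp ω t z).2.2
  by_cases hd : deriv psi (Up ω z t / p.R) = 0
  · rw [hd]; simp only [mul_zero, abs_zero]; positivity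
  obtain ⟨u1, u2⟩ := (hC _).2 hd
  set u := Up ω z t / p.R
  have hu : 0 < u := by linarith
  have t1 : dE p.κ / 8 ≤ Th' (dE p.κ) u := by
    refine le_trans ?_ (Th'_ge hd0.le hu)
    have : 1 / 2 ≤ min (u ^ dE p.κ) (u ^ (-dE p.κ)) := by
      refine le_min (le_trans (by norm_num) (Real.one_le_rpow u1 hd0.le)) ?_
      calc (1 : ℝ) / 2 ≤ u⁻¹ := by rw [one_div]; gcongr
        _ = u ^ (-1 : ℝ) := (Real.rpow_neg_one u).symm
        _ ≤ _ := Real.rpow_le_rpow_of_exponent_le u1 (by linarith)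
    nlinarith
  have t2 : cut p.η (Yc ω z t) ≤ cut (p.η / 8) (Yc ω z t) :=
    cut_anti (by have := hp.η0; positivity) (by linarith [hp.η0]) Yc_nonneg
  have t3 : |u * deriv psi u| ≤ 2 * C := by rw [abs_mul, abs_of_pos hu]; gcongr; exact (hC _).1
  have hβ := (bet_mem p z).1
  have hχ := (cut_mem (p.η / 8) (Yc ω z t)).1
  calc _ ≤ bet p z * cut (p.η / 8) (Yc ω z t) * (4 * Sc ω z t ^ 2 * (2 * C)) := by gcongr
    _ = 64 * C / dE p.κ * (bet p z * cut (p.η / 8) (Yc ω z t) * Sc ω z t ^ 2 * (dE p.κ / 8)) := by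
        field_simp; ring
    _ ≤ (1 + 64 * C / dE p.κ) * P3 p ω t z := by
        unfold P3; gcongr; linarith

/-- `4b = κ a / 2` cancels the main terms; the term with `ψ'` lives on `u ∈ [1,2]`, where `Th' ≥ δ/8`, and
`cut η ≤ cut (η/8)`, `ind ≤ bet`, `u^{-b} ≤ 1`, `S^a a ≤ 1` -/
theorem J1_diag (hκ : 0 < κ) (hκ8 : κ < 8) : ∃ C, 1 ≤ C ∧ ∀ p : Par, p.Ok → p.κ = κ → ∀ (ω : Path) (z : ℂ) (t : ℝ),
    Alive ω z t →
    (J1 p z).gen κ t ω ≤ p.K * (-kill p ω t z + C * P3 p ω t z +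
      C * (us p.R ω z t + us p.R ω z t ^ 2) * P1 p ω t z) / (p.R ^ 2 * ‖Zc ω z t‖ ^ 2) ∧
    |(J1 p z).x t (ω t) ω| ≤ C * p.K * (1 + us p.R ω z t) * P1 p ω t z / (p.R ^ 2 * ‖Zc ω z t‖) := by
  obtain ⟨C, hC, hP⟩ := jP_diag
  obtain ⟨D, hD, hE⟩ := ptb_entry hκ hκ8
  obtain ⟨hb0, hb1, hba, hb4⟩ := bb_mem hκ hκ8
  have ha0 : 0 ≤ aa κ := by linarith
  have hCa : 0 ≤ C * (1 + aa κ) := by positivity
  refine ⟨D + C * (1 + aa κ), by linarith, fun p hp hpκ ω z t h => ?_⟩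
  subst hpκ
  have hR := hp.R0
  have hK := hp.K0
  obtain ⟨hi0, hi1⟩ := ind_mem p z
  have hU := h.up_pos
  have hst0 := Real.smoothTransition.nonneg (Real.log (Up ω z t / p.y))
  have hst1 := Real.smoothTransition.le_one (Real.log (Up ω z t / p.y))
  have hψ := psi_mem (Up ω z t / p.R)
  have hφ : 0 ≤ phi1 p (Up ω z t) := mul_nonneg (mul_nonneg hψ.1 (by positivity)) hst0
  obtain ⟨g1, g2⟩ := hP p.κ p.R p.η (phi1 p) (aa p.κ) (p.K * ind p z / p.R ^ 2) ω z t hκ hκ8 hR hp.η0 ha0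
    (by positivity) hφ h
  have e := hE p hp rfl ω z t h
  have hZ : 0 < ‖Zc ω z t‖ := (alive_iff.1 h).trans_le Yc_le_norm
  have hχ := (cut_mem p.η (Yc ω z t)).1
  have hS : 0 ≤ Sc ω z t ^ aa p.κ := Real.rpow_nonneg Sc_mem.1 _
  have hS1 : Sc ω z t ^ aa p.κ ≤ 1 := Real.rpow_le_one Sc_mem.1 Sc_mem.2 ha0
  have ha := aF_mem p.R ω z t
  have hu := us_nonneg hR ω z t
  obtain ⟨n1, -, n3⟩ := P_nonneg hp ω t z
  have hP1 : ind p z * cut p.η (Yc ω z t) * phi1 p (Up ω z t) * Sc ω z t ^ aa p.κ * aF p.R ω z t ≤ P1 p ω t z := by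
    calc _ = P1 p ω t z * Real.smoothTransition (Real.log (Up ω z t / p.y)) := by unfold P1 phi1; ring
      _ ≤ _ := mul_le_of_le_one_right n1 hst1
  constructor
  · refine g1.trans ?_
    rw [(deriv_phi hp hU).1]
    have k1 : ind p z * cut p.η (Yc ω z t) * Sc ω z t ^ aa p.κ * aF p.R ω z t * (-4 * Sc ω z t ^ 2 *
        (Up ω z t / p.R * deriv psi (Up ω z t / p.R) * (Up ω z t / p.R) ^ (-bb p.κ) *
          Real.smoothTransition (Real.log (Up ω z t / p.y)))) ≤ D * P3 p ω t z := by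
      refine le_trans ?_ e
      have w : |(Up ω z t / p.R) * deriv psi (Up ω z t / p.R) * (Up ω z t / p.R) ^ (-bb p.κ) *
          Real.smoothTransition (Real.log (Up ω z t / p.y))| ≤ |Up ω z t / p.R * deriv psi (Up ω z t / p.R)| := by
        by_cases h0 : deriv psi (Up ω z t / p.R) = 0
        · simp [h0]
        obtain ⟨C', -, hC'⟩ := deriv_psi
        rw [abs_mul, abs_mul _ (_ ^ _), abs_of_nonneg hst0, abs_of_pos (a := (Up ω z t / p.R) ^ (-bb p.κ)) (by positivity)]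
        calc _ ≤ |Up ω z t / p.R * deriv psi (Up ω z t / p.R)| * 1 * 1 := by
              gcongr
              exact Real.rpow_le_one_of_one_le_of_nonpos ((hC' _).2 h0).1 (by linarith)
          _ = _ := by ring
      have w2 := neg_le_abs ((Up ω z t / p.R) * deriv psi (Up ω z t / p.R) * (Up ω z t / p.R) ^ (-bb p.κ) *
          Real.smoothTransition (Real.log (Up ω z t / p.y)))
      calc _ = ind p z * cut p.η (Yc ω z t) * Sc ω z t ^ aa p.κ * aF p.R ω z t * (4 * Sc ω z t ^ 2 *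
          -(Up ω z t / p.R * deriv psi (Up ω z t / p.R) * (Up ω z t / p.R) ^ (-bb p.κ) *
          Real.smoothTransition (Real.log (Up ω z t / p.y)))) := by ring
        _ ≤ ind p z * cut p.η (Yc ω z t) * Sc ω z t ^ aa p.κ * aF p.R ω z t * (4 * Sc ω z t ^ 2 *
          |Up ω z t / p.R * deriv psi (Up ω z t / p.R)|) := by
            have := ha.1
            gcongr; exact w2.trans w
        _ ≤ bet p z * cut p.η (Yc ω z t) * 1 * 1 * (4 * Sc ω z t ^ 2 *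
          |Up ω z t / p.R * deriv psi (Up ω z t / p.R)|) := by
            have := ha.1
            have := (bet_mem p z).1
            gcongr; exact ha.2
        _ = _ := by ring
    have k2 : C * (1 + aa p.κ) * (us p.R ω z t + us p.R ω z t ^ 2) *
        (ind p z * cut p.η (Yc ω z t) * phi1 p (Up ω z t) * Sc ω z t ^ aa p.κ * aF p.R ω z t) ≤
        (D + C * (1 + aa p.κ)) * (us p.R ω z t + us p.R ω z t ^ 2) * P1 p ω t z := by
      have := ha.1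
      gcongr; linarith
    have k3 : D * P3 p ω t z ≤ (D + C * (1 + aa p.κ)) * P3 p ω t z := by gcongr; linarith
    calc _ = p.K * (-kill p ω t z + ind p z * cut p.η (Yc ω z t) * Sc ω z t ^ aa p.κ * aF p.R ω z t *
          (-4 * Sc ω z t ^ 2 * (Up ω z t / p.R * deriv psi (Up ω z t / p.R) * (Up ω z t / p.R) ^ (-bb p.κ) *
          Real.smoothTransition (Real.log (Up ω z t / p.y)))) +
          C * (1 + aa p.κ) * (us p.R ω z t + us p.R ω z t ^ 2) *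
          (ind p z * cut p.η (Yc ω z t) * phi1 p (Up ω z t) * Sc ω z t ^ aa p.κ * aF p.R ω z t) +
          ind p z * cut p.η (Yc ω z t) * phi1 p (Up ω z t) * Sc ω z t ^ aa p.κ * aF p.R ω z t * Sc ω z t ^ 2 *
            (4 * bb p.κ - p.κ / 2 * aa p.κ)) / (p.R ^ 2 * ‖Zc ω z t‖ ^ 2) := by
          unfold kill; field_simp; ring
      _ ≤ _ := by
          rw [hb4, sub_self, mul_zero, add_zero]
          gcongr p.K * ?_ / _
          linarith
  · refine g2.trans ?_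
    calc _ = C * (1 + aa p.κ) * p.K * (1 + us p.R ω z t) * (ind p z * cut p.η (Yc ω z t) * phi1 p (Up ω z t) *
          Sc ω z t ^ aa p.κ * aF p.R ω z t) / (p.R ^ 2 * ‖Zc ω z t‖) := by field_simp
      _ ≤ _ := by
          have := ha.1
          gcongr; linarith

theorem J2_diag (hκ : 0 < κ) (hκ8 : κ < 8) : ∃ C, 1 ≤ C ∧ ∀ p : Par, p.Ok → p.κ = κ → ∀ (ω : Path) (z : ℂ) (t : ℝ),
    Alive ω z t →
    (J2 p z).gen κ t ω ≤ p.K * (-cE κ * P2 p ω t z + C * P3 p ω t z +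
      C * (us p.R ω z t + us p.R ω z t ^ 2) * P2 p ω t z) / (p.R ^ 2 * ‖Zc ω z t‖ ^ 2) ∧
    |(J2 p z).x t (ω t) ω| ≤ C * p.K * (1 + us p.R ω z t) * P2 p ω t z / (p.R ^ 2 * ‖Zc ω z t‖) := by
  obtain ⟨C, hC, hP⟩ := jP_diag
  obtain ⟨D, hD, hE⟩ := ptb_entry hκ hκ8
  obtain ⟨hg0, hg1, -⟩ := gE_mem hκ hκ8
  have hCa : 0 ≤ C * (1 + gE κ) := by positivity
  refine ⟨D + C * (1 + gE κ), by linarith, fun p hp hpκ ω z t h => ?_⟩
  subst hpκ
  have hR := hp.R0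
  have hK := hp.K0
  have hβ := (bet_mem p z).1
  have hU := h.up_pos
  have hψ := psi_mem (Up ω z t / p.R)
  obtain ⟨g1, g2⟩ := hP p.κ p.R p.η (phi2 p) (gE p.κ) (p.K * bet p z / p.R ^ 2) ω z t hκ hκ8 hR hp.η0 hg0.le
    (by positivity) hψ.1 h
  have e := hE p hp rfl ω z t h
  have hZ : 0 < ‖Zc ω z t‖ := (alive_iff.1 h).trans_le Yc_le_norm
  have hχ := (cut_mem p.η (Yc ω z t)).1
  have hS : 0 ≤ Sc ω z t ^ gE p.κ := Real.rpow_nonneg Sc_mem.1 _
  have hS1 : Sc ω z t ^ gE p.κ ≤ 1 := Real.rpow_le_one Sc_mem.1 Sc_mem.2 hg0.le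
  have ha := aF_mem p.R ω z t
  have ha0 := ha.1
  have hu := us_nonneg hR ω z t
  obtain ⟨-, n2, n3⟩ := P_nonneg hp ω t z
  constructor
  · refine g1.trans ?_
    rw [(deriv_phi hp hU).2.1]
    have k1 : bet p z * cut p.η (Yc ω z t) * Sc ω z t ^ gE p.κ * aF p.R ω z t * (-4 * Sc ω z t ^ 2 *
        (Up ω z t / p.R * deriv psi (Up ω z t / p.R))) ≤ D * P3 p ω t z := by
      refine le_trans ?_ e
      have w2 := neg_le_abs ((Up ω z t / p.R) * deriv psi (Up ω z t / p.R))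
      calc _ = bet p z * cut p.η (Yc ω z t) * Sc ω z t ^ gE p.κ * aF p.R ω z t * (4 * Sc ω z t ^ 2 *
          -(Up ω z t / p.R * deriv psi (Up ω z t / p.R))) := by ring
        _ ≤ bet p z * cut p.η (Yc ω z t) * Sc ω z t ^ gE p.κ * aF p.R ω z t * (4 * Sc ω z t ^ 2 *
          |Up ω z t / p.R * deriv psi (Up ω z t / p.R)|) := by gcongr
        _ ≤ bet p z * cut p.η (Yc ω z t) * 1 * 1 * (4 * Sc ω z t ^ 2 *
          |Up ω z t / p.R * deriv psi (Up ω z t / p.R)|) := by gcongr; exact ha.2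
        _ = _ := by ring
    have k2 : C * (1 + gE p.κ) * (us p.R ω z t + us p.R ω z t ^ 2) * P2 p ω t z ≤
        (D + C * (1 + gE p.κ)) * (us p.R ω z t + us p.R ω z t ^ 2) * P2 p ω t z := by
      gcongr; linarith
    have k3 : D * P3 p ω t z ≤ (D + C * (1 + gE p.κ)) * P3 p ω t z := by gcongr; linarith
    have k4 := mul_le_mul_of_nonneg_right (cE_le hκ hκ8 (Sc_mem (ω := ω) (z := z) (t := t))) n2
    calc _ = p.K * ((-(p.κ / 2) * gE p.κ * (aa p.κ - gE p.κ) * (1 - Sc ω z t ^ 2) - p.κ / 2 * gE p.κ * Sc ω z t ^ 2) *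
          P2 p ω t z + bet p z * cut p.η (Yc ω z t) * Sc ω z t ^ gE p.κ * aF p.R ω z t *
          (-4 * Sc ω z t ^ 2 * (Up ω z t / p.R * deriv psi (Up ω z t / p.R))) +
          C * (1 + gE p.κ) * (us p.R ω z t + us p.R ω z t ^ 2) * P2 p ω t z) / (p.R ^ 2 * ‖Zc ω z t‖ ^ 2) := by
          unfold P2 phi2; field_simp; ring
      _ ≤ _ := by
          gcongr p.K * ?_ / _
          linarith
  · refine g2.trans ?_
    calc _ = C * (1 + gE p.κ) * p.K * (1 + us p.R ω z t) * P2 p ω t z / (p.R ^ 2 * ‖Zc ω z t‖) := by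
          unfold P2 phi2; field_simp
      _ ≤ _ := by gcongr; linarith

theorem J3_diag {p : Par} (hp : p.Ok) {ω : Path} {z : ℂ} {t : ℝ} (h : Alive ω z t) :
    (J3 p z).gen κ t ω ≤ -4 * p.K₃ * P3 p ω t z / (p.R ^ 2 * ‖Zc ω z t‖ ^ 2) ∧ (J3 p z).x t (ω t) ω = 0 := by
  have hR := hp.R0
  have hK : 0 < p.K₃ := by linarith [hp.K₃1]
  have hβ := (bet_mem p z).1
  have hU := h.up_pos
  have hZ : 0 < ‖Zc ω z t‖ := (alive_iff.1 h).trans_le Yc_le_norm
  have hχ' := deriv_cut_nonneg (η := p.η / 8) (by have := hp.η0; positivity) (Yc ω z t)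
  have hY : 0 ≤ Yc ω z t := Yc_nonneg
  have hφ : 0 ≤ phi3 p (Up ω z t) := (Th_mem _ (by positivity)).1
  refine ⟨?_, by simp [J3, jfY, jfU, Jet.fv, Jet.const, Jet.mul]⟩
  have e1 : (J3 p z).gen κ t ω = -(deriv (cut (p.η / 8)) (Yc ω z t) * (2 * Yc ω z t / ‖Zc ω z t‖ ^ 2) *
      (phi3 p (Up ω z t) * (p.K₃ * bet p z / p.R ^ 2))) + cut (p.η / 8) (Yc ω z t) *
      ((Up ω z t * deriv (phi3 p) (Up ω z t)) * (-4 * Sc ω z t ^ 2 / ‖Zc ω z t‖ ^ 2) *
        (p.K₃ * bet p z / p.R ^ 2)) := by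
    simp only [J3, Jet.gen_mul, Jet.val_mul, jfY, jfU, Jet.gen_fv, Jet.gen_const]
    simp only [Jet.val, Jet.fv, Jet.const, Jet.mul, Pi.zero_apply]
    ring
  rw [e1, (deriv_phi hp hU).2.2]
  have : 0 ≤ deriv (cut (p.η / 8)) (Yc ω z t) * (2 * Yc ω z t / ‖Zc ω z t‖ ^ 2) *
      (phi3 p (Up ω z t) * (p.K₃ * bet p z / p.R ^ 2)) := by positivity
  have e2 : cut (p.η / 8) (Yc ω z t) * (Th' (dE p.κ) (Up ω z t / p.R) * (-4 * Sc ω z t ^ 2 / ‖Zc ω z t‖ ^ 2) *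
        (p.K₃ * bet p z / p.R ^ 2)) = -4 * p.K₃ * P3 p ω t z / (p.R ^ 2 * ‖Zc ω z t‖ ^ 2) := by
    unfold P3; field_simp
  linarith

/-! ### Pt-c -/

/-- Where `dens ≠ 0`: `Υ < 3y ≤ R` so `ψ = 1`; `S > s₀` so `‖Z - i‖Z‖‖ ≤ 2‖Z‖ ≤ (2/s₀) Y`, and `KoebeF.far` (with `gt_ft`,
`M = max 1 (2/s₀)`) gives `‖z - w‖ ≤ C M^C · 3y ≤ R`, so `a ≥ 2^{-8}`.  `Gr = R^{-b} u^{-b} S^a`. -/
theorem kill_ge (hκ : 0 < κ) (hκ8 : κ < 8) {s₀ : ℝ} (hs₀ : 0 < s₀) : ∃ c, 0 < c ∧ ∀ p : Par, p.Ok → p.κ = κ →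
    p.y ≤ c * p.R → ∀ (ω : Path) (z : ℂ) (t : ℝ),
    c * p.R ^ bb κ * (ind p z * (cut p.η (Yc ω z t) * dens κ s₀ p.y ω z t)) * ‖Zc ω z t‖ ^ 2 ≤ kill p ω t z := by
  obtain ⟨C, hC⟩ := exists_koebeF
  have hC2 := hC.two_le
  set M := max 1 (2 / s₀) with hM
  have hM1 : 1 ≤ M := le_max_left _ _
  have hMC : 1 ≤ M ^ C := Real.one_le_rpow hM1 (by linarith)
  set c := min (1 / 256) (1 / (3 * (C * M ^ C))) with hc
  have hc0 : 0 < c := lt_min (by norm_num) (by positivity)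
  refine ⟨c, hc0, fun p hp hpκ hy ω z t => ?_⟩
  subst hpκ
  have hR := hp.R0
  obtain ⟨hi0, -⟩ := ind_mem p z
  have hχ := (cut_mem p.η (Yc ω z t)).1
  have hψ := psi_mem (Up ω z t / p.R)
  obtain ⟨D, -, hD⟩ := deriv_st
  have hst := (hD (Real.log (Up ω z t / p.y))).1
  have hS : 0 ≤ Sc ω z t ^ aa p.κ := Real.rpow_nonneg Sc_mem.1 _
  have hU0 : 0 ≤ Up ω z t := Up_nonneg
  have ha := (aF_mem p.R ω z t).1
  have hψ0 := hψ.1
  by_cases hd : dens p.κ s₀ p.y ω z t = 0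
  · rw [hd]; simp only [mul_zero, zero_mul]; unfold kill; positivity
  obtain ⟨h, -, hU, hSs⟩ := dens_supp hκ8 hp.y0 hs₀ hd
  have hY := alive_iff.1 h
  have hZ : 0 < ‖Zc ω z t‖ := hY.trans_le Yc_le_norm
  have hUR : C * M ^ C * Up ω z t ≤ p.R := by
    have : c ≤ 1 / (3 * (C * M ^ C)) := min_le_right _ _
    calc C * M ^ C * Up ω z t ≤ C * M ^ C * (3 * (1 / (3 * (C * M ^ C)) * p.R)) := by
          gcongr; exact hU.le.trans (by gcongr; exact hy.trans (by gcongr))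
      _ = p.R := by field_simp
  have hUR' : Up ω z t / p.R ≤ 1 := by
    rw [div_le_one hR]; refine le_trans ?_ hUR
    exact le_mul_of_one_le_left hU0 (by nlinarith)
  have hζ : (ω t : ℂ) + Complex.I * (‖Zc ω z t‖ : ℝ) ∈ HH := by simpa [HH] using hZ
  have hw : Alive ω (wz ω z t) t := alive_ft h.1 hζ
  have hgw : gt ω (wz ω z t) t = ω t + Complex.I * (‖Zc ω z t‖ : ℝ) := gt_ft h.1 hζ
  have hYw : Yc ω (wz ω z t) t = ‖Zc ω z t‖ := by unfold Yc; rw [hgw]; simp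
  have hfar := (hC.far ω z (wz ω z t) t M h hw hM1 (by
    rw [hYw, min_eq_left Yc_le_norm, hgw]
    have e : (ω t : ℂ) + Complex.I * (‖Zc ω z t‖ : ℝ) - gt ω z t = Complex.I * (‖Zc ω z t‖ : ℝ) - Zc ω z t := by
      unfold Zc; ring
    rw [e]
    have h2 : s₀ * ‖Zc ω z t‖ ≤ Yc ω z t := by
      unfold Sc at hSs; rw [lt_div_iff₀ hZ] at hSs; exact hSs.le
    calc _ ≤ ‖Complex.I * (‖Zc ω z t‖ : ℝ)‖ + ‖Zc ω z t‖ := norm_sub_le _ _
      _ = 2 / s₀ * (s₀ * ‖Zc ω z t‖) := by simp; field_simp; ring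
      _ ≤ M * Yc ω z t := by gcongr; exact le_max_right _ _)).1
  have haF : 1 / 256 ≤ aF p.R ω z t := by
    unfold aF qq
    have : ‖z - wz ω z t‖ ^ 2 / p.R ^ 2 ≤ 1 := by
      rw [div_le_one (by positivity), norm_sub_rev]; gcongr; exact hfar.trans hUR
    rw [one_div]
    refine inv_anti₀ (by positivity) ?_
    calc _ ≤ (2 : ℝ) ^ 8 := by gcongr; linarith
      _ = 256 := by norm_num
  have hst1 := Real.smoothTransition.le_one (Sc ω z t / s₀ - 1)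
  have hst0 := Real.smoothTransition.nonneg (Sc ω z t / s₀ - 1)
  have e : p.R ^ bb p.κ * Up ω z t ^ (-bb p.κ) = (Up ω z t / p.R) ^ (-bb p.κ) := by
    rw [Real.div_rpow hU0 hR.le, Real.rpow_neg hR.le, div_inv_eq_mul, mul_comm]
  calc _ = c * (4 * ind p z * cut p.η (Yc ω z t) * 1 * (p.R ^ bb p.κ * Up ω z t ^ (-bb p.κ)) *
        deriv Real.smoothTransition (Real.log (Up ω z t / p.y)) * Sc ω z t ^ aa p.κ * Sc ω z t ^ 2) *
        Real.smoothTransition (Sc ω z t / s₀ - 1) := by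
        unfold dens Gr Vg; field_simp
    _ ≤ aF p.R ω z t * (4 * ind p z * cut p.η (Yc ω z t) * 1 * (p.R ^ bb p.κ * Up ω z t ^ (-bb p.κ)) *
        deriv Real.smoothTransition (Real.log (Up ω z t / p.y)) * Sc ω z t ^ aa p.κ * Sc ω z t ^ 2) * 1 := by
        gcongr; exact (min_le_left _ _).trans haF
    _ = kill p ω t z := by unfold kill; rw [e, psi_one hUR']; ring

/-- at dead points all the jets vanish -/
theorem JI_dead {p : Par} (hp : p.Ok) {ω : Path} {z : ℂ} {t x : ℝ} (h : ¬Alive ω z t) :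
    (JI p z).f t x ω = 0 ∧ (JI p z).s t x ω = 0 ∧ (JI p z).x t x ω = 0 ∧ (JI p z).xx t x ω = 0 := by
  have hY : Yc ω z t = 0 := (dead h).2.1
  have hη := hp.η0
  obtain ⟨a1, a2⟩ := cut_eq_zero hη (v := 0) hη.le
  obtain ⟨b1, b2⟩ := cut_eq_zero (η := p.η / 8) (by positivity) (v := 0) (by positivity)
  simp [JI, J1, J2, J3, jP, jfY, Jet.add, Jet.mul, Jet.fv, hY, a1, a2, b1, b2]

theorem JI_diag (hκ : 0 < κ) (hκ8 : κ < 8) {s₀ : ℝ} (hs₀ : 0 < s₀) : ∃ c C, 0 < c ∧ 1 ≤ C ∧ ∀ p : Par, p.Ok →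
    p.κ = κ → C ≤ p.K₃ → p.y ≤ c * p.R → ∀ (ω : Path) (z : ℂ) (t : ℝ),
    (JI p z).gen κ t ω ≤ -(c * p.K * p.R ^ (bb κ - 2)) * (ind p z * (cut p.η (Yc ω z t) * dens κ s₀ p.y ω z t)) +
      C * p.K * (us p.R ω z t + us p.R ω z t ^ 2) * (P1 p ω t z + P2 p ω t z) / (p.R ^ 2 * ‖Zc ω z t‖ ^ 2) -
      (cE κ * p.K * P2 p ω t z + 2 * p.K₃ * P3 p ω t z) / (p.R ^ 2 * ‖Zc ω z t‖ ^ 2) ∧
    |(JI p z).x t (ω t) ω| ≤
      C * p.K * (1 + us p.R ω z t) * (P1 p ω t z + P2 p ω t z) / (p.R ^ 2 * ‖Zc ω z t‖) := by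
  obtain ⟨C1, hC1, h1⟩ := J1_diag hκ hκ8
  obtain ⟨C2, hC2, h2⟩ := J2_diag hκ hκ8
  obtain ⟨c, hc, hk⟩ := kill_ge hκ hκ8 hs₀
  refine ⟨c, C1 + C2, hc, by linarith, fun p hp hpκ hK₃ hy ω z t => ?_⟩
  have hR := hp.R0
  have hK := hp.K0
  have hK1 := hp.K1
  obtain ⟨n1, n2, n3⟩ := P_nonneg hp ω t z
  by_cases h : Alive ω z t
  swap
  · obtain ⟨-, d2, d3, d4⟩ := JI_dead (x := ω t) hp h
    have z1 : P1 p ω t z = 0 := by by_contra hc; exact h (P_supp hp (Or.inl hc)).1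
    have z2 : P2 p ω t z = 0 := by by_contra hc; exact h (P_supp hp (Or.inr hc)).1
    have z3 : P3 p ω t z = 0 := by by_contra hc; exact h (P3_supp hp hc).1
    have z4 : dens κ s₀ p.y ω z t = 0 := by by_contra hc; exact h (dens_supp hκ8 hp.y0 hs₀ hc).1
    simp [Jet.gen, d2, d3, d4, z1, z2, z3, z4]
  obtain ⟨a1, b1⟩ := h1 p hp hpκ ω z t h
  obtain ⟨a2, b2⟩ := h2 p hp hpκ ω z t h
  obtain ⟨a3, b3⟩ := J3_diag (κ := κ) hp h
  have k := hk p hp hpκ hy ω z t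
  have hZ : 0 < ‖Zc ω z t‖ := (alive_iff.1 h).trans_le Yc_le_norm
  have hu := us_nonneg hR ω z t
  constructor
  · rw [JI, Jet.gen_add, Jet.gen_add]
    refine (add_le_add a1 (add_le_add a2 a3)).trans ?_
    have e : -(c * p.K * p.R ^ (bb κ - 2)) * (ind p z * (cut p.η (Yc ω z t) * dens κ s₀ p.y ω z t)) =
        -(p.K * (c * p.R ^ bb κ * (ind p z * (cut p.η (Yc ω z t) * dens κ s₀ p.y ω z t)) * ‖Zc ω z t‖ ^ 2)) /
          (p.R ^ 2 * ‖Zc ω z t‖ ^ 2) := by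
      rw [Real.rpow_sub hR, Real.rpow_two]; field_simp
    rw [e, ← add_div, ← add_div, ← add_div, ← sub_div]
    gcongr ?_ / _
    have w1 := mul_le_mul_of_nonneg_left k hK.le
    have hv : 0 ≤ us p.R ω z t + us p.R ω z t ^ 2 := by positivity
    have w2 : 0 ≤ C2 * p.K * (us p.R ω z t + us p.R ω z t ^ 2) * P1 p ω t z := by positivity
    have w3 : 0 ≤ C1 * p.K * (us p.R ω z t + us p.R ω z t ^ 2) * P2 p ω t z := by positivity
    have w4 : p.K * (C1 + C2) * P3 p ω t z ≤ 1 * p.K₃ * P3 p ω t z := by gcongr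
    have w5 : 0 ≤ p.K₃ * P3 p ω t z := mul_nonneg (by linarith [hp.K₃1]) n3
    nlinarith
  · have e : (JI p z).x t (ω t) ω = (J1 p z).x t (ω t) ω + (J2 p z).x t (ω t) ω := by
      simp [JI, Jet.add, b3]
    rw [e]
    refine (abs_add_le _ _).trans ((add_le_add b1 b2).trans ?_)
    rw [← add_div]
    gcongr ?_ / _
    have w2 : 0 ≤ C2 * p.K * (1 + us p.R ω z t) * P1 p ω t z := by positivity
    have w3 : 0 ≤ C1 * p.K * (1 + us p.R ω z t) * P2 p ω t z := by positivity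
    nlinarith

theorem JI_val {p : Par} (hp : p.Ok) (ω : Path) (z : ℂ) (t : ℝ) : 0 ≤ (JI p z).val t ω ∧
    ((z ∈ ball p.x₀ p.r → 2 * p.R ≤ Up ω z t) → (JI p z).val t ω ≤ 2 * p.K₃ * (bet p z / p.R ^ 2)) := by
  have hR := hp.R0
  have hK := hp.K0
  have hK1 := hp.K1
  have hK₃ := hp.K₃1
  obtain ⟨hi0, -⟩ := ind_mem p z
  have hβ := (bet_mem p z).1
  have hχ := cut_mem p.η (Yc ω z t)
  have hχ' := cut_mem (p.η / 8) (Yc ω z t)
  have hψ := psi_mem (Up ω z t / p.R)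
  have hU : 0 ≤ Up ω z t := Up_nonneg
  have hθ := Th_mem (dE p.κ) (div_nonneg hU hR.le)
  have ha := aF_mem p.R ω z t
  have hS : ∀ e : ℝ, 0 ≤ Sc ω z t ^ e := fun e => Real.rpow_nonneg Sc_mem.1 _
  have hst0 := Real.smoothTransition.nonneg (Real.log (Up ω z t / p.y))
  have hφ : 0 ≤ phi1 p (Up ω z t) := mul_nonneg (mul_nonneg hψ.1 (by positivity)) hst0
  have e3 : (J3 p z).val t ω = cut (p.η / 8) (Yc ω z t) * (Th (dE p.κ) (Up ω z t / p.R) *
    (p.K₃ * bet p z / p.R ^ 2)) := rfl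
  have := hχ.1
  have := hχ'.1
  have := hψ.1
  have := hθ.1
  have := ha.1
  have := hS (aa p.κ)
  have := hS (gE p.κ)
  rw [JI, Jet.val_add, Jet.val_add, J1, J2, jP_val, jP_val, e3]
  unfold phi2
  refine ⟨by positivity, fun h => ?_⟩
  have z1 : p.K * ind p z / p.R ^ 2 * cut p.η (Yc ω z t) * phi1 p (Up ω z t) * Sc ω z t ^ aa p.κ * aF p.R ω z t = 0 := by
    by_cases hz : z ∈ ball p.x₀ p.r
    · unfold phi1; rw [psi_zero ((le_div_iff₀ hR).2 (h hz))]; simp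
    · simp [ind, hz]
  rw [z1, zero_add]
  calc _ ≤ p.K₃ * bet p z / p.R ^ 2 * 1 * 1 * 1 * 1 + 1 * (1 * (p.K₃ * bet p z / p.R ^ 2)) := by
        gcongr
        exacts [by linarith, hχ.2, hψ.2, Real.rpow_le_one Sc_mem.1 Sc_mem.2 (gE_mem hp.κ0 hp.κ8).1.le, ha.2, hχ'.2,
          hθ.2]
    _ = _ := by ring

end Crest.Agent.R162.E
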